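import Vale.Agent.P223.H566.Glob
import Vale.Agent.P223.X.SpecU
import Mathlib.Analysis.InnerProductSpace.l2Space

/-! Stage 1 : block statements. -/

namespace Vale.Agent.P223.H566

open scoped ContDiff InnerProductSpace
open MeasureTheory Vale.Agent.P223.H Vale.Agent.P223.X

/-! ## local identities (helper66) -/

/-- BLOCK L : local identities on `ℝ^n`. -/
def SpecLocal : Prop := ∀ (n : ℕ) (V : Type) [NormedAddCommGroup V] [InnerProductSpace ℂ V]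
  [FiniteDimensional ℂ V] (K : Cliff n V) (G β : E n → Matrix (Fin n) (Fin n) ℝ),
  (∀ i j, ContDiff ℝ ∞ (fun x => G x i j)) → (∀ x, (G x).PosDef) → Fr G β →
  -- skew symmetry
  (∀ φ ψ : E n → V, ContDiff ℝ ∞ φ → ContDiff ℝ ∞ ψ → ∀ y,
    (⟪dir K G β φ y, ψ y⟫_ℂ).re + (⟪φ y, dir K G β ψ y⟫_ℂ).re =
      divg G (fun z k => (⟪cl K β z k (φ z), ψ z⟫_ℂ).re) y) ∧
  -- Lichnerowicz
  (∀ φ : E n → V, ContDiff ℝ ∞ φ → ∀ y,
    -2 * (⟪dir K G β (dir K G β φ) y, φ y⟫_ℂ).re =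
      -lap G (fun z => ‖φ z‖ ^ 2) y + 2 * nsq K G β φ y + Vale.Agent.P223.H.scal G y / 2 * ‖φ y‖ ^ 2) ∧
  -- Kato
  (∀ φ : E n → V, ContDiff ℝ ∞ φ → ∀ y, 0 ≤ nsq K G β φ y ∧
    gradSq G (fun z => ‖φ z‖ ^ 2) y ≤ 4 * ‖φ y‖ ^ 2 * nsq K G β φ y) ∧
  -- volume element
  (∀ φ : E n → V, ContDiff ℝ ∞ φ → ∀ y,
    dir K G β (fun z => K.vol (φ z)) y = (-1 : ℂ) ^ (n + 1) • K.vol (dir K G β φ y)) ∧
  -- Clifford multiplication
  (∀ (f : E n → ℝ) (y : E n) (v w : V), ⟪cdf K β f y v, w⟫_ℂ = ⟪v, cdf K β f y w⟫_ℂ ∧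
    ‖cdf K β f y v‖ ^ 2 = gradSq G f y * ‖v‖ ^ 2 ∧
    K.vol (cdf K β f y v) = (-1 : ℂ) ^ (n + 1) • cdf K β f y (K.vol v)) ∧
  (∀ v w : V, ⟪K.vol v, K.vol w⟫_ℂ = ⟪v, w⟫_ℂ) ∧
  -- the square of the Dirac operator
  ∃ (B : Fin n → E n → V →L[ℂ] V) (A : E n → V →L[ℂ] V), (∀ k, ContDiff ℝ ∞ (B k)) ∧
    ContDiff ℝ ∞ A ∧ ∀ φ : E n → V, ContDiff ℝ ∞ φ → ∀ y, dir K G β (dir K G β φ) y =
      (∑ j, ∑ k, (((G y)⁻¹ j k : ℝ) : ℂ) •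
        fderiv ℝ (fun z => fderiv ℝ φ z (Pi.single k 1)) y (Pi.single j 1)) +
      (∑ k, B k y (fderiv ℝ φ y (Pi.single k 1))) + A y (φ y)

/-- BLOCK TR (helper441) : traces in Clifford algebra. -/
def SpecCl : Prop := ∀ (n : ℕ) (V : Type) [NormedAddCommGroup V] [InnerProductSpace ℂ V]
  [FiniteDimensional ℂ V] (K : Cliff n V) (A : Matrix (Fin n) (Fin n) ℝ),
  LinearMap.trace ℂ V (K.vol * (List.ofFn fun i => ∑ a, rs (A i a) (K.c a)).prod : V →L[ℂ] V) =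
    (A.det : ℂ) * Module.finrank ℂ V

/-! ## global analysis -/

/-- `H` is the completion of `Core S` in the `L²` norm. -/
structure Emb {n : ℕ} {M X Γ I : Type} [TopologicalSpace M] [TopologicalSpace X] [Group Γ]
    [MulAction Γ X] {V : Type} [NormedAddCommGroup V] [InnerProductSpace ℂ V]
    {C : Cov n M X Γ I} {G : I → E n → Matrix (Fin n) (Fin n) ℝ} {K : Cliff n V}
    [MeasurableSpace X] (S : SpX C G K) (μ : Measure X) (H : Type) [NormedAddCommGroup H]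
    [InnerProductSpace ℂ H] where
  e : Core S →ₗ[ℂ] H
  dense : DenseRange e
  ip : ∀ φ ψ : Core S, ⟪e φ, e ψ⟫_ℂ = ipr C μ (φ : Raw Γ I n V) (ψ : Raw Γ I n V)

section
variable {n : ℕ} {M X Γ I : Type} [TopologicalSpace M] [TopologicalSpace X] [Group Γ]
    [MulAction Γ X] {V : Type} [NormedAddCommGroup V] [InnerProductSpace ℂ V]
    {C : Cov n M X Γ I} {G : I → E n → Matrix (Fin n) (Fin n) ℝ} {K : Cliff n V}
    [MeasurableSpace X] {S : SpX C G K} {μ : Measure X} {H : Type} [NormedAddCommGroup H]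
    [InnerProductSpace ℂ H]

/-- `g = (m² - D²)⁻¹`, `p = D g` -/
structure Rsv [T2Space X] (E : Emb S μ H) (m : ℝ) (g p : H →L[ℂ] H) : Prop where
  ex : ∃ sp sm : H →L[ℂ] H, (∀ φ, sp (E.e ((m : ℂ) • φ + S.DC φ)) = E.e φ) ∧
    (∀ φ, sm (E.e ((m : ℂ) • φ - S.DC φ)) = E.e φ) ∧
    (∀ u, m * ‖sp u‖ ≤ ‖u‖) ∧ (∀ u, m * ‖sm u‖ ≤ ‖u‖) ∧
    g = ((1 / (2 * m) : ℝ) : ℂ) • (sp + sm) ∧ p = (1 / 2 : ℂ) • (sm - sp)

/-- `|u| ≤ c w` in the weak sense -/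
def WB (E : Emb S μ H) (w : X → ℝ) (c : ℝ) (u : H) : Prop :=
  ∀ φ : Core S, ‖⟪u, E.e φ⟫_ℂ‖ ≤ c * ∫ x, w x * nm C (φ : Raw Γ I n V) x ∂μ

/-- `w` is a positive function with `-Δ w + (Scal / 4) w ≥ s w`. -/
structure Gst (C : Cov n M X Γ I) (G : I → E n → Matrix (Fin n) (Fin n) ℝ) (s : ℝ) (w : X → ℝ) :
    Prop where
  smooth : C.Ck ∞ w
  pos : ∀ x, 0 < w x
  grad : ∃ c : ℝ, ∀ x, gsX C G w x ≤ (c * w x) ^ 2
  ineq : ∀ (γ : Γ) i y, s * w (γ • C.ψ i y) ≤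
    -lap (G i) (C.rep w γ i) y + Vale.Agent.P223.H.scal (G i) y / 4 * w (γ • C.ψ i y)

/-- the operators given by a smooth partition of unity and the volume element -/
structure OpA [T2Space X] (E : Emb S μ H) {ι : Type} [Fintype ι] (P : PUX C ι)
    (a h : Γ × ι → H →L[ℂ] H) (W : H →L[ℂ] H) : Prop where
  sm : ∀ i, C.Ck ∞ (P.φ i)
  a_e : ∀ l (hl : C.Ck ∞ (P.fn l)) φ, a l (E.e φ) = E.e (S.mC (P.fn l) hl φ)
  h_e : ∀ l (hl : C.Ck ∞ (P.fn l)) φ, h l (E.e φ) = E.e (S.cC (P.fn l) hl φ)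
  W_e : ∀ φ, W (E.e φ) = E.e (S.vC φ)

/-- cutoff functions -/
structure Cut (C : Cov n M X Γ I) {ι : Type} (κ : ι → X → ℝ) : Prop where
  sm : ∀ i, C.Ck ∞ (κ i)
  supp : ∀ i, HasCompactSupport (κ i)
  nn : ∀ i x, 0 ≤ κ i x
  le : ∀ i x, κ i x ≤ 1

/-- multiplication by (the translates of) cutoff functions -/
structure OpK [T2Space X] (E : Emb S μ H) {ι : Type} (κ : ι → X → ℝ) (k : Γ × ι → H →L[ℂ] H) :
    Prop where
  k_e : ∀ l (hl : C.Ck ∞ (fun x => κ l.2 (l.1⁻¹ • x))) φ,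
    k l (E.e φ) = E.e (S.mC (fun x => κ l.2 (l.1⁻¹ • x)) hl φ)

end

/-! ## trace -/

section
variable (H : Type) [NormedAddCommGroup H] [InnerProductSpace ℂ H] [CompleteSpace H]

/-- an orthonormal basis -/
noncomputable def onb : Set H := (exists_hilbertBasis ℂ H).choose

/-- an orthonormal basis -/
noncomputable def bas : HilbertBasis (onb H) ℂ H := (exists_hilbertBasis ℂ H).choose_spec.choose

variable {H}

/-- trace -/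
noncomputable def trH (T : H →L[ℂ] H) : ℂ := ∑' i : onb H, ⟪bas H i, T (bas H i)⟫_ℂ

/-- `T` is nuclear with nuclear norm at most `B`. -/
def Nuc (T : H →L[ℂ] H) (B : ℝ) : Prop :=
  ∃ (α : Type) (_ : MeasurableSpace α) (ν : Measure α) (u v : α → H),
    StronglyMeasurable u ∧ StronglyMeasurable v ∧ Integrable (fun a => ‖u a‖ * ‖v a‖) ν ∧
    ∫ a, ‖u a‖ * ‖v a‖ ∂ν ≤ B ∧ ∀ x y : H, ⟪x, T y⟫_ℂ = ∫ a, ⟪x, u a⟫_ℂ * ⟪v a, y⟫_ℂ ∂ν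

/-- BLOCK TC (helper691) : properties of the trace -/
def SpecTC : Prop := ∀ (H : Type) [NormedAddCommGroup H] [InnerProductSpace ℂ H]
  [CompleteSpace H], (∀ (T A B : H →L[ℂ] H) (b : ℝ), Nuc T b →
    Nuc (A * T * B) (‖A‖ * b * ‖B‖) ∧ Summable (fun i : onb H => ⟪bas H i, T (bas H i)⟫_ℂ) ∧
    ‖trH T‖ ≤ b ∧ trH (A * T * B) = trH (T * B * A) ∧ trH (A * T * B) = trH (B * A * T)) ∧
  (∀ (T T' : H →L[ℂ] H) (b b' : ℝ), Nuc T b → Nuc T' b' →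
    Nuc (T + T') (b + b') ∧ trH (T + T') = trH T + trH T') ∧
  (∀ (T : H →L[ℂ] H) (b : ℝ) (c : ℂ), Nuc T b → Nuc (c • T) (‖c‖ * b) ∧ trH (c • T) = c * trH T) ∧
  -- countable sums
  (∀ (α : Type) [Countable α] (T : α → H →L[ℂ] H) (S : H →L[ℂ] H) (b : α → ℝ),
    (∀ i, Nuc (T i) (b i)) → Summable b → (∀ x, HasSum (fun i => T i x) (S x)) →
    Nuc S (∑' i, b i) ∧ HasSum (fun i => trH (T i)) (trH S)) ∧
  -- strongly convergent sums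
  (∀ (α : Type) [Countable α] (A : α → H →L[ℂ] H) (S T : H →L[ℂ] H) (B b : ℝ),
    (∀ (t : Finset α) (x : H), ‖∑ i ∈ t, A i x‖ ≤ B * ‖x‖) → (∀ x, HasSum (fun i => A i x) (S x)) →
    Nuc T b → HasSum (fun i => trH (A i * T)) (trH (S * T)))

/-- `a_{l0} g^(j0+1) h_{l1} g^(j1+1) ⋯ h_{ln} g^(jn+1)` -/
noncomputable def wrd {L : Type} {n : ℕ} (a h : L → H →L[ℂ] H) (g : H →L[ℂ] H)
    (j : Fin (n + 1) → ℕ) (l : Fin (n + 1) → L) : H →L[ℂ] H :=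
  a (l 0) * g ^ (j 0 + 1) * (List.ofFn fun i : Fin n => h (l i.succ) * g ^ (j i.succ + 1)).prod

/-- the `K`-th Taylor coefficient -/
noncomputable def rK {Γ ι : Type} [Group Γ] {n : ℕ} (a h : Γ × ι → H →L[ℂ] H)
    (W g : H →L[ℂ] H) (F : (Fin (n + 1) → Γ) → ℝ) (k : ℕ) : ℂ :=
  ∑' l : {l : Fin (n + 1) → Γ × ι // (l 0).1 = 1}, (F (fun i => (l.1 i).1) : ℂ) *
    ∑ j ∈ Finset.Nat.antidiagonalTuple (n + 1) k, trH (W * wrd a h g j l.1)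

end

/-- bounded alternating cocycles -/
structure Coc {Γ : Type} [Group Γ] {n : ℕ} (F : (Fin (n + 1) → Γ) → ℝ) : Prop where
  bdd : ∀ g, |F g| ≤ 1
  inv : ∀ (γ : Γ) g, F (fun i => γ * g i) = F g
  alt : ∀ (σ : Equiv.Perm (Fin (n + 1))) g, F (g ∘ σ) = (Equiv.Perm.sign σ : ℤ) * F g
  coc : ∀ g : Fin (n + 2) → Γ, ∑ k : Fin (n + 2), (-1 : ℝ) ^ (k : ℕ) * F (g ∘ k.succAbove) = 0

/-! ## analytic blocks. All of them have the same list of hypotheses. -/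

/-- the common context -/
structure Ctx (n : ℕ) (M X Γ I V H : Type) [TopologicalSpace M] [TopologicalSpace X] [Group Γ]
    [MulAction Γ X] [NormedAddCommGroup V] [InnerProductSpace ℂ V] [MeasurableSpace X]
    [NormedAddCommGroup H] [InnerProductSpace ℂ H] where
  C : Cov n M X Γ I
  G : I → E n → Matrix (Fin n) (Fin n) ℝ
  K : Cliff n V
  S : SpX C G K
  μ : Measure X
  vol : VolX C G μ
  E : Emb S μ H

/-- BLOCK EMB (helper566) : `H` exists. -/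
def SpecEmb : Prop := ∀ (n : ℕ) (M X Γ I V : Type) [TopologicalSpace M] [TopologicalSpace X]
  [Group Γ] [MulAction Γ X] [Fintype I] [T2Space X] [ConnectedSpace X] [T2Space M]
  [MeasurableSpace X] [BorelSpace X] [NormedAddCommGroup V] [InnerProductSpace ℂ V]
  [FiniteDimensional ℂ V] (C : Cov n M X Γ I) (G : I → E n → Matrix (Fin n) (Fin n) ℝ)
  (K : Cliff n V) (S : SpX C G K) (μ : Measure X), VolX C G μ →
  ∃ (H : Type) (_ : NormedAddCommGroup H) (_ : InnerProductSpace ℂ H) (_ : CompleteSpace H),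
    Nonempty (Emb S μ H)

/-- BLOCK INT (helper566) : integration on `X`. -/
def SpecIntS : Prop := ∀ (n : ℕ) (M X Γ I V : Type) [TopologicalSpace M] [TopologicalSpace X]
  [Group Γ] [MulAction Γ X] [Fintype I] [T2Space X] [ConnectedSpace X] [T2Space M]
  [MeasurableSpace X] [BorelSpace X] [NormedAddCommGroup V] [InnerProductSpace ℂ V]
  [FiniteDimensional ℂ V] (C : Cov n M X Γ I) (G : I → E n → Matrix (Fin n) (Fin n) ℝ)
  (K : Cliff n V) (S : SpX C G K) (μ : Measure X), 1 ≤ n → VolX C G μ →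
  (∀ (φ ψ : Core S) γ i y, hp C (φ : Raw Γ I n V) (ψ : Raw Γ I n V) (γ • C.ψ i y) =
    ⟪(φ : Raw Γ I n V) γ i y, (ψ : Raw Γ I n V) γ i y⟫_ℂ) ∧
  (∀ φ ψ : Core S, Continuous (hp C (φ : Raw Γ I n V) (ψ : Raw Γ I n V)) ∧
    HasCompactSupport (hp C (φ : Raw Γ I n V) (ψ : Raw Γ I n V)) ∧
    Integrable (hp C (φ : Raw Γ I n V) (ψ : Raw Γ I n V)) μ) ∧
  (∀ φ ψ : Core S, ipr C μ (S.DC φ : Raw Γ I n V) (ψ : Raw Γ I n V) =
    -ipr C μ (φ : Raw Γ I n V) (S.DC ψ : Raw Γ I n V)) ∧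
  (∀ γ i (b : CS n V) (ψ : Core S),
    Integrable (fun y => (Vale.Agent.P223.H.dens (G i) y : ℂ) * ⟪(b : E n → V) y, (ψ : Raw Γ I n V) γ i y⟫_ℂ) ∧
    ipr C μ (S.lC γ i b : Raw Γ I n V) (ψ : Raw Γ I n V) =
      ∫ y, (Vale.Agent.P223.H.dens (G i) y : ℂ) * ⟪(b : E n → V) y, (ψ : Raw Γ I n V) γ i y⟫_ℂ) ∧
  -- decomposition into local pieces
  (∀ φ : Core S, φ ∈ Submodule.span ℂ (⋃ (γ : Γ) (i : I), Set.range (S.lC γ i))) ∧
  -- Green's formula for functions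
  (∀ f h : X → ℝ, C.Ck ∞ f → C.Ck ∞ h → HasCompactSupport f →
    ∫ x, f x * lapX C G h x ∂μ = ∫ x, lapX C G f x * h x ∂μ)

/-- BLOCK K1 (helper191) : density. -/
def SpecDense : Prop := ∀ (n : ℕ) (M X Γ I V H : Type) [TopologicalSpace M] [TopologicalSpace X]
  [Group Γ] [MulAction Γ X] [Fintype I] [T2Space X] [ConnectedSpace X] [T2Space M]
  [MeasurableSpace X] [BorelSpace X] [NormedAddCommGroup V] [InnerProductSpace ℂ V]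
  [FiniteDimensional ℂ V] [NormedAddCommGroup H] [InnerProductSpace ℂ H] [CompleteSpace H]
  (c : Ctx n M X Γ I V H) (r : ℝ), r ≠ 0 →
  ∀ w : H, (∀ φ : Core c.S, ⟪w, c.E.e ((r : ℂ) • φ + c.S.DC φ)⟫_ℂ = 0) → w = 0

/-- BLOCK K2 (helper566) : the operators exist. -/
def SpecOps : Prop := ∀ (n : ℕ) (M X Γ I V H : Type) [TopologicalSpace M] [TopologicalSpace X]
  [Group Γ] [MulAction Γ X] [Fintype I] [T2Space X] [ConnectedSpace X] [T2Space M]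
  [MeasurableSpace X] [BorelSpace X] [NormedAddCommGroup V] [InnerProductSpace ℂ V]
  [FiniteDimensional ℂ V] [NormedAddCommGroup H] [InnerProductSpace ℂ H] [CompleteSpace H]
  (c : Ctx n M X Γ I V H),
  (∀ m : ℝ, 0 < m → ∃ g p : H →L[ℂ] H, Rsv c.E m g p) ∧
  ∀ (ι : Type) [Fintype ι] (P : PUX c.C ι), (∀ i, c.C.Ck ∞ (P.φ i)) →
    ∃ (a h : Γ × ι → H →L[ℂ] H) (W : H →L[ℂ] H), OpA c.E P a h W

/-- algebraic relations -/
structure Alg {H : Type} [NormedAddCommGroup H] [InnerProductSpace ℂ H] {Γ ι : Type} [Group Γ]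
    (n : ℕ) (m : ℝ) (a h : Γ × ι → H →L[ℂ] H) (W g p : H →L[ℂ] H) : Prop where
  aa : ∀ l k, a l * a k = a k * a l
  ah : ∀ l k, a l * h k = h k * a l
  gp : g * p = p * g
  pp : p * p = ((m : ℂ) ^ 2) • (g * g) - g
  ag : ∀ l, a l * g - g * a l = -(p * h l * g + g * h l * p)
  pag : ∀ l, p * a l * g - g * a l * p = g * h l * g
  ap : ∀ l, a l * p - p * a l = -((m : ℂ) ^ 2 • (g * h l * g)) - p * h l * p
  Wa : ∀ l, W * a l = a l * W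
  Wh : ∀ l, W * h l = (-1 : ℂ) ^ (n + 1) • (h l * W)
  Wg : W * g = g * W
  Wp : W * p = (-1 : ℂ) ^ (n + 1) • (p * W)
  /-- translations: unitary operators -/
  tr : ∃ τ τ' : Γ → H →L[ℂ] H, (∀ γ, τ γ * τ' γ = 1 ∧ τ' γ * τ γ = 1) ∧
    (∀ γ (x y : H), ⟪τ γ x, τ γ y⟫_ℂ = ⟪x, y⟫_ℂ) ∧
    (∀ γ l, τ γ * a l = a (γ * l.1, l.2) * τ γ) ∧ (∀ γ l, τ γ * h l = h (γ * l.1, l.2) * τ γ) ∧
    ∀ γ, τ γ * g = g * τ γ ∧ τ γ * p = p * τ γ ∧ τ γ * W = W * τ γ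
  /-- `∑ a = 1`, `∑ h = 0`: strong convergence with uniform bounds -/
  suma : ∀ x : H, HasSum (fun l => a l x) x
  sumh : ∀ x : H, HasSum (fun l => h l x) 0
  bda : ∃ B : ℝ, ∀ (T : Finset (Γ × ι)) (x : H), ‖∑ l ∈ T, a l x‖ ≤ B * ‖x‖ ∧
    ‖∑ l ∈ T, h l x‖ ≤ B * ‖x‖

/-- BLOCK K2a (helper566) -/
def SpecAlg : Prop := ∀ (n : ℕ) (M X Γ I V H : Type) [TopologicalSpace M] [TopologicalSpace X]
  [Group Γ] [MulAction Γ X] [Fintype I] [T2Space X] [ConnectedSpace X] [T2Space M]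
  [MeasurableSpace X] [BorelSpace X] [NormedAddCommGroup V] [InnerProductSpace ℂ V]
  [FiniteDimensional ℂ V] [NormedAddCommGroup H] [InnerProductSpace ℂ H] [CompleteSpace H]
  (c : Ctx n M X Γ I V H) (ι : Type) [Fintype ι] (P : PUX c.C ι) (a h : Γ × ι → H →L[ℂ] H)
  (W g p : H →L[ℂ] H) (m : ℝ), 1 ≤ n → 0 < m → OpA c.E P a h W → Rsv c.E m g p →
  Alg n m a h W g p

/-- BLOCK K2b (helper566) : exponential decay away from the diagonal. The constants do not depend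
on `m ≥ m₀`. -/
def SpecDecA : Prop := ∀ (n : ℕ) (M X Γ I V H : Type) [TopologicalSpace M] [TopologicalSpace X]
  [Group Γ] [MulAction Γ X] [Fintype I] [T2Space X] [ConnectedSpace X] [T2Space M]
  [MeasurableSpace X] [BorelSpace X] [NormedAddCommGroup V] [InnerProductSpace ℂ V]
  [FiniteDimensional ℂ V] [NormedAddCommGroup H] [InnerProductSpace ℂ H] [CompleteSpace H]
  (c : Ctx n M X Γ I V H) (ι : Type) [Fintype ι] (κ : ι → X → ℝ), 1 ≤ n → Cut c.C κ →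
  ∃ (k : Γ × ι → H →L[ℂ] H) (w : Γ → ℝ) (A : ℕ → ℝ) (m₀ : ℝ), OpK c.E κ k ∧ (∀ l, ‖k l‖ ≤ 1) ∧
    1 ≤ m₀ ∧ (∀ γ, 0 ≤ w γ) ∧ Summable w ∧ ∀ m, m₀ ≤ m → ∀ g p, Rsv c.E m g p →
    ∀ (j : ℕ) (l l' : Γ × ι),
      ‖k l * g ^ j * k l'‖ ≤ A j * m ^ (-(2 * j : ℝ)) * w (l.1⁻¹ * l'.1) ∧
      ‖k l * (p * g ^ j) * k l'‖ ≤ A j * m ^ (-(2 * j + 1 : ℝ)) * w (l.1⁻¹ * l'.1)

/-- BLOCK K4b (helper691) : nuclear norms. -/
def SpecNuc : Prop := ∀ (n : ℕ) (M X Γ I V H : Type) [TopologicalSpace M] [TopologicalSpace X]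
  [Group Γ] [MulAction Γ X] [Fintype I] [T2Space X] [ConnectedSpace X] [T2Space M]
  [MeasurableSpace X] [BorelSpace X] [NormedAddCommGroup V] [InnerProductSpace ℂ V]
  [FiniteDimensional ℂ V] [NormedAddCommGroup H] [InnerProductSpace ℂ H] [CompleteSpace H]
  (c : Ctx n M X Γ I V H) (ι : Type) [Fintype ι] (κ : ι → X → ℝ) (k : Γ × ι → H →L[ℂ] H),
  1 ≤ n → Cut c.C κ → OpK c.E κ k →
  ∃ (w : Γ → ℝ) (A : ℕ → ℝ) (m₀ : ℝ), 1 ≤ m₀ ∧ (∀ γ, 0 ≤ w γ) ∧ Summable w ∧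
    ∀ m, m₀ ≤ m → ∀ g p, Rsv c.E m g p → ∀ j : ℕ, n < 2 * j → ∀ l l' : Γ × ι,
      Nuc (k l * g ^ j * k l') (A j * m ^ ((n : ℝ) - 2 * j) * w (l.1⁻¹ * l'.1)) ∧
      Nuc (k l * (p * g ^ j) * k l') (A j * m ^ ((n : ℝ) - 2 * j - 1) * w (l.1⁻¹ * l'.1))

/-- Decay: `k l` are cutoffs, `w` is a summable function on `Γ`. The constants `A j` do not depend
on `m`. -/
structure Dec {H : Type} [NormedAddCommGroup H] [InnerProductSpace ℂ H] {Γ ι : Type} [Group Γ]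
    (n : ℕ) (m : ℝ) (a h : Γ × ι → H →L[ℂ] H) (g p : H →L[ℂ] H) (k : Γ × ι → H →L[ℂ] H)
    (w : Γ → ℝ) (A : ℕ → ℝ) : Prop where
  ka : ∀ l, k l * a l = a l ∧ a l * k l = a l
  kh : ∀ l, k l * h l = h l ∧ h l * k l = h l
  nk : ∀ l, ‖k l‖ ≤ 1
  na : ∀ l, ‖a l‖ ≤ A 0 ∧ ‖h l‖ ≤ A 0
  dg : ∀ j l l', ‖k l * g ^ j * k l'‖ ≤ A j * m ^ (-(2 * j : ℝ)) * w (l.1⁻¹ * l'.1)
  dp : ∀ j l l', ‖k l * (p * g ^ j) * k l'‖ ≤ A j * m ^ (-(2 * j + 1 : ℝ)) * w (l.1⁻¹ * l'.1)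
  ng : ∀ j, n < 2 * j → ∀ l l',
    Nuc (k l * g ^ j * k l') (A j * m ^ ((n : ℝ) - 2 * j) * w (l.1⁻¹ * l'.1))
  np : ∀ j, n < 2 * j → ∀ l l',
    Nuc (k l * (p * g ^ j) * k l') (A j * m ^ ((n : ℝ) - 2 * j - 1) * w (l.1⁻¹ * l'.1))

/-- BLOCK DEC (helper566, from SpecDecA and SpecNuc) -/
def SpecDec : Prop := ∀ (n : ℕ) (M X Γ I V H : Type) [TopologicalSpace M] [TopologicalSpace X]
  [Group Γ] [MulAction Γ X] [Fintype I] [T2Space X] [ConnectedSpace X] [T2Space M]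
  [MeasurableSpace X] [BorelSpace X] [NormedAddCommGroup V] [InnerProductSpace ℂ V]
  [FiniteDimensional ℂ V] [NormedAddCommGroup H] [InnerProductSpace ℂ H] [CompleteSpace H]
  (c : Ctx n M X Γ I V H) (ι : Type) [Fintype ι] (P : PUX c.C ι) (a h : Γ × ι → H →L[ℂ] H)
  (W : H →L[ℂ] H), 1 ≤ n → OpA c.E P a h W →
  ∃ (k : Γ × ι → H →L[ℂ] H) (w : Γ → ℝ) (A : ℕ → ℝ) (m₀ : ℝ), 0 < m₀ ∧ (∀ γ, 0 ≤ w γ) ∧
    Summable w ∧ ∀ m, m₀ ≤ m → ∀ g p, Rsv c.E m g p → Dec n m a h g p k w A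

/-- BLOCK K5 (helper316) : recursion and absolute convergence. `k₀` depends only on `n`. -/
def SpecRec : Prop := ∀ n : ℕ, 1 ≤ n → ∃ k₀ : ℕ, ∀ (Γ ι H : Type) [Group Γ] [Countable Γ]
  [Fintype ι] [NormedAddCommGroup H]
  [InnerProductSpace ℂ H] [CompleteSpace H] (a h k : Γ × ι → H →L[ℂ] H) (W g p : H →L[ℂ] H)
  (m : ℝ) (w : Γ → ℝ) (A : ℕ → ℝ) (F : (Fin (n + 1) → Γ) → ℝ), 0 < m →
  (∀ γ, 0 ≤ w γ) → Summable w → Alg n m a h W g p → Dec n m a h g p k w A → Coc F →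
  ∀ k, k₀ ≤ k →
    Summable (fun l : {l : Fin (n + 1) → Γ × ι // (l 0).1 = 1} =>
      (F (fun i => (l.1 i).1) : ℂ) *
        ∑ j ∈ Finset.Nat.antidiagonalTuple (n + 1) k, trH (W * wrd a h g j l.1)) ∧
    ((k : ℂ) + 1) * (m : ℂ) ^ 2 * rK a h W g F (k + 1) = ((n : ℂ) / 2 + 1 + k) * rK a h W g F k

/-- BLOCK K3 (helper566) : sup bound. -/
def SpecSup : Prop := ∀ (n : ℕ) (M X Γ I V H : Type) [TopologicalSpace M] [TopologicalSpace X]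
  [Group Γ] [MulAction Γ X] [Fintype I] [T2Space X] [ConnectedSpace X] [T2Space M]
  [MeasurableSpace X] [BorelSpace X] [NormedAddCommGroup V] [InnerProductSpace ℂ V]
  [FiniteDimensional ℂ V] [NormedAddCommGroup H] [InnerProductSpace ℂ H] [CompleteSpace H]
  (c : Ctx n M X Γ I V H) (s : ℝ) (w : X → ℝ) (m : ℝ) (g p : H →L[ℂ] H),
  1 ≤ n → 0 < m → Gst c.C c.G s w → 0 < m ^ 2 + s → Rsv c.E m g p →
  ∀ (b : ℝ) (u : H), 0 ≤ b → WB c.E w ((m ^ 2 + s) * b) u → WB c.E w b (g u)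

/-- BLOCK K6 (helper878 / helper191) : growth bound. -/
def SpecGrow : Prop := ∀ (n : ℕ) (M X Γ I V H : Type) [TopologicalSpace M] [TopologicalSpace X]
  [Group Γ] [MulAction Γ X] [Fintype I] [T2Space X] [ConnectedSpace X] [T2Space M]
  [MeasurableSpace X] [BorelSpace X] [NormedAddCommGroup V] [InnerProductSpace ℂ V]
  [FiniteDimensional ℂ V] [NormedAddCommGroup H] [InnerProductSpace ℂ H] [CompleteSpace H]
  (c : Ctx n M X Γ I V H) (ι : Type) [Fintype ι] (P : PUX c.C ι) (a h : Γ × ι → H →L[ℂ] H)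
  (W : H →L[ℂ] H) (s : ℝ) (w : X → ℝ) (F : (Fin (n + 1) → Γ) → ℝ), 1 ≤ n →
  OpA c.E P a h W → Gst c.C c.G s w → Coc F →
  ∃ m₀ : ℝ, 0 < m₀ ∧ ∀ (m : ℝ) (g p : H →L[ℂ] H), m₀ ≤ m → 0 < m ^ 2 + s → Rsv c.E m g p →
    ∃ (B : ℝ) (k₀ : ℕ), ∀ k, k₀ ≤ k →
      ‖rK a h W g F k‖ ≤ B * ((k : ℝ) + 1) ^ (n + 1) / (m ^ 2 + s) ^ k

/-- BLOCK ASY (helper765) : asymptotics for `m → ∞`. -/
def SpecAsy : Prop := ∀ (n : ℕ) (M X Γ I V H : Type) [TopologicalSpace M] [TopologicalSpace X]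
  [Group Γ] [MulAction Γ X] [Fintype I] [T2Space X] [ConnectedSpace X] [T2Space M]
  [MeasurableSpace X] [BorelSpace X] [NormedAddCommGroup V] [InnerProductSpace ℂ V]
  [FiniteDimensional ℂ V] [NormedAddCommGroup H] [InnerProductSpace ℂ H] [CompleteSpace H]
  (c : Ctx n M X Γ I V H) (ι : Type) [Fintype ι] (P : PUX c.C ι) (a h : Γ × ι → H →L[ℂ] H)
  (W : H →L[ℂ] H) (g p : ℝ → H →L[ℂ] H) (χ : I → E n → ℝ) (F : (Fin (n + 1) → Γ) → ℝ)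
  (m₀ : ℝ), 1 ≤ n → 0 < Module.finrank ℂ V → OpA c.E P a h W → Part c.C χ → Coc F →
  (∀ m, m₀ ≤ m → Rsv c.E m (g m) (p m)) →
  ∃ k₀ : ℕ, ∀ k, k₀ ≤ k → ∃ b : ℂ, b ≠ 0 ∧ Filter.Tendsto
    (fun m : ℝ => (m : ℂ) ^ (n + 2 + 2 * k) * rK a h W (g m) F k) Filter.atTop
    (nhds (b * ((∑ᶠ l ∈ {l : Fin (n + 1) → Γ × ι | (l 0).1 = 1},
      P.wt χ l * F (fun i => (l i).1) : ℝ) : ℂ)))

/-! ## main theorem for coverings -/

/-- BLOCK PAIR : the pairing vanishes (from the blocks above). -/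
def SpecPair : Prop := ∀ (n : ℕ) (M X Γ I V : Type) [TopologicalSpace M] [TopologicalSpace X]
  [Group Γ] [MulAction Γ X] [Fintype I] [T2Space X] [ConnectedSpace X] [T2Space M]
  [MeasurableSpace X] [BorelSpace X] [NormedAddCommGroup V] [InnerProductSpace ℂ V]
  [FiniteDimensional ℂ V] (C : Cov n M X Γ I) (G : I → E n → Matrix (Fin n) (Fin n) ℝ)
  (K : Cliff n V) (_ : SpX C G K) (ι : Type) [Fintype ι] (P : PUX C ι) (χ : I → E n → ℝ)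
  (s : ℝ) (w : X → ℝ) (F : (Fin (n + 1) → Γ) → ℝ), 1 ≤ n → 0 < Module.finrank ℂ V →
  (∀ i, C.Ck ∞ (P.φ i)) → Part C χ → 0 < s → Gst C G s w → Coc F →
  ∑ᶠ l ∈ {l : Fin (n + 1) → Γ × ι | (l 0).1 = 1}, P.wt χ l * F (fun k => (l k).1) = 0

/-- BLOCK 9 (helper765) : topology. -/
def SpecEnd : Prop := ∀ (n : ℕ) (M X Γ I : Type) [TopologicalSpace M] [TopologicalSpace X]
  [Group Γ] [MulAction Γ X] [Fintype I] [T2Space X] [SimplyConnectedSpace X] [T2Space M]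
  (C : Cov n M X Γ I) (χ : I → E n → ℝ), 1 ≤ n → Part C χ → (∃ s : ℕ → X, MT.Dist Γ s) →
  ∀ (ι : Type) [Fintype ι] (P : PUX C ι),
  (∀ F : (Fin (n + 1) → Γ) → ℝ, Coc F →
    ∑ᶠ l ∈ {l : Fin (n + 1) → Γ × ι | (l 0).1 = 1}, P.wt χ l * F (fun k => (l k).1) = 0) →
  svX C = 0

end Vale.Agent.P223.H566
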