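import Vale.Agent.P223.H566.InjDef
import Vale.Agent.P223.H765.NC
import Vale.Agent.P223.H691.UYW
import Vale.Agent.P223.H441.BilDef

/-! Stage 5 : block statements.  The isoperimetric inequality (Croke) inside one exponential chart,
the passage to a global Sobolev inequality, and Theorem V. -/

namespace Vale.Agent.P223.H566.NV

open scoped ContDiff ENNReal NNReal Topology
open MeasureTheory Set
open Vale.Agent.P223.H765.NC (ham hv vol shl bb len)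

variable {n : ℕ}

/-- `Φ` is the (complete) flow of the Hamiltonian vector field of `G`. -/
structure Flo (G : J.Mtx n) (Φ : ℝ → J.E n × J.E n → J.E n × J.E n) : Prop where
  smooth : ∀ i j, ContDiff ℝ ∞ fun x => G x i j
  pos : ∀ x, (G x).PosDef
  zero : ∀ z, Φ 0 z = z
  flow : ∀ t z, HasDerivAt (fun s => Φ s z) (hv G (Φ t z)) t

/-- The geodesic segment which starts at `z` and has the (parameter) length `T` lies in `Ω`. -/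
def Seg (Φ : ℝ → J.E n × J.E n → J.E n × J.E n) (Ω : Set (J.E n)) (T : ℝ) (z : J.E n × J.E n) :
    Prop :=
  ∀ t ∈ Icc 0 T, (Φ t z).1 ∈ Ω

/-- Segments inside the bounded open set `Ω₀` are short and without conjugate points, and they are
determined by their end points. -/
structure GeoL (G : J.Mtx n) (Φ : ℝ → J.E n × J.E n → J.E n × J.E n) (Ω₀ : Set (J.E n)) :
    Prop extends Flo G Φ where
  isOpen : IsOpen Ω₀
  bdd : Bornology.IsBounded Ω₀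
  inj : ∀ q p p', Seg Φ Ω₀ 1 (q, p) → Seg Φ Ω₀ 1 (q, p') → (Φ 1 (q, p)).1 = (Φ 1 (q, p')).1 →
    p = p'
  imm : ∀ q p, Seg Φ Ω₀ 1 (q, p) → (fderiv ℝ (fun p => (Φ 1 (q, p)).1) p).det ≠ 0
  esc : ∃ R : ℝ, ∀ z, 1 / 4 ≤ 2 * ham G z → ∀ T, Seg Φ Ω₀ T z → T ≤ R

/-- BLOCK V1 (316): existence of the flow. -/
def SpecCpl : Prop := ∀ (n : ℕ) (G G₀ : J.Mtx n) (R : ℝ), (∀ i j, ContDiff ℝ ∞ fun x => G x i j) →
  (∀ x, (G x).PosDef) → (∀ x, R ≤ ‖x‖ → G x = G₀ 0) → ∃ Φ, Flo G Φ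

/-- BLOCK V2a (316): invariant measure, conservation of energy, scaling. -/
def SpecLiouL : Prop := ∀ (n : ℕ) (G : J.Mtx n) (Φ : ℝ → J.E n × J.E n → J.E n × J.E n), Flo G Φ →
  (∀ t, MeasurePreserving (Φ t) volume volume) ∧
  (∀ t z, ham G (Φ t z) = ham G z) ∧
  (∀ (t c : ℝ) q p, Φ t (q, c • p) = ((Φ (c * t) (q, p)).1, c • (Φ (c * t) (q, p)).2)) ∧
  ∀ Ω₀ : Set (J.E n), GeoL G Φ Ω₀ → ∀ (T : ℝ), 0 < T → ∀ q,
    InjOn (fun p => (Φ T (q, p)).1) {p | Seg Φ Ω₀ T (q, p)} ∧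
    ∀ p, Seg Φ Ω₀ T (q, p) → (fderiv ℝ (fun p => (Φ T (q, p)).1) p).det ≠ 0

/-- BLOCK V2b (765): Kazdan's inequality along one geodesic segment (non-sharp). -/
def SpecKazL : Prop := ∀ n : ℕ, 1 ≤ n → ∃ C : ℝ, 0 < C ∧ ∀ (G : J.Mtx n)
  (Φ : ℝ → J.E n × J.E n → J.E n × J.E n) (Ω₀ : Set (J.E n)), GeoL G Φ Ω₀ →
  ∀ (z : J.E n × J.E n) (α β : ℝ), α < β → (∀ t ∈ Ioo α β, (Φ t z).1 ∈ Ω₀) →
  ENNReal.ofReal (C * (β - α) ^ (n + 1)) ≤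
    ∫⁻ s in Ioo α β, ∫⁻ t in Ioo s β, ENNReal.ofReal (bb G Φ (t - s) (Φ s z) / (t - s))

/-- BLOCK V2c (367): integration in polar coordinates. -/
def SpecPolL : Prop := ∀ (n : ℕ) (G : J.Mtx n) (Φ : ℝ → J.E n × J.E n → J.E n × J.E n)
  (Ω₀ : Set (J.E n)), 1 ≤ n → GeoL G Φ Ω₀ → ∀ Ω : Set (J.E n), IsOpen Ω → Ω ⊆ Ω₀ →
  ∫⁻ z in shl G, ∫⁻ T in Ioi (0 : ℝ), {T : ℝ | ∀ t ∈ Icc 0 T, (Φ t z).1 ∈ Ω}.indicator
    (fun T => ENNReal.ofReal (bb G Φ T z / T)) T ≤ ENNReal.ofReal (Real.log 2) * vol G Ω ^ 2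

/-- BLOCK V2c (367): chords. -/
def SpecChdL : Prop := ∀ n : ℕ, 1 ≤ n → ∃ C : ℝ≥0, ∀ (G : J.Mtx n)
  (Φ : ℝ → J.E n × J.E n → J.E n × J.E n) (Ω₀ : Set (J.E n)), GeoL G Φ Ω₀ →
  ∀ Ω : Set (J.E n), IsOpen Ω → Ω ⊆ Ω₀ →
  ∫⁻ z in shl G ∩ {z | z.1 ∈ Ω}, len Φ Ω z ^ n ≤ C * vol G Ω ^ 2

/-- BLOCK V2d (566): truncations. -/
def SpecTruL : Prop := ∀ n : ℕ, 1 ≤ n → ∃ C : ℝ≥0, ∀ (G : J.Mtx n)
  (Φ : ℝ → J.E n × J.E n → J.E n × J.E n) (Ω₀ : Set (J.E n)), GeoL G Φ Ω₀ →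
  ∀ f : J.E n → ℝ, ContDiff ℝ 1 f → HasCompactSupport f → tsupport f ⊆ Ω₀ →
  ∀ l ε : ℝ, 0 ≤ l → 0 < ε →
  vol G {x | l + ε < |f x|} ^ (n + 1) ≤ C * vol G {x | l < |f x|} ^ 2 *
    (∫⁻ x in {x | l < |f x| ∧ |f x| ≤ l + ε},
      ENNReal.ofReal (√(J.gsq G f x) * √(G x).det / ε)) ^ n

/-! ### On the manifold `X` -/

section
variable {X : Type} [TopologicalSpace X]

/-- The distance. -/
noncomputable def dst (c : X → J.Ch n X) (g : X → J.Mtx n) (x y : X) : ℝ≥0∞ :=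
  ⨆ (u : X → ℝ) (_ : J.Lip1 c g u), ENNReal.ofReal |u x - u y|

/-- The open ball. -/
def bal (c : X → J.Ch n X) (g : X → J.Mtx n) (x : X) (s : ℝ) : Set X :=
  {z | dst c g x z < ENNReal.ofReal s}

/-- The norm of the tangent vector `v` at `x`. -/
noncomputable def nrm (c : X → J.Ch n X) (g : X → J.Mtx n) (x : X) (v : J.E n) : ℝ :=
  √(J.bil (g x (c x x)) v v)

/-- `e` is the exponential map at `x`, on the ball of radius `r`. -/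
structure Exp (c : X → J.Ch n X) (g : X → J.Mtx n) (x : X) (r : ℝ) (e : J.E n → X) : Prop where
  zero : e 0 = x
  fderiv_zero : fderiv ℝ (fun w => c x (e w)) 0 = ContinuousLinearMap.id ℝ (J.E n)
  cont : ContinuousOn e {v | J.bil (g x (c x x)) v v < r ^ 2}
  inj : InjOn e {v | J.bil (g x (c x x)) v v < r ^ 2}
  diff : ∀ v, J.bil (g x (c x x)) v v < r ^ 2 → ContDiffAt ℝ ∞ (fun w => c (e v) (e w)) v ∧
      (fderiv ℝ (fun w => c (e v) (e w)) v).det ≠ 0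
  geo : ∀ (v : J.E n) (t : ℝ), J.bil (g x (c x x)) (t • v) (t • v) < r ^ 2 →
      J.GdcAt c g (fun s => e (s • v)) t

theorem injAt_iff (c : X → J.Ch n X) (g : X → J.Mtx n) (x : X) (r : ℝ) :
    J.InjAt c g x r ↔ ∃ e, Exp c g x r e :=
  ⟨fun ⟨e, h1, h2, h3, h4, h5, h6⟩ => ⟨e, h1, h2, h3, h4, h5, h6⟩,
    fun ⟨e, h⟩ => ⟨e, h.1, h.2, h.3, h.4, h.5, h.6⟩⟩

/-- The pull-back of the metric under `e`. -/
noncomputable def pul (c : X → J.Ch n X) (g : X → J.Mtx n) (e : J.E n → X) : J.Mtx n :=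
  fun w i j => J.bil (g (e w) (c (e w) (e w)))
    (fderiv ℝ (fun v => c (e w) (e v)) w (Pi.single i 1))
    (fderiv ℝ (fun v => c (e w) (e v)) w (Pi.single j 1))

/-- `|du|` at the point `q`. -/
noncomputable def grd (c : X → J.Ch n X) (g : X → J.Mtx n) (u : X → ℝ) (q : X) : ℝ :=
  √(J.gsq (g q) (fun x => u ((c q).symm x)) (c q q))

/-- The perimeter of `{t < |u|}` inside `B`. -/
noncomputable def per [MeasurableSpace X] (c : X → J.Ch n X) (g : X → J.Mtx n) (μ : Measure X)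
    (u : X → ℝ) (t : ℝ) (B : Set X) : ℝ≥0∞ :=
  Filter.liminf (fun ε : ℝ => ∫⁻ q in B ∩ {q | t < |u q| ∧ |u q| ≤ t + ε},
    ENNReal.ofReal (grd c g u q / ε) ∂μ) (𝓝[>] 0)

end

/-- BLOCK V3a (441): the Gauss lemma. -/
def SpecGauss : Prop := ∀ (n : ℕ) (X : Type) [TopologicalSpace X] [T2Space X] (c : X → J.Ch n X)
  (g : X → J.Mtx n) (x : X) (r : ℝ) (e : J.E n → X), 1 ≤ n → J.Atl c → J.Met c g → 0 < r →
  Exp c g x r e → ∀ w, J.bil (g x (c x x)) w w < r ^ 2 → ∀ v,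
    J.bil (pul c g e w) w v = J.bil (g x (c x x)) w v

/-- BLOCK V3b (441): the distance and the exponential map. -/
def SpecDst : Prop := ∀ (n : ℕ) (X : Type) [TopologicalSpace X] [T2Space X] (c : X → J.Ch n X)
  (g : X → J.Mtx n) (x : X) (r : ℝ) (e : J.E n → X), 1 ≤ n → J.Atl c → J.Met c g → 0 < r →
  Exp c g x r e → (∀ w, nrm c g x w < r → dst c g x (e w) = ENNReal.ofReal (nrm c g x w)) ∧
    ∀ s, 0 < s → s ≤ r → bal c g x s = e '' {w | nrm c g x w < s}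

/-- BLOCK V3c (441): cut-off functions. -/
def SpecCut : Prop := ∀ (n : ℕ) (X : Type) [TopologicalSpace X] [T2Space X] (c : X → J.Ch n X)
  (g : X → J.Mtx n) (x : X) (r : ℝ) (e : J.E n → X), 1 ≤ n → J.Atl c → J.Met c g → 0 < r →
  Exp c g x r e → ∀ s s', 0 < s → s < s' → s' < r → ∃ φ : X → ℝ, J.Sm c φ ∧
    (∀ z, 0 ≤ φ z ∧ φ z ≤ 1) ∧ (∀ z ∈ bal c g x s, φ z = 1) ∧ tsupport φ ⊆ bal c g x s' ∧
    ∀ z, grd c g φ z ≤ 2 / (s' - s)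

/-- BLOCK V3d (441): small balls are not too small. -/
def SpecDen : Prop := ∀ n : ℕ, 1 ≤ n → ∃ c' : ℝ, 0 < c' ∧ ∀ (X : Type) [TopologicalSpace X]
  [T2Space X] [MeasurableSpace X] [BorelSpace X] (μ : Measure X) (c : X → J.Ch n X)
  (g : X → J.Mtx n) (x : X) (r : ℝ) (e : J.E n → X), J.Atl c → J.Met c g → J.Vol c g μ → 0 < r →
  Exp c g x r e → ∀ Ω : Set X, IsOpen Ω → x ∈ Ω → ∀ η : ℝ, 0 < η → ∃ s, 0 < s ∧ s < η ∧
    ENNReal.ofReal (c' * s ^ n) ≤ μ (Ω ∩ bal c g x s)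

/-- BLOCK V4 (440): `G` is the metric in the exponential chart at `x`, changed far away, `Ω₀` is a
small ball. -/
def SpecGeoL : Prop := ∀ (n : ℕ) (X : Type) [TopologicalSpace X] [T2Space X] (c : X → J.Ch n X)
  (g : X → J.Mtx n) (r : X → ℝ) (x : X) (e : J.E n → X), 1 ≤ n → J.Atl c → J.Met c g →
  J.Lip1 c g r → (∀ y, 0 < r y ∧ J.InjAt c g y (r y)) → Exp c g x (r x) e →
  ∃ (G : J.Mtx n) (Φ : ℝ → J.E n × J.E n → J.E n × J.E n),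
    (∀ w, nrm c g x w < r x / 10 → G w = pul c g e w) ∧ GeoL G Φ {w | nrm c g x w < r x / 10}

/-- BLOCK V5 (391): local truncation inequality on `X`. -/
def SpecLT : Prop := ∀ n : ℕ, 1 ≤ n → ∃ C : ℝ≥0, ∀ (X : Type) [TopologicalSpace X]
  [T2Space X] [MeasurableSpace X] [BorelSpace X] (μ : Measure X) (c : X → J.Ch n X)
  (g : X → J.Mtx n) (r : X → ℝ), J.Atl c → J.Met c g → J.Vol c g μ → J.Lip1 c g r →
  (∀ y, 0 < r y ∧ J.InjAt c g y (r y)) → ∀ (x : X) (v : X → ℝ), J.Sm c v →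
  tsupport v ⊆ bal c g x (r x / 10) → HasCompactSupport v → ∀ l ε : ℝ, 0 ≤ l → 0 < ε →
  μ {q | l + ε < |v q|} ^ (n + 1) ≤ C * μ {q | l < |v q|} ^ 2 *
    (∫⁻ q in {q | l < |v q| ∧ |v q| ≤ l + ε}, ENNReal.ofReal (grd c g v q / ε) ∂μ) ^ n

/-- BLOCK V6a (566): the local isoperimetric inequality. -/
def SpecLoc : Prop := ∀ n : ℕ, 1 ≤ n → ∃ C : ℝ, 0 < C ∧ ∀ (X : Type) [TopologicalSpace X]
  [T2Space X] [MeasurableSpace X] [BorelSpace X] (μ : Measure X) (c : X → J.Ch n X)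
  (g : X → J.Mtx n) (r : X → ℝ), J.Atl c → J.Met c g → J.Vol c g μ → J.Lip1 c g r →
  (∀ y, 0 < r y ∧ J.InjAt c g y (r y)) → ∀ (x : X) (u : X → ℝ), J.Sm c u → HasCompactSupport u →
  ∀ t s, 0 < t → 0 < s → 2 * s ≤ 1 / 20 * r x →
  μ ({q | t < |u q|} ∩ bal c g x s) ^ (n + 1) ≤
    ENNReal.ofReal C * μ ({q | t < |u q|} ∩ bal c g x (2 * s)) ^ 2 *
      (per c g μ u t (bal c g x (2 * s)) +
        μ ({q | t < |u q|} ∩ (bal c g x (2 * s) \ bal c g x s)) / ENNReal.ofReal s) ^ n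

/-- BLOCK V6b (566): the global isoperimetric inequality. -/
def SpecIso : Prop := ∀ n : ℕ, 2 ≤ n → ∃ C : ℝ≥0, ∀ (X : Type) [TopologicalSpace X]
  [T2Space X] [MeasurableSpace X] [BorelSpace X] (μ : Measure X) (c : X → J.Ch n X)
  (g : X → J.Mtx n) (r : X → ℝ), J.Atl c → J.Met c g → J.Vol c g μ → J.Lip1 c g r →
  (∀ y, 0 < r y ∧ J.InjAt c g y (r y)) → ∀ u : X → ℝ, J.Sm c u → HasCompactSupport u →
  ∀ t, 0 < t → μ {q | t < |u q|} ^ (n - 1) ≤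
    C * (per c g μ u t univ + ∫⁻ q in {q | t < |u q|}, ENNReal.ofReal (1 / r q) ∂μ) ^ n

/-- BLOCK V7 (391): the Sobolev inequality. -/
def SpecSobV : Prop := ∀ n : ℕ, 3 ≤ n → ∃ y C : ℝ, 0 < y ∧ 0 < C ∧ ∀ (X : Type)
  [TopologicalSpace X] [T2Space X] (c : X → J.Ch n X) (g : X → J.Mtx n) (r : X → ℝ),
  J.Atl c → J.Met c g → J.Lip1 c g r → (∀ y, 0 < r y ∧ J.InjAt c g y (r y)) →
  J.SobW c g (fun q => C / r q ^ 2) y

/-- BLOCK V8 (691/66): Theorem V.  `g₁ = g`, `K = 1` is allowed. -/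
def SpecV : Prop := ∀ n : ℕ, 3 ≤ n → ∃ A : ℝ, 0 < A ∧
    ∀ (M : Type) [TopologicalSpace M] [CompactSpace M] [T2Space M] [ConnectedSpace M]
      [MeasurableSpace M] [BorelSpace M] (c : M → J.Ch n M), J.Atl c →
      (∃ g₀, J.Met c g₀ ∧ J.CovSpin c g₀) →
      ∀ (g g₁ : M → J.Mtx n) (μ : Measure M) (r : M → ℝ) (K ε : ℝ), J.Met c g → J.Vol c g μ →
      J.Met c g₁ → J.Lip1 c g₁ r → (∀ p, 0 < r p) → J.InjGe c g₁ r → 1 ≤ K → J.Bil c g₁ g K →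
      0 < ε → ε ≤ 1 →
      J.sv c ≤ ENNReal.ofReal (A * K ^ ((n : ℝ) ^ 2 / 2) * ε ^ (-(n : ℝ) / 2)) *
        J.L n μ (fun p => max 0 (ε / r p ^ 2 - J.scal (g p) (c p p)))

end Vale.Agent.P223.H566.NV
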