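import Vale.Agent.P223.H566.Tru3
import Vale.Agent.P223.H566.NV

/-! Block V2d: the truncation inequality, local version. -/

namespace Vale.Agent.P223.H566.TruL

open MeasureTheory Set Matrix
open Vale.Agent.P223.H765.NC (ham hv vol shl bb len SpecFlow)
open Vale.Agent.P223.H566.NV
open scoped ENNReal NNReal ContDiff

variable {n : ℕ} {G : J.Mtx n} {Φ : ℝ → J.E n × J.E n → J.E n × J.E n} {f : J.E n → ℝ}
  {Ω₀ : Set (J.E n)}

/-- continuity of the flow -/
theorem cont_flow (hF : SpecFlow) (hG : Flo G Φ) : Continuous fun q : ℝ × (J.E n × J.E n) =>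
    Φ q.1 q.2 :=
  (hF _ (hv G) Φ (ChdG.cd_hv hG.smooth hG.pos) hG.zero hG.flow).1.continuous

theorem add_flow (hF : SpecFlow) (hG : Flo G Φ) (s t : ℝ) (z : J.E n × J.E n) :
    Φ (s + t) z = Φ s (Φ t z) :=
  (hF _ (hv G) Φ (ChdG.cd_hv hG.smooth hG.pos) hG.zero hG.flow).2.1 s t z

theorem ham_neg (G : J.Mtx n) (q p : J.E n) : ham G (q, -p) = ham G (q, p) := by
  unfold ham
  congr 1
  exact Finset.sum_congr rfl fun i _ => Finset.sum_congr rfl fun j _ => by
    simp only [Pi.neg_apply]; ring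

/-- a chord is contained in a fixed interval -/
theorem chord_sub (hL : SpecLiouL) (hG : GeoL G Φ Ω₀) : ∃ R : ℝ, ∀ Ω ⊆ Ω₀, ∀ z ∈ shl G,
    Chd.chord Φ (Prod.fst ⁻¹' Ω) z ⊆ Icc (-R) R := by
  obtain ⟨R, hR⟩ := hG.esc
  obtain ⟨-, -, hsc, -⟩ := hL n G Φ hG.toFlo
  refine ⟨R, fun Ω hΩ z hz s hs => ?_⟩
  have hs' : ∀ t ∈ uIcc 0 s, (Φ t z).1 ∈ Ω₀ := fun t ht => hΩ (hs t ht)
  constructor
  · by_contra h
    push Not at h
    rcases le_total 0 s with h0 | h0
    · have h1 : R < 0 := by linarith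
      have h2 := hR z hz.1.le 0 fun t ht => by
        have : t = 0 := le_antisymm ht.2 ht.1
        subst this
        exact hs' 0 left_mem_uIcc
      linarith
    · have h2 := hR (z.1, -z.2) (by
        rw [ham_neg]; exact hz.1.le) (-s) fun t ht => by
          have h3 := hsc t (-1) z.1 z.2
          rw [neg_smul, one_smul] at h3
          rw [h3]
          refine hs' _ ?_
          rw [uIcc_of_ge h0]
          constructor <;> linarith [ht.1, ht.2]
      linarith
  · rcases le_total 0 s with h0 | h0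
    · refine hR z hz.1.le s fun t ht => hs' t ?_
      rw [uIcc_of_le h0]; exact ht
    · have h2 := hR z hz.1.le 0 fun t ht => by
        have : t = 0 := le_antisymm ht.2 ht.1
        subst this
        exact hs' 0 left_mem_uIcc
      linarith

/-- the length of the chord is finite -/
theorem len_fin (hL : SpecLiouL) (hG : GeoL G Φ Ω₀) {Ω : Set (J.E n)} (hΩ : Ω ⊆ Ω₀)
    {z : J.E n × J.E n} (hz : z ∈ shl G) : Chd.len Φ (Prod.fst ⁻¹' Ω) z ≠ ⊤ := by
  obtain ⟨R, hR⟩ := chord_sub hL hG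
  refine ne_top_of_le_ne_top ?_ (measure_mono (hR Ω hΩ z hz))
  rw [Real.volume_Icc]
  exact ENNReal.ofReal_ne_top

/-- averaging along the chords -/
theorem avg (hF : SpecFlow) (hL : SpecLiouL) (hG : GeoL G Φ Ω₀) {Ω : Set (J.E n)}
    (hΩ : IsOpen Ω) (hb : Ω ⊆ Ω₀) {H : J.E n × J.E n → ℝ≥0∞} (hH : Measurable H) :
    ∫⁻ z in shl G ∩ Prod.fst ⁻¹' Ω, (Chd.len Φ (Prod.fst ⁻¹' Ω) z)⁻¹ *
      ∫⁻ s in Chd.chord Φ (Prod.fst ⁻¹' Ω) z, H (Φ s z) =
      ∫⁻ z in shl G ∩ Prod.fst ⁻¹' Ω, H z := by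
  obtain ⟨h1, h2, -, -⟩ := hL n G Φ hG.toFlo
  exact Chd.avg (μ := volume) (cont_flow hF hG.toFlo) hG.zero (add_flow hF hG.toFlo) h1
    (ChdG.isOpen_fst hΩ) (ChdG.meas_shl hG.smooth hG.pos) (ChdG.shl_inv h2)
    (fun z hz => len_fin hL hG hb hz.1) hH

theorem hasDeriv (hG : Flo G Φ) (hf : ContDiff ℝ 1 f) (z : J.E n × J.E n) (t : ℝ) :
    HasDerivAt (fun s => f (Φ s z).1) (fderiv ℝ f (Φ t z).1 (hv G (Φ t z)).1) t := by
  have h1 : HasDerivAt (fun s => (Φ s z).1) (hv G (Φ t z)).1 t := (hG.flow t z).fst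
  exact ((hf.differentiable (by norm_num) (Φ t z).1).hasFDerivAt).comp_hasDerivAt t h1

/-- the integral of `|df|` along a chord -/
theorem chord_int (hF : SpecFlow) (hL : SpecLiouL) (hG : GeoL G Φ Ω₀) (hf : ContDiff ℝ 1 f)
    (hfc : tsupport f ⊆ Ω₀) {l ε : ℝ} (hl : 0 ≤ l) (hε : 0 < ε) {z : J.E n × J.E n}
    (hz : z ∈ shl G) (hz' : l + ε < |f z.1|) :
    ENNReal.ofReal ε ≤ ∫⁻ s in Chd.chord Φ (Prod.fst ⁻¹' {x | l < |f x|}) z,
      {x | l < |f x| ∧ |f x| ≤ l + ε}.indicator (fun x => ENNReal.ofReal √(J.gsq G f x))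
        (Φ s z).1 := by
  obtain ⟨-, hE, -, -⟩ := hL n G Φ hG.toFlo
  have hc := cont_flow hF hG.toFlo
  set γ : ℝ → J.E n := fun s => (Φ s z).1 with hγ
  have hγc : Continuous γ := continuous_fst.comp (hc.comp (Continuous.prodMk_left z))
  set F : ℝ → ℝ := fun s => f (γ s) with hFd
  have hFc : Continuous F := hf.continuous.comp hγc
  have hF0 : l + ε < |F 0| := by
    show l + ε < |f (Φ 0 z).1|
    rw [hG.zero]; exact hz'
  -- first exit
  obtain ⟨R, hR⟩ := hG.esc
  obtain ⟨t₁, ht₁0, ht₁⟩ : ∃ t, 0 ≤ t ∧ (Φ t z).1 ∉ Ω₀ := by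
    by_contra hcon
    push Not at hcon
    have := hR z hz.1.le (R + 1) fun t ht => hcon t ht.1
    linarith
  set T0 : Set ℝ := {t | 0 ≤ t ∧ |F t| ≤ l} with hT0
  have hT0c : IsClosed T0 :=
    (isClosed_le continuous_const continuous_id).inter (isClosed_le hFc.abs continuous_const)
  have hT0n : T0.Nonempty := by
    refine ⟨t₁, ht₁0, ?_⟩
    have h1 : (Φ t₁ z).1 ∉ tsupport f := fun h => ht₁ (hfc h)
    show |f (Φ t₁ z).1| ≤ l
    rw [image_eq_zero_of_notMem_tsupport h1, abs_zero]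
    exact hl
  have hT0b : BddBelow T0 := ⟨0, fun t ht => ht.1⟩
  set b : ℝ := sInf T0 with hb
  have hbT : b ∈ T0 := hT0c.csInf_mem hT0n hT0b
  have hbl : ∀ t, 0 ≤ t → t < b → l < |F t| := by
    intro t ht htb
    by_contra h
    push Not at h
    exact absurd (csInf_le hT0b (show t ∈ T0 from ⟨ht, h⟩)) (not_le.2 htb)
  -- last time in the upper level
  set T1 : Set ℝ := {t | t ∈ Icc 0 b ∧ l + ε ≤ |F t|} with hT1
  have hT1c : IsCompact T1 :=
    isCompact_Icc.inter_right (isClosed_le continuous_const hFc.abs)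
  have hT1n : T1.Nonempty := ⟨0, ⟨le_rfl, hbT.1⟩, hF0.le⟩
  set a : ℝ := sSup T1 with ha
  have haT : a ∈ T1 := hT1c.sSup_mem hT1n
  have hab : a < b := by
    refine lt_of_le_of_ne haT.1.2 fun h => ?_
    have h1 := haT.2
    rw [h] at h1
    have h2 := hbT.2
    linarith
  have hau : ∀ t, a < t → t ≤ b → |F t| < l + ε := by
    intro t ht htb
    by_contra h
    push Not at h
    have h1 : t ∈ T1 := ⟨⟨haT.1.1.trans ht.le, htb⟩, h⟩
    exact absurd (le_csSup hT1c.bddAbove h1) (not_le.2 ht)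
  -- fundamental theorem of calculus
  set F' : ℝ → ℝ := fun t => fderiv ℝ f (Φ t z).1 (hv G (Φ t z)).1 with hF'
  have hF'c : Continuous F' := by
    have h1 : Continuous fun t => Φ t z := hc.comp (Continuous.prodMk_left z)
    exact ((hf.continuous_fderiv (by norm_num)).comp (continuous_fst.comp h1)).clm_apply
      (continuous_fst.comp ((ChdG.cd_hv hG.smooth hG.pos).continuous.comp h1))
  have hftc : ∫ t in a..b, F' t = F b - F a :=
    intervalIntegral.integral_eq_sub_of_hasDerivAt (fun t _ => hasDeriv hG.toFlo hf z t)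
      (hF'c.intervalIntegrable a b)
  have hgc : Continuous fun t => √(J.gsq G f (γ t)) :=
    ((SobR.cont_gsq hG.smooth hG.pos hf).comp hγc).sqrt
  have hbound : ∀ t, ‖F' t‖ ≤ √(J.gsq G f (γ t)) := by
    intro t
    rw [Real.norm_eq_abs]
    refine (Tru.speed hG.pos f (Φ t z)).trans ?_
    have h1 : √(2 * ham G (Φ t z)) ≤ 1 := by
      rw [hE, Real.sqrt_le_one]
      exact hz.2
    exact mul_le_of_le_one_right (Real.sqrt_nonneg _) h1
  have h1 : ε ≤ ∫ t in a..b, √(J.gsq G f (γ t)) := by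
    have h2 : ‖∫ t in a..b, F' t‖ ≤ ∫ t in a..b, √(J.gsq G f (γ t)) :=
      intervalIntegral.norm_integral_le_of_norm_le hab.le
        (Filter.Eventually.of_forall fun t _ => hbound t) (hgc.intervalIntegrable a b)
    refine le_trans ?_ h2
    rw [hftc, Real.norm_eq_abs, abs_sub_comm]
    have h3 := abs_sub_abs_le_abs_sub (F a) (F b)
    have h4 := haT.2
    have h5 := hbT.2
    linarith
  -- conclusion
  have h2 : ENNReal.ofReal (∫ t in a..b, √(J.gsq G f (γ t))) =
      ∫⁻ t in Ioc a b, ENNReal.ofReal √(J.gsq G f (γ t)) := by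
    rw [intervalIntegral.integral_of_le hab.le, ofReal_integral_eq_lintegral_ofReal
      (hgc.integrableOn_Ioc) (Filter.Eventually.of_forall fun t => Real.sqrt_nonneg _)]
  refine (ENNReal.ofReal_le_ofReal h1).trans ?_
  rw [h2, ← setLIntegral_congr (Ioo_ae_eq_Ioc (a := a) (b := b))]
  have h3 : Ioo a b ⊆ Chd.chord Φ (Prod.fst ⁻¹' {x | l < |f x|}) z := by
    intro t ht u hu
    have ht0 : 0 ≤ t := haT.1.1.trans ht.1.le
    rw [uIcc_of_le ht0] at hu
    exact hbl u hu.1 (hu.2.trans_lt ht.2)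
  refine le_trans ?_ (lintegral_mono_set h3)
  refine setLIntegral_mono' measurableSet_Ioo fun t ht => ?_
  have h4 : γ t ∈ {x | l < |f x| ∧ |f x| ≤ l + ε} :=
    ⟨hbl t (haT.1.1.trans ht.1.le) ht.2, (hau t ht.1 ht.2.le).le⟩
  rw [indicator_of_mem (show (Φ t z).1 ∈ {x | l < |f x| ∧ |f x| ≤ l + ε} from h4)]

/-- Block V2d. -/
theorem specTruL (hF : SpecFlow) (hL : SpecLiouL) (hC : SpecChdL) : SpecTruL := by
  intro n hn
  obtain ⟨C, hC⟩ := hC n hn
  set c : ℝ≥0∞ := volume (Tru.std n) with hc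
  have hc0 : c ≠ 0 := (Tru.std_pos hn).ne'
  have hct : c ≠ ⊤ := Tru.std_ne_top n
  refine ⟨C * c.toNNReal⁻¹, ?_⟩
  intro G Φ Ω₀ hG f hf hfc hfs l ε hl hε
  have hs := hG.smooth
  have hp := hG.pos
  have hfm : Measurable f := hf.continuous.measurable
  set Ω : Set (J.E n) := {x | l < |f x|} with hΩ
  set Ω' : Set (J.E n) := {x | l + ε < |f x|} with hΩ'
  set A : Set (J.E n) := {x | l < |f x| ∧ |f x| ≤ l + ε} with hA
  have hΩo : IsOpen Ω := isOpen_lt continuous_const hf.continuous.abs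
  have hΩo' : IsOpen Ω' := isOpen_lt continuous_const hf.continuous.abs
  have hAm : MeasurableSet A :=
    (measurableSet_lt measurable_const hfm.abs).inter (measurableSet_le hfm.abs measurable_const)
  have hΩb : Ω ⊆ Ω₀ := by
    refine fun x hx => hfs ?_
    refine subset_tsupport f ?_
    intro h
    have h1 : l < |f x| := hx
    rw [h, abs_zero] at h1
    linarith
  have hsub : Ω' ⊆ Ω := fun x hx => by
    have h1 : l + ε < |f x| := hx
    show l < |f x|
    linarith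
  set U : Set (J.E n × J.E n) := Prod.fst ⁻¹' Ω with hU
  set L : J.E n × J.E n → ℝ≥0∞ := Chd.len Φ U with hLd
  have hflow := cont_flow hF hG.toFlo
  have hLm : Measurable L := Chd.meas_len hflow (ChdG.isOpen_fst hΩo)
  set D : Set (J.E n × J.E n) := shl G ∩ U with hD
  set D' : Set (J.E n × J.E n) := shl G ∩ Prod.fst ⁻¹' Ω' with hD'
  have hDm : MeasurableSet D := (ChdG.meas_shl hs hp).inter (ChdG.isOpen_fst hΩo).measurableSet
  have hDm' : MeasurableSet D' := (ChdG.meas_shl hs hp).inter (ChdG.isOpen_fst hΩo').measurableSet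
  have hDD : D' ⊆ D := fun z hz => ⟨hz.1, hsub hz.2⟩
  have hL0 : ∀ z ∈ D, L z ≠ 0 := fun z hz =>
    (Chd.len_pos hflow hG.zero (ChdG.isOpen_fst hΩo) hz.2).ne'
  have hLt : ∀ z ∈ D, L z ≠ ⊤ := fun z hz => len_fin hL hG hΩb hz.1
  -- (1)
  have e1 : volume D' = c * vol G Ω' := by
    rw [← setLIntegral_one]
    have h1 := Tru.int_shl hs hp (A := Ω') hΩo'.measurableSet (h := fun _ => 1) measurable_const
    simp only [mul_one] at h1
    exact h1
  -- (2)
  have e2 : ∫⁻ z in D, L z ^ n ≤ C * vol G Ω ^ 2 := by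
    have h1 := hC G Φ Ω₀ hG Ω hΩo hΩb
    have h2 : ∀ z, len Φ Ω z = L z := fun z => ChdG.len_eq hG.zero Ω z
    simp only [h2] at h1
    exact h1
  -- (3)
  set J₀ : ℝ≥0∞ := ∫⁻ x in A, ENNReal.ofReal (√(J.gsq G f x) * √(G x).det / ε) with hJ
  set H : J.E n → ℝ≥0∞ := A.indicator fun x => ENNReal.ofReal √(J.gsq G f x) with hH
  have hHm : Measurable H :=
    ((SobR.cont_gsq hs hp hf).sqrt.measurable.ennreal_ofReal).indicator hAm
  have e3 : ENNReal.ofReal ε * ∫⁻ z in D', (L z)⁻¹ ≤ ENNReal.ofReal ε * (c * J₀) := by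
    calc ENNReal.ofReal ε * ∫⁻ z in D', (L z)⁻¹
        = ∫⁻ z in D', (L z)⁻¹ * ENNReal.ofReal ε := by
          have h1 : Measurable fun z => (L z)⁻¹ := hLm.inv
          rw [lintegral_mul_const _ h1, mul_comm]
      _ ≤ ∫⁻ z in D', (L z)⁻¹ * ∫⁻ s in Chd.chord Φ U z, H (Φ s z).1 := by
          refine setLIntegral_mono' hDm' fun z hz => ?_
          refine mul_le_mul_right ?_ _
          exact chord_int hF hL hG hf hfs hl hε hz.1 hz.2
      _ ≤ ∫⁻ z in D, (L z)⁻¹ * ∫⁻ s in Chd.chord Φ U z, H (Φ s z).1 := lintegral_mono_set hDD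
      _ = ∫⁻ z in D, H z.1 := avg hF hL hG hΩo hΩb (H := fun z => H z.1)
          (hHm.comp measurable_fst)
      _ = c * ∫⁻ q in Ω, ENNReal.ofReal √(G q).det * H q :=
          Tru.int_shl hs hp (A := Ω) hΩo.measurableSet hHm
      _ = ENNReal.ofReal ε * (c * J₀) := by
          have h1 : ∫⁻ q in Ω, ENNReal.ofReal √(G q).det * H q = ENNReal.ofReal ε * J₀ := by
            rw [hJ, ← lintegral_const_mul]
            · rw [← lintegral_indicator hΩo.measurableSet, ← lintegral_indicator hAm]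
              refine lintegral_congr fun x => ?_
              by_cases hx : x ∈ A
              · have hx' : x ∈ Ω := hx.1
                rw [indicator_of_mem hx', indicator_of_mem hx, hH, indicator_of_mem hx,
                  ← ENNReal.ofReal_mul (Real.sqrt_nonneg _), ← ENNReal.ofReal_mul hε.le]
                congr 1
                field_simp
              · rw [indicator_of_notMem hx]
                by_cases hx' : x ∈ Ω
                · rw [indicator_of_mem hx', hH, indicator_of_notMem hx, mul_zero]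
                · rw [indicator_of_notMem hx']
            · exact (((SobR.cont_gsq hs hp hf).sqrt.mul (SobR.cont_sdet hs)).div_const
                ε).measurable.ennreal_ofReal
          rw [h1]; ring
  have hε0 : ENNReal.ofReal ε ≠ 0 := by
    rw [Ne, ENNReal.ofReal_eq_zero, not_le]; exact hε
  have e3' : ∫⁻ z in D', (L z)⁻¹ ≤ c * J₀ :=
    (ENNReal.mul_le_mul_iff_right hε0 ENNReal.ofReal_ne_top).1 e3
  -- (4), (5)
  have e4 := Tru.holder (μ := volume) hDm' hLm (fun z hz => hL0 z (hDD hz))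
    (fun z hz => hLt z (hDD hz)) n
  rw [e1] at e4
  have e5 : (c * vol G Ω') ^ (n + 1) ≤ (C * vol G Ω ^ 2) * (c * J₀) ^ n :=
    e4.trans (mul_le_mul' ((lintegral_mono_set hDD).trans e2) (pow_le_pow_left' e3' n))
  have e6 : c ^ n * (c * vol G Ω' ^ (n + 1)) ≤ c ^ n * (C * vol G Ω ^ 2 * J₀ ^ n) := by
    calc c ^ n * (c * vol G Ω' ^ (n + 1)) = (c * vol G Ω') ^ (n + 1) := by ring
      _ ≤ (C * vol G Ω ^ 2) * (c * J₀) ^ n := e5
      _ = _ := by ring
  have e7 : c * vol G Ω' ^ (n + 1) ≤ C * vol G Ω ^ 2 * J₀ ^ n :=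
    (ENNReal.mul_le_mul_iff_right (pow_ne_zero n hc0) (ENNReal.pow_ne_top hct)).1 e6
  have e8 : ((C * c.toNNReal⁻¹ : ℝ≥0) : ℝ≥0∞) = c⁻¹ * C := by
    rw [ENNReal.coe_mul, ENNReal.coe_inv, ENNReal.coe_toNNReal hct, mul_comm]
    exact fun h => hc0 ((ENNReal.toNNReal_eq_zero_iff c).1 h |>.resolve_right hct)
  rw [e8]
  calc vol G Ω' ^ (n + 1) = c⁻¹ * (c * vol G Ω' ^ (n + 1)) := by
        rw [← mul_assoc, ENNReal.inv_mul_cancel hc0 hct, one_mul]
    _ ≤ c⁻¹ * (C * vol G Ω ^ 2 * J₀ ^ n) := mul_le_mul_right e7 _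
    _ = _ := by ring

end Vale.Agent.P223.H566.TruL
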