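import Mathlib.MeasureTheory.Measure.Prod
import Mathlib.MeasureTheory.Measure.Lebesgue.EqHaar
import Mathlib.MeasureTheory.Measure.Haar.Unique
import Mathlib.Dynamics.Ergodic.MeasurePreserving

/-! Flows: time spent in an open set and averaging along the chords. -/

namespace Vale.Agent.P223.H566.Chd

open MeasureTheory Set Topology Filter
open scoped ENNReal

variable {P : Type*} [TopologicalSpace P] {Φ : ℝ → P → P} {U : Set P} {z : P}

/-- the times `s` such that the orbit of `z` stays in `U` between `0` and `s` -/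
def chord (Φ : ℝ → P → P) (U : Set P) (z : P) : Set ℝ := {s | ∀ t ∈ uIcc 0 s, Φ t z ∈ U}

omit [TopologicalSpace P] in
theorem mem_chord_iff {s : ℝ} : s ∈ chord Φ U z ↔ ∀ θ ∈ Icc (0 : ℝ) 1, Φ (θ * s) z ∈ U := by
  have h : uIcc 0 s = (fun θ : ℝ => θ * s) '' Icc 0 1 := by
    have := image_mul_const_uIcc s (0 : ℝ) 1
    rw [uIcc_of_le (zero_le_one' ℝ), zero_mul, one_mul] at this
    exact this.symm
  show (∀ t ∈ uIcc 0 s, Φ t z ∈ U) ↔ _
  rw [h, forall_mem_image]

omit [TopologicalSpace P] in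
theorem zero_mem (h0 : Φ 0 z = z) (hz : z ∈ U) : (0 : ℝ) ∈ chord Φ U z := by
  intro t ht
  rw [uIcc_self, mem_singleton_iff] at ht
  rw [ht, h0]; exact hz

omit [TopologicalSpace P] in
theorem mem_of_chord {s : ℝ} (h0 : Φ 0 z = z) (h : s ∈ chord Φ U z) : z ∈ U := by
  have := h 0 left_mem_uIcc
  rwa [h0] at this

omit [TopologicalSpace P] in
theorem end_mem {s : ℝ} (h : s ∈ chord Φ U z) : Φ s z ∈ U := h s right_mem_uIcc

omit [TopologicalSpace P] in
theorem chord_mono {s t : ℝ} (h : s ∈ chord Φ U z) (ht : t ∈ uIcc 0 s) : t ∈ chord Φ U z :=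
  fun u hu => h u (uIcc_subset_uIcc left_mem_uIcc ht hu)

omit [TopologicalSpace P] in
/-- shift -/
theorem chord_shift (hadd : ∀ s t z, Φ (s + t) z = Φ s (Φ t z)) {s t : ℝ}
    (hs : s ∈ chord Φ U z) : t ∈ chord Φ U (Φ s z) ↔ t + s ∈ chord Φ U z := by
  constructor
  · intro ht u hu
    by_cases h1 : u ∈ uIcc 0 s
    · exact hs u h1
    · have h2 : u ∈ uIcc s (t + s) := (uIcc_subset_uIcc_union_uIcc hu).resolve_left h1
      have h3 : u - s ∈ uIcc 0 t := by
        rw [mem_uIcc] at h2 ⊢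
        rcases h2 with ⟨a, b⟩ | ⟨a, b⟩
        · left; constructor <;> linarith
        · right; constructor <;> linarith
      have h4 := ht _ h3
      rwa [← hadd, sub_add_cancel] at h4
  · intro ht u hu
    rw [← hadd]
    have h2 : u + s ∈ uIcc s (t + s) := by
      rw [mem_uIcc] at hu ⊢
      rcases hu with ⟨a, b⟩ | ⟨a, b⟩
      · left; constructor <;> linarith
      · right; constructor <;> linarith
    by_cases h3 : u + s ∈ uIcc 0 (t + s)
    · exact ht _ h3
    · have h4 : uIcc s (t + s) ⊆ uIcc s 0 ∪ uIcc 0 (t + s) := uIcc_subset_uIcc_union_uIcc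
      have h5 := (h4 h2).resolve_right h3
      rw [uIcc_comm] at h5
      exact hs _ h5

omit [TopologicalSpace P] in
theorem neg_mem (h0 : ∀ z, Φ 0 z = z) (hadd : ∀ s t z, Φ (s + t) z = Φ s (Φ t z)) {s : ℝ}
    (hs : s ∈ chord Φ U z) : -s ∈ chord Φ U (Φ s z) := by
  rw [chord_shift hadd hs, neg_add_cancel]
  exact zero_mem (h0 z) (mem_of_chord (h0 z) hs)

/-- openness -/
theorem isOpen_chord (hc : Continuous fun q : ℝ × P => Φ q.1 q.2) (hU : IsOpen U) :
    IsOpen {q : ℝ × P | q.1 ∈ chord Φ U q.2} := by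
  rw [isOpen_iff_mem_nhds]
  rintro ⟨s, z⟩ h
  have h' : ∀ θ ∈ Icc (0 : ℝ) 1, Φ (θ * s) z ∈ U := mem_chord_iff.1 h
  have key : ∀ᶠ q : ℝ × P in 𝓝 (s, z), ∀ θ ∈ Icc (0 : ℝ) 1, Φ (θ * q.1) q.2 ∈ U := by
    refine isCompact_Icc.eventually_forall_of_forall_eventually fun θ hθ => ?_
    have h1 : Continuous fun r : (ℝ × P) × ℝ => Φ (r.2 * r.1.1) r.1.2 := by
      exact hc.comp ((continuous_snd.mul (continuous_fst.comp continuous_fst)).prodMk
        (continuous_snd.comp continuous_fst))
    exact (h1.isOpen_preimage U hU).mem_nhds (h' θ hθ)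
  filter_upwards [key] with q hq
  exact mem_chord_iff.2 hq

theorem isOpen_chord' (hc : Continuous fun q : ℝ × P => Φ q.1 q.2) (hU : IsOpen U) (z : P) :
    IsOpen (chord Φ U z) :=
  (isOpen_chord hc hU).preimage (Continuous.prodMk_left z)

omit [TopologicalSpace P] in
/-- the chord is a connected component -/
theorem comp_eq (h0 : ∀ z, Φ 0 z = z) (U : Set P)
    (z : P) : connectedComponentIn {t : ℝ | Φ t z ∈ U} 0 = chord Φ U z := by
  by_cases hz : z ∈ U
  · have hm : (0 : ℝ) ∈ {t : ℝ | Φ t z ∈ U} := by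
      show Φ 0 z ∈ U
      rw [h0]; exact hz
    refine Subset.antisymm (fun s hs t ht => ?_) fun s hs => ?_
    · have h1 := (isPreconnected_connectedComponentIn (x := (0 : ℝ))
        (F := {t : ℝ | Φ t z ∈ U})).ordConnected.uIcc_subset (mem_connectedComponentIn hm) hs
      have h2 := connectedComponentIn_subset {t : ℝ | Φ t z ∈ U} 0 (h1 ht)
      exact h2
    · exact isPreconnected_uIcc.subset_connectedComponentIn left_mem_uIcc
        (fun t ht => hs t ht) right_mem_uIcc
  · have h1 : connectedComponentIn {t : ℝ | Φ t z ∈ U} 0 = ∅ := by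
      refine connectedComponentIn_eq_empty fun h => hz ?_
      have : Φ 0 z ∈ U := h
      rwa [h0] at this
    rw [h1]
    symm
    rw [Set.eq_empty_iff_forall_notMem]
    exact fun s hs => hz (mem_of_chord (h0 z) hs)

/-- length of the chord -/
noncomputable def len (Φ : ℝ → P → P) (U : Set P) (z : P) : ℝ≥0∞ := volume (chord Φ U z)

omit [TopologicalSpace P] in
theorem len_shift (hadd : ∀ s t z, Φ (s + t) z = Φ s (Φ t z)) {s : ℝ}
    (hs : s ∈ chord Φ U z) : len Φ U (Φ s z) = len Φ U z := by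
  have h1 : chord Φ U (Φ s z) = (fun t => t + s) ⁻¹' chord Φ U z := by
    ext t
    exact chord_shift hadd hs
  unfold len
  rw [h1, measure_preimage_add_right]

theorem len_pos (hc : Continuous fun q : ℝ × P => Φ q.1 q.2) (h0 : ∀ z, Φ 0 z = z)
    (hU : IsOpen U) (hz : z ∈ U) : 0 < len Φ U z :=
  (isOpen_chord' hc hU z).measure_pos volume ⟨0, zero_mem (h0 z) hz⟩

section meas
variable [SecondCountableTopology P] [MeasurableSpace P] [BorelSpace P]

theorem meas_chord (hc : Continuous fun q : ℝ × P => Φ q.1 q.2) (hU : IsOpen U) :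
    MeasurableSet {q : ℝ × P | q.1 ∈ chord Φ U q.2} := (isOpen_chord hc hU).measurableSet

theorem meas_len (hc : Continuous fun q : ℝ × P => Φ q.1 q.2) (hU : IsOpen U) :
    Measurable (len Φ U) := measurable_measure_prodMk_right (meas_chord hc hU)

/-- averaging along the chords -/
theorem avg {μ : Measure P} [SFinite μ] (hc : Continuous fun q : ℝ × P => Φ q.1 q.2)
    (h0 : ∀ z, Φ 0 z = z) (hadd : ∀ s t z, Φ (s + t) z = Φ s (Φ t z))
    (hmp : ∀ t, MeasurePreserving (Φ t) μ μ) (hU : IsOpen U) {S : Set P} (hS : MeasurableSet S)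
    (hSi : ∀ t z, Φ t z ∈ S ↔ z ∈ S) (hfin : ∀ z ∈ S ∩ U, len Φ U z ≠ ⊤)
    {H : P → ℝ≥0∞} (hH : Measurable H) :
    ∫⁻ z in S ∩ U, ((len Φ U z)⁻¹ * ∫⁻ s in chord Φ U z, H (Φ s z)) ∂μ =
      ∫⁻ z in S ∩ U, H z ∂μ := by
  classical
  have hD : MeasurableSet (S ∩ U) := hS.inter hU.measurableSet
  have hQ := meas_chord (Φ := Φ) hc hU
  have hl := meas_len (Φ := Φ) hc hU
  set F : ℝ × P → ℝ≥0∞ := fun q => (S ∩ U).indicator (fun w => (len Φ U w)⁻¹ * H w) q.2 *
    {q : ℝ × P | q.1 ∈ chord Φ U q.2}.indicator (fun _ => 1) (-q.1, q.2) with hF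
  have hFm : Measurable F := by
    refine Measurable.mul ?_ ?_
    · exact ((hl.inv.mul hH).indicator hD).comp measurable_snd
    · exact (measurable_const.indicator hQ).comp (measurable_fst.neg.prodMk measurable_snd)
  have key : ∀ s z, (S ∩ U).indicator (fun z => (len Φ U z)⁻¹ *
      (chord Φ U z).indicator (fun s => H (Φ s z)) s) z = F (s, Φ s z) := by
    intro s z
    simp only [hF]
    by_cases hz : z ∈ S ∩ U
    · rw [indicator_of_mem hz]
      by_cases hs : s ∈ chord Φ U z
      · have h1 : Φ s z ∈ S ∩ U := ⟨(hSi s z).2 hz.1, end_mem hs⟩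
        rw [indicator_of_mem hs, indicator_of_mem h1, indicator_of_mem
          (show ((-s, Φ s z) : ℝ × P) ∈ {q : ℝ × P | q.1 ∈ chord Φ U q.2} from neg_mem h0 hadd hs),
          len_shift hadd hs, mul_one]
      · rw [indicator_of_notMem hs, mul_zero]
        have h2 : ((-s, Φ s z) : ℝ × P) ∉ {q : ℝ × P | q.1 ∈ chord Φ U q.2} := by
          intro h
          have h3 : -s ∈ chord Φ U (Φ s z) := h
          have h4 := neg_mem h0 hadd h3
          rw [neg_neg, ← hadd, neg_add_cancel, h0] at h4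
          exact hs h4
        rw [indicator_of_notMem h2, mul_zero]
    · rw [indicator_of_notMem hz]
      by_cases h1 : Φ s z ∈ S ∩ U
      · have h2 : ((-s, Φ s z) : ℝ × P) ∉ {q : ℝ × P | q.1 ∈ chord Φ U q.2} := by
          intro h
          have h3 : -s ∈ chord Φ U (Φ s z) := h
          have h4 := end_mem h3
          rw [← hadd, neg_add_cancel, h0] at h4
          exact hz ⟨(hSi s z).1 h1.1, h4⟩
        rw [indicator_of_notMem h2, mul_zero]
      · rw [indicator_of_notMem h1, zero_mul]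
  have h1 : ∫⁻ z in S ∩ U, ((len Φ U z)⁻¹ * ∫⁻ s in chord Φ U z, H (Φ s z)) ∂μ =
      ∫⁻ z, (∫⁻ s, F (s, Φ s z)) ∂μ := by
    rw [← lintegral_indicator hD]
    refine lintegral_congr fun z => ?_
    by_cases hz : z ∈ S ∩ U
    · rw [indicator_of_mem hz, ← lintegral_indicator (isOpen_chord' hc hU z).measurableSet,
        ← lintegral_const_mul]
      · refine lintegral_congr fun s => ?_
        rw [← key s z, indicator_of_mem hz]
      · refine Measurable.indicator ?_ (isOpen_chord' hc hU z).measurableSet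
        exact hH.comp (hc.comp (Continuous.prodMk_left z)).measurable
    · rw [indicator_of_notMem hz]
      symm
      have h1 : ∀ s, F (s, Φ s z) = 0 := fun s => by
        rw [← key s z, indicator_of_notMem hz]
      simp only [h1, lintegral_zero]
  have h2 : ∫⁻ z, (∫⁻ s, F (s, Φ s z)) ∂μ = ∫⁻ s, (∫⁻ z, F (s, Φ s z) ∂μ) := by
    refine lintegral_lintegral_swap ?_
    refine Measurable.aemeasurable ?_
    exact hFm.comp (measurable_snd.prodMk
      (hc.comp (continuous_snd.prodMk continuous_fst)).measurable)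
  have h3 : ∀ s, ∫⁻ z, F (s, Φ s z) ∂μ = ∫⁻ w, F (s, w) ∂μ := fun s =>
    (hmp s).lintegral_comp (hFm.comp (measurable_const.prodMk measurable_id))
  have h4 : ∫⁻ s, (∫⁻ w, F (s, w) ∂μ) = ∫⁻ w, (∫⁻ s, F (s, w)) ∂μ := by
    refine lintegral_lintegral_swap ?_
    exact hFm.aemeasurable
  rw [h1, h2]
  simp only [h3]
  rw [h4, ← lintegral_indicator hD]
  refine lintegral_congr fun w => ?_
  simp only [hF]
  by_cases hw : w ∈ S ∩ U
  · rw [indicator_of_mem hw, indicator_of_mem hw, lintegral_const_mul]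
    · have h5 : ∫⁻ s : ℝ, {q : ℝ × P | q.1 ∈ chord Φ U q.2}.indicator (fun _ => (1 : ℝ≥0∞)) (-s, w) =
          len Φ U w := by
        have h6 : ∀ s : ℝ, {q : ℝ × P | q.1 ∈ chord Φ U q.2}.indicator (fun _ => (1 : ℝ≥0∞)) (-s, w) =
            (chord Φ U w).indicator (fun _ => (1 : ℝ≥0∞)) (-s) := fun s => rfl
        simp only [h6]
        have h7 := (Measure.measurePreserving_neg (volume : Measure ℝ)).lintegral_comp
          (f := (chord Φ U w).indicator (fun _ => (1 : ℝ≥0∞)))
          (measurable_const.indicator (isOpen_chord' hc hU w).measurableSet)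
        rw [h7, lintegral_indicator (isOpen_chord' hc hU w).measurableSet, setLIntegral_one]
        rfl
      rw [h5, mul_right_comm, ENNReal.inv_mul_cancel (len_pos hc h0 hU hw.2).ne' (hfin w hw),
        one_mul]
    · exact (measurable_const.indicator hQ).comp (measurable_id.neg.prodMk measurable_const)
  · rw [indicator_of_notMem hw, indicator_of_notMem hw]
    simp only [zero_mul, lintegral_zero]

end meas

end Vale.Agent.P223.H566.Chd
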