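import Vale.Agent.P223.H566.Spec
import Vale.Agent.P223.H.LapInt
import Vale.Agent.P223.X.IBPX
import Vale.Agent.P223.X.Vol

/-! Integration of spinor fields on the universal covering. -/

namespace Vale.Agent.P223.H566

open scoped ContDiff InnerProductSpace Topology
open MeasureTheory Vale.Agent.P223.H Vale.Agent.P223.X

/-! ### divergence theorem on `ℝ^n` -/

section loc
variable {n : ℕ} {G : E n → Matrix (Fin n) (Fin n) ℝ}

theorem continuous_divg (h1 : ∀ i j, ContDiff ℝ ∞ (fun x => G x i j)) (h2 : ∀ x, (G x).PosDef)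
    {Z : E n → E n} (hZ : ContDiff ℝ 1 Z) : Continuous (divg G Z) := by
  have hM := EqX.metT1 h1 h2
  have hd : ContDiff ℝ 1 (H.dens G) := contDiff_infty.1 (IBP.contDiff_dens hM) 1
  unfold divg
  refine (hd.continuous.inv₀ fun x => (Common.dens_pos hM x).ne').mul
    (continuous_finsetSum _ fun a _ => ?_)
  exact ((hd.mul (contDiff_pi.1 hZ a)).continuous_fderiv (by simp)).clm_apply continuous_const

theorem divg_supp {Z : E n → E n} (hc : HasCompactSupport Z) : HasCompactSupport (divg G Z) := by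
  refine hc.mono' ?_
  intro x hx
  by_contra h
  apply hx
  have h1 : Z =ᶠ[𝓝 x] fun _ => 0 := notMem_tsupport_iff_eventuallyEq.1 h
  unfold divg
  have h2 : ∀ i, (fun y => H.dens G y * Z y i) =ᶠ[𝓝 x] fun _ => 0 := fun i => by
    filter_upwards [h1] with y hy
    rw [hy]; simp
  have h3 : ∀ i, H.pd i (fun y => H.dens G y * Z y i) x = 0 := fun i => by
    unfold H.pd
    rw [(h2 i).fderiv_eq]; simp
  simp only [h3, Finset.sum_const_zero, mul_zero]

theorem int_divg (h1 : ∀ i j, ContDiff ℝ ∞ (fun x => G x i j)) (h2 : ∀ x, (G x).PosDef)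
    {Z : E n → E n} (hZ : ContDiff ℝ 1 Z) (hc : HasCompactSupport Z) :
    ∫ x, divg G Z x * H.dens G x = 0 := by
  have hM := EqX.metT1 h1 h2
  have hd : ContDiff ℝ 1 (H.dens G) := contDiff_infty.1 (IBP.contDiff_dens hM) 1
  have hZi : ∀ i, ContDiff ℝ 1 (fun y => H.dens G y * Z y i) := fun i =>
    hd.mul (contDiff_pi.1 hZ i)
  have hci : ∀ i, HasCompactSupport (fun y => H.dens G y * Z y i) := fun i => by
    refine HasCompactSupport.intro hc.isCompact fun x hx => ?_
    rw [image_eq_zero_of_notMem_tsupport hx]; simp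
  have e1 : ∀ x, divg G Z x * H.dens G x = ∑ i, H.pd i (fun y => H.dens G y * Z y i) x := by
    intro x
    have : H.dens G x ≠ 0 := (Common.dens_pos hM x).ne'
    unfold divg
    field_simp
  have i1 : ∀ i, Integrable fun x => H.pd i (fun y => H.dens G y * Z y i) x := fun i =>
    (((hZi i).continuous_fderiv (by simp)).clm_apply continuous_const).integrable_of_hasCompactSupport
      ((hci i).fderiv_apply ℝ _)
  simp only [e1]
  rw [integral_finsetSum _ fun i _ => i1 i]
  refine Finset.sum_eq_zero fun i _ => ?_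
  have := integral_mul_fderiv_eq_neg_fderiv_mul_of_integrable (μ := volume)
    (f := fun _ : E n => (1 : ℝ)) (g := fun y => H.dens G y * Z y i) (v := Pi.single i 1)
    (by simp) (by simpa [H.pd] using i1 i)
    (by simpa using (hZi i).continuous.integrable_of_hasCompactSupport (hci i))
    (fun x _ => differentiableAt_const _) (fun x _ => (hZi i).differentiable (by simp) x)
  simpa [H.pd] using this

theorem pair_grd (f h : E n → ℝ) (y : E n) (hs : ∀ i j, (G y)⁻¹ i j = (G y)⁻¹ j i) :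
    IBP.pair f (grd G h) y = IBP.pair h (grd G f) y := by
  unfold IBP.pair grd
  simp only [Finset.mul_sum]
  rw [Finset.sum_comm]
  refine Finset.sum_congr rfl fun i _ => Finset.sum_congr rfl fun j _ => ?_
  rw [hs i j]; ring

theorem Ginv_symm (h2 : ∀ x, (G x).PosDef) (y : E n) (i j : Fin n) :
    (G y)⁻¹ i j = (G y)⁻¹ j i := by
  have := (h2 y).inv.isHermitian
  have h := congrFun (congrFun this i) j
  simpa using h.symm

/-- Green's formula on `ℝ^n` -/
theorem green (h1 : ∀ i j, ContDiff ℝ ∞ (fun x => G x i j)) (h2 : ∀ x, (G x).PosDef)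
    {f h : E n → ℝ} (hf : ContDiff ℝ ∞ f) (hh : ContDiff ℝ ∞ h) (hc : HasCompactSupport f) :
    ∫ x, f x * lap G h x * H.dens G x = ∫ x, lap G f x * h x * H.dens G x := by
  have hM := EqX.metT1 h1 h2
  have hg : ∀ {u : E n → ℝ}, ContDiff ℝ ∞ u → ContDiff ℝ ∞ (grd G u) := fun {u} hu => by
    unfold grd
    refine contDiff_pi.2 fun i => ContDiff.sum fun j _ => (Bas2.sm_inv h1 h2 i j).mul ?_
    exact Bridge.contDiff_pd hu (by simp) j
  have hZ : ContDiff ℝ ∞ (fun y => f y • grd G h y - h y • grd G f y) :=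
    (hf.smul (hg hh)).sub (hh.smul (hg hf))
  have hcZ : HasCompactSupport (fun y => f y • grd G h y - h y • grd G f y) := by
    refine HasCompactSupport.intro hc.isCompact fun x hx => ?_
    have e1 : f x = 0 := image_eq_zero_of_notMem_tsupport hx
    have e2 : f =ᶠ[𝓝 x] fun _ => 0 := notMem_tsupport_iff_eventuallyEq.1 hx
    have e3 : ∀ j, H.pd j f x = 0 := fun j => by
      unfold H.pd
      rw [e2.fderiv_eq]; simp
    rw [e1]
    ext i
    simp [grd, e3]
  have key : ∀ x, divg G (fun y => f y • grd G h y - h y • grd G f y) x =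
      f x * lap G h x - lap G f x * h x := by
    intro x
    rw [LapInt.lap_eq_divg h1 h2 (contDiff_infty.1 hh 2), LapInt.lap_eq_divg h1 h2
      (contDiff_infty.1 hf 2)]
    have hd : ContDiff ℝ ∞ (H.dens G) := IBP.contDiff_dens hM
    have e1 : ∀ {u v : E n → ℝ}, ContDiff ℝ ∞ u → ContDiff ℝ ∞ v → ∀ i,
        H.pd i (fun y => u y * (H.dens G y * grd G v y i)) x =
          H.pd i u x * (H.dens G x * grd G v x i) + u x * H.pd i (fun y => H.dens G y * grd G v y i) x :=
      fun {u v} hu hv i => Bridge.pd_mul (hu.differentiable (by simp) x)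
        ((hd.mul (contDiff_pi.1 (hg hv) i)).differentiable (by simp) x)
    have e2 : ∀ i, H.pd i (fun y => H.dens G y * (f y • grd G h y - h y • grd G f y) i) x =
        (H.pd i f x * (H.dens G x * grd G h x i) + f x * H.pd i (fun y => H.dens G y * grd G h y i) x) -
        (H.pd i h x * (H.dens G x * grd G f x i) + h x * H.pd i (fun y => H.dens G y * grd G f y i) x) := by
      intro i
      rw [← e1 hf hh i, ← e1 hh hf i, ← Bridge.pd_sub]
      · congr 1
        funext y
        simp only [Pi.sub_apply, Pi.smul_apply, smul_eq_mul]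
        ring
      · exact (hf.mul (hd.mul (contDiff_pi.1 (hg hh) i))).differentiable (by simp) x
      · exact (hh.mul (hd.mul (contDiff_pi.1 (hg hf) i))).differentiable (by simp) x
    have e3 := pair_grd (G := G) f h x (Ginv_symm h2 x)
    unfold IBP.pair at e3
    have hdn : H.dens G x ≠ 0 := (Common.dens_pos hM x).ne'
    unfold divg
    simp only [e2, Finset.sum_sub_distrib, Finset.sum_add_distrib, ← Finset.mul_sum]
    have e4 : ∀ u v : E n → ℝ, ∑ i, H.pd i u x * (H.dens G x * grd G v x i) =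
        H.dens G x * ∑ i, H.pd i u x * grd G v x i := fun u v => by
      rw [Finset.mul_sum]
      exact Finset.sum_congr rfl fun i _ => by ring
    rw [e4, e4, e3]
    ring
  have h0 := int_divg h1 h2 (contDiff_infty.1 hZ 1) hcZ
  simp only [key] at h0
  have c1 : Continuous fun x => f x * lap G h x * H.dens G x :=
    ((hf.continuous.mul (Bas2.contDiff_lap h1 h2 (contDiff_infty.1 hh 4)).continuous).mul
      (IBP.contDiff_dens hM).continuous)
  have c2 : Continuous fun x => lap G f x * h x * H.dens G x :=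
    (((Bas2.contDiff_lap h1 h2 (contDiff_infty.1 hf 4)).continuous.mul hh.continuous).mul
      (IBP.contDiff_dens hM).continuous)
  have s1 : HasCompactSupport fun x => f x * lap G h x * H.dens G x := (hc.mul_right).mul_right
  have s2 : HasCompactSupport fun x => lap G f x * h x * H.dens G x := by
    refine HasCompactSupport.intro hc.isCompact fun x hx => ?_
    have e2 : f =ᶠ[𝓝 x] fun _ => 0 := notMem_tsupport_iff_eventuallyEq.1 hx
    have e3 : lap G f x = 0 := by
      rw [Bas2.lap_congr e2]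
      unfold lap
      simp [H.pd]
    rw [e3]; simp
  rw [← sub_eq_zero, ← integral_sub (c1.integrable_of_hasCompactSupport s1)
    (c2.integrable_of_hasCompactSupport s2), ← h0]
  congr 1
  funext x
  ring

/-- skew symmetry of the Dirac operator on `ℝ^n` -/
theorem skew_loc (hL : SpecLocal) {V : Type} [NormedAddCommGroup V] [InnerProductSpace ℂ V]
    [FiniteDimensional ℂ V] (K : Cliff n V) {β : E n → Matrix (Fin n) (Fin n) ℝ}
    (h1 : ∀ i j, ContDiff ℝ ∞ (fun x => G x i j)) (h2 : ∀ x, (G x).PosDef) (hβ : Fr G β)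
    {b ψ : E n → V} (hb : ContDiff ℝ ∞ b) (hc : HasCompactSupport b) (hψ : ContDiff ℝ ∞ ψ) :
    ∫ y, (H.dens G y : ℂ) * ⟪dir K G β b y, ψ y⟫_ℂ =
      -∫ y, (H.dens G y : ℂ) * ⟪b y, dir K G β ψ y⟫_ℂ := by
  have hM := EqX.metT1 h1 h2
  have hd : Continuous fun y => (H.dens G y : ℂ) :=
    Complex.continuous_ofReal.comp (IBP.contDiff_dens hM).continuous
  have hdb : HasCompactSupport (dir K G β b) := by
    refine HasCompactSupport.intro hc.isCompact fun x hx => ?_
    have e2 : b =ᶠ[𝓝 x] fun _ => 0 := notMem_tsupport_iff_eventuallyEq.1 hx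
    rw [dir_congr K e2]
    have h5 := dir_smul (G := G) (β := β) (φ := fun _ => (0 : V)) (y := x) K
      (differentiableAt_const _) (0 : ℂ)
    simpa using h5
  have c1 : Integrable fun y => (H.dens G y : ℂ) * ⟪dir K G β b y, ψ y⟫_ℂ := by
    refine (hd.mul ((contDiff_dir K h1 h2 hβ.smooth hb).continuous.inner
      hψ.continuous)).integrable_of_hasCompactSupport ?_
    refine HasCompactSupport.intro hdb.isCompact fun x hx => ?_
    simp [image_eq_zero_of_notMem_tsupport hx]
  have c2 : Integrable fun y => (H.dens G y : ℂ) * ⟪b y, dir K G β ψ y⟫_ℂ := by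
    refine (hd.mul (hb.continuous.inner
      (contDiff_dir K h1 h2 hβ.smooth hψ).continuous)).integrable_of_hasCompactSupport ?_
    refine HasCompactSupport.intro hc.isCompact fun x hx => ?_
    simp [image_eq_zero_of_notMem_tsupport hx]
  -- the real part
  have re : ∀ {b : E n → V}, ContDiff ℝ ∞ b → HasCompactSupport b →
      ∫ y, ((⟪dir K G β b y, ψ y⟫_ℂ).re + (⟪b y, dir K G β ψ y⟫_ℂ).re) * H.dens G y = 0 := by
    intro b hb hc
    have hZ : ContDiff ℝ ∞ (fun z (k : Fin n) => (⟪cl K β z k (b z), ψ z⟫_ℂ).re) := by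
      refine contDiff_pi.2 fun k => Complex.reCLM.contDiff.comp ?_
      exact ContDiff.inner ℂ (contDiff_clm_apply' (contDiff_cl K hβ.smooth k) hb) hψ
    have hcZ : HasCompactSupport (fun z (k : Fin n) => (⟪cl K β z k (b z), ψ z⟫_ℂ).re) := by
      refine HasCompactSupport.intro hc.isCompact fun x hx => ?_
      funext k
      rw [image_eq_zero_of_notMem_tsupport hx]; simp
    have h0 := int_divg h1 h2 (contDiff_infty.1 hZ 1) hcZ
    rw [← h0]
    congr 1
    funext y
    rw [(hL n V K G β h1 h2 hβ).1 b ψ hb hψ y]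
  have hI : ∀ y, dir K G β (fun z => Complex.I • b z) y = Complex.I • dir K G β b y := fun y =>
    dir_smul K (hb.differentiable (by simp) y) _
  have r1 := re hb hc
  have r2 := re (b := fun z => Complex.I • b z) (hb.const_smul _)
    (HasCompactSupport.intro hc.isCompact fun x hx => by
      rw [image_eq_zero_of_notMem_tsupport hx, smul_zero])
  rw [← sub_eq_zero, sub_neg_eq_add, ← integral_add c1 c2]
  have c3 : Integrable fun y => (H.dens G y : ℂ) * ⟪dir K G β b y, ψ y⟫_ℂ +
      (H.dens G y : ℂ) * ⟪b y, dir K G β ψ y⟫_ℂ := c1.add c2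
  apply Complex.ext
  · have e := Complex.reCLM.integral_comp_comm c3
    simp only [Complex.reCLM_apply] at e
    rw [Complex.zero_re, ← e, ← r1]
    congr 1
    funext y
    simp only [Complex.add_re, Complex.re_ofReal_mul]
    ring
  · have e := Complex.imCLM.integral_comp_comm c3
    simp only [Complex.imCLM_apply] at e
    rw [Complex.zero_im, ← e, ← r2]
    congr 1
    funext y
    rw [hI]
    simp only [Complex.add_im, Complex.im_ofReal_mul, inner_smul_left, Complex.conj_I,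
      Complex.neg_re, neg_mul, Complex.I_mul_re, neg_neg]
    ring

end loc

/-! ### integrals over `X` -/

section glob
variable {n : ℕ} {M X Γ I : Type} [TopologicalSpace M] [TopologicalSpace X] [Group Γ]
    [MulAction Γ X] {C : Cov n M X Γ I} {G : I → E n → Matrix (Fin n) (Fin n) ℝ}
    [MeasurableSpace X] [BorelSpace X] {μ : Measure X}

omit [MeasurableSpace X] [BorelSpace X] in
theorem pg_spec (C : Cov n M X Γ I) (x : X) : C.pg x • C.ψ (C.pi x) (C.py x) = x :=
  (C.cover x).choose_spec.choose_spec.choose_spec.2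

theorem integral_chart' (hG : MetX C G) (hV : VolX C G μ) (γ : Γ) (i : I) (g : X → ℂ)
    (hg : ∀ x, x ∉ Set.range (fun y => γ • C.ψ i y) → g x = 0) :
    ∫ x, g x ∂μ = ∫ y, (H.dens (G i) y : ℂ) * g (γ • C.ψ i y) := by
  have hm := Int.measurableEmbedding_chart C γ i
  rw [← setIntegral_eq_integral_of_forall_compl_eq_zero hg, ← hm.map_comap, hm.integral_map,
    Int.comap_eq hV γ i, integral_withDensity_eq_integral_toReal_smul]
  · refine integral_congr_ae (Filter.Eventually.of_forall fun y => ?_)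
    simp only
    rw [ENNReal.toReal_ofReal (Int.dens_pos hG i y).le, Complex.real_smul]
  · exact (Int.cont_dens hG i).measurable.ennreal_ofReal
  · exact Filter.Eventually.of_forall fun y => ENNReal.ofReal_lt_top

theorem compact_lt (hG : MetX C G) (hV : VolX C G μ) {B : Set X} (hB : IsCompact B) :
    μ B < ⊤ := by
  obtain ⟨s, hs⟩ := Bas3.finite_cover C hB
  refine (measure_mono hs).trans_lt ?_
  refine (measure_biUnion_finset_le _ _).trans_lt ?_
  refine ENNReal.sum_lt_top.2 fun p _ => ?_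
  rw [hV p.1 p.2 _ measurableSet_ball]
  have h1 : IntegrableOn (H.dens (G p.2)) (Metric.ball (0 : E n) 1) :=
    ((Int.cont_dens hG p.2).continuousOn.integrableOn_compact
      (isCompact_closedBall (0 : E n) 1)).mono_set Metric.ball_subset_closedBall
  exact h1.lintegral_lt_top

theorem finComp (hG : MetX C G) (hV : VolX C G μ) : IsFiniteMeasureOnCompacts μ :=
  ⟨fun _ hB => compact_lt hG hV hB⟩

omit [MeasurableSpace X] [BorelSpace X] in
theorem continuous_of_chart {F : Type} [TopologicalSpace F] (C : Cov n M X Γ I) {g : X → F}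
    (h : ∀ (γ : Γ) i, Continuous fun y => g (γ • C.ψ i y)) : Continuous g := by
  refine continuous_iff_continuousAt.2 fun x => ?_
  rw [← pg_spec C x]
  exact ((Bas3.chart_emb C (C.pg x) (C.pi x)).continuousAt_iff).1 (h _ _).continuousAt

omit [MeasurableSpace X] [BorelSpace X] in
/-- finitely many functions of the partition of unity are sufficient on a compact set -/
theorem exists_F [Fintype I] [T2Space X] {χ : I → E n → ℝ} (hχ : Part C χ) {B : Set X}
    (hB : IsCompact B) : ∃ F : Finset Γ, ∀ x ∈ B, ∑ i, ∑ γ ∈ F, IBPX.th C χ γ i x = 1 := by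
  classical
  have hf := properX C hB (isCompact_core C 2)
  refine ⟨hf.toFinset, fun x hx => IBPX.sum_th_eq hχ x _ fun i γ y hy h => ?_⟩
  refine hf.mem_toFinset.2 ⟨x, hx, ?_⟩
  rw [h]
  exact Set.mem_iUnion.2 ⟨i, y, hy, rfl⟩

end glob

section core
variable {n : ℕ} {M X Γ I : Type} [TopologicalSpace M] [TopologicalSpace X] [Group Γ]
    [MulAction Γ X] {V : Type} [NormedAddCommGroup V] [InnerProductSpace ℂ V]
    {C : Cov n M X Γ I} {G : I → E n → Matrix (Fin n) (Fin n) ℝ} {K : Cliff n V}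
    {S : SpX C G K}

theorem IsCore.hp_chart {φ ψ : Raw Γ I n V} (hφ : IsCore S φ) (hψ : IsCore S ψ) (γ : Γ) (i : I)
    (y : E n) : hp C φ ψ (γ • C.ψ i y) = ⟪φ γ i y, ψ γ i y⟫_ℂ := by
  set x := γ • C.ψ i y with hx
  have h := pg_spec C x
  have h1 : γ • C.ψ i y = C.pg x • C.ψ (C.pi x) (C.py x) := by rw [h]
  unfold hp
  rw [hφ.compat _ _ _ _ _ _ h1, hψ.compat _ _ _ _ _ _ h1]
  exact S.unit _ _ _ _ _ (chart_eq C h1).1 _ _

theorem IsCore.nm_sq {φ : Raw Γ I n V} (hφ : IsCore S φ) (x : X) :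
    nm C φ x ^ 2 = (hp C φ φ x).re := by
  unfold nm hp
  rw [inner_self_eq_norm_sq_to_K]
  norm_cast

theorem IsCore.nm_chart {φ : Raw Γ I n V} (hφ : IsCore S φ) (γ : Γ) (i : I)
    (y : E n) : nm C φ (γ • C.ψ i y) = ‖φ γ i y‖ := by
  have h1 := hφ.nm_sq (γ • C.ψ i y)
  rw [hφ.hp_chart hφ, inner_self_eq_norm_sq_to_K] at h1
  have h2 : nm C φ (γ • C.ψ i y) ^ 2 = ‖φ γ i y‖ ^ 2 := by
    rw [h1]; norm_cast
  exact (sq_eq_sq₀ (norm_nonneg _) (norm_nonneg _)).1 h2

theorem IsCore.continuous_hp {φ ψ : Raw Γ I n V} (hφ : IsCore S φ) (hψ : IsCore S ψ) :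
    Continuous (hp C φ ψ) := by
  refine continuous_of_chart C fun γ i => ?_
  simp only [hφ.hp_chart hψ]
  exact (hφ.smooth γ i).continuous.inner (hψ.smooth γ i).continuous

theorem IsCore.continuous_nm {φ : Raw Γ I n V} (hφ : IsCore S φ) : Continuous (nm C φ) := by
  refine continuous_of_chart C fun γ i => ?_
  simp only [hφ.nm_chart]
  exact (hφ.smooth γ i).continuous.norm

theorem IsCore.nm_supp {φ : Raw Γ I n V} (hφ : IsCore S φ) [T2Space X] :
    HasCompactSupport (nm C φ) := by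
  obtain ⟨B, hB, h⟩ := hφ.supp
  refine HasCompactSupport.intro hB fun x hx => ?_
  unfold nm
  rw [h _ _ _ (by rw [pg_spec C x]; exact hx), norm_zero]

theorem IsCore.hp_supp {φ ψ : Raw Γ I n V} (hφ : IsCore S φ) [T2Space X] :
    HasCompactSupport (hp C φ ψ) := by
  obtain ⟨B, hB, h⟩ := hφ.supp
  refine HasCompactSupport.intro hB fun x hx => ?_
  unfold hp
  rw [h _ _ _ (by rw [pg_spec C x]; exact hx), inner_zero_left]

section meas
variable [MeasurableSpace X] [BorelSpace X] [T2Space X] {μ : Measure X}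

theorem IsCore.integrable_hp {φ ψ : Raw Γ I n V} (hφ : IsCore S φ) (hψ : IsCore S ψ)
    (hV : VolX C G μ) : Integrable (hp C φ ψ) μ := by
  have := finComp S.met hV
  exact (hφ.continuous_hp hψ).integrable_of_hasCompactSupport hφ.hp_supp

/-- products with local pieces -/
theorem ipr_lC (hV : VolX C G μ) (γ : Γ) (i : I) (b : CS n V) (ψ : Core S) :
    Integrable (fun y => (H.dens (G i) y : ℂ) * ⟪(b : E n → V) y, (ψ : Raw Γ I n V) γ i y⟫_ℂ) ∧
    ipr C μ (S.lC γ i b : Raw Γ I n V) (ψ : Raw Γ I n V) =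
      ∫ y, (H.dens (G i) y : ℂ) * ⟪(b : E n → V) y, (ψ : Raw Γ I n V) γ i y⟫_ℂ := by
  constructor
  · refine ((Complex.continuous_ofReal.comp (Int.cont_dens S.met i)).mul
      (b.2.1.continuous.inner (ψ.2.smooth γ i).continuous)).integrable_of_hasCompactSupport ?_
    refine HasCompactSupport.intro b.2.2.isCompact fun x hx => ?_
    simp [image_eq_zero_of_notMem_tsupport hx]
  · unfold ipr
    rw [integral_chart' S.met hV γ i]
    · congr 1
      funext y
      rw [(S.lC γ i b).2.hp_chart ψ.2]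
      congr 2
      exact S.loc_self γ i y
    · intro x hx
      have : (S.lC γ i b : Raw Γ I n V) (C.pg x) (C.pi x) (C.py x) = 0 := by
        refine S.loc_zero fun z _ h => hx ⟨z, ?_⟩
        simp only
        rw [← h, pg_spec C x]
      unfold hp
      rw [this, inner_zero_left]

omit [MeasurableSpace X] [BorelSpace X] in
/-- decomposition into local pieces -/
theorem core_decomp [Fintype I] (φ : Core S) : ∃ (F : Finset Γ) (b : Γ → I → CS n V),
    φ = ∑ i, ∑ γ ∈ F, S.lC γ i (b γ i) := by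
  classical
  obtain ⟨χ, hχ⟩ := PartX.main n M X Γ I C
  obtain ⟨B, hB, h3⟩ := φ.2.supp
  obtain ⟨F, hF⟩ := exists_F (C := C) hχ hB
  have hb : ∀ γ i, (fun y => (χ i y : ℂ) • (φ : Raw Γ I n V) γ i y) ∈ CS n V := fun γ i =>
    ⟨(Complex.ofRealCLM.contDiff.comp (hχ.smooth i)).smul (φ.2.smooth γ i),
      HasCompactSupport.intro (IBPX.hasCompactSupport_χ hχ i).isCompact fun x hx => by
        rw [image_eq_zero_of_notMem_tsupport hx]; simp⟩
  refine ⟨F.image (fun γ => γ⁻¹), fun γ i => ⟨_, hb γ i⟩, ?_⟩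
  have key : ∀ (γ : Γ) i γ' j y, (S.lC γ⁻¹ i ⟨_, hb γ⁻¹ i⟩ : Raw Γ I n V) γ' j y =
      (IBPX.th C χ γ i (γ' • C.ψ j y) : ℂ) • (φ : Raw Γ I n V) γ' j y := by
    intro γ i γ' j y
    change S.loc γ⁻¹ i _ γ' j y = _
    by_cases hx : γ • γ' • C.ψ j y ∈ Set.range (C.ψ i)
    · obtain ⟨z, hz⟩ := hx
      have hz' : γ' • C.ψ j y = γ⁻¹ • C.ψ i z := by rw [hz, inv_smul_smul]
      rw [S.loc_of hz', map_smul, ← φ.2.compat γ⁻¹ γ' i j z y hz'.symm]
      unfold IBPX.th
      rw [← hz, ex_ψ]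
    · rw [S.loc_zero]
      · unfold IBPX.th
        rw [IBPX.ex_of_notMem hx]; simp
      · intro z _ h
        apply hx
        rw [h, smul_inv_smul]
        exact ⟨z, rfl⟩
  refine Subtype.ext ?_
  funext γ' j y
  have e1 : ((∑ i, ∑ γ ∈ F.image (fun γ => γ⁻¹), S.lC γ i ⟨_, hb γ i⟩ : Core S) :
      Raw Γ I n V) γ' j y =
      ∑ i, ∑ γ ∈ F.image (fun γ => γ⁻¹), (S.lC γ i ⟨_, hb γ i⟩ : Raw Γ I n V) γ' j y := by
    simp only [AddSubmonoidClass.coe_finsetSum, Finset.sum_apply]
  rw [e1]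
  have e2 : ∀ i, ∑ γ ∈ F.image (fun γ => γ⁻¹), (S.lC γ i ⟨_, hb γ i⟩ : Raw Γ I n V) γ' j y =
      ∑ γ ∈ F, (IBPX.th C χ γ i (γ' • C.ψ j y) : ℂ) • (φ : Raw Γ I n V) γ' j y := by
    intro i
    rw [Finset.sum_image fun a _ b _ h => inv_injective h]
    exact Finset.sum_congr rfl fun γ _ => key γ i γ' j y
  simp only [e2]
  by_cases hx : γ' • C.ψ j y ∈ B
  · simp only [← Finset.sum_smul]
    have := hF _ hx
    have h4 : ∑ i, ∑ γ ∈ F, (IBPX.th C χ γ i (γ' • C.ψ j y) : ℂ) = 1 := by
      exact_mod_cast congrArg (fun r : ℝ => (r : ℂ)) this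
    rw [h4, one_smul]
  · rw [h3 _ _ _ hx]; simp

theorem DC_lC (γ : Γ) (i : I) (b : CS n V) : ∃ hb : dir K (G i) (S.β i) b ∈ CS n V,
    S.DC (S.lC γ i b) = S.lC γ i ⟨_, hb⟩ := by
  have h1 : HasCompactSupport (dir K (G i) (S.β i) b) := by
    refine HasCompactSupport.intro b.2.2.isCompact fun x hx => ?_
    have e2 : (b : E n → V) =ᶠ[𝓝 x] fun _ => 0 := notMem_tsupport_iff_eventuallyEq.1 hx
    rw [dir_congr K e2]
    have h5 := dir_smul (G := G i) (β := S.β i) (φ := fun _ => (0 : V)) (y := x) K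
      (differentiableAt_const _) (0 : ℂ)
    simpa using h5
  refine ⟨⟨contDiff_dir K (S.met.smooth i) (S.met.pos i) (S.fr i).smooth b.2.1, h1⟩, ?_⟩
  refine Subtype.ext ?_
  funext γ' j y
  change S.D (S.loc γ i b) γ' j y = S.loc γ i _ γ' j y
  have hcore := S.isCore_loc γ i b.2.1 b.2.2
  by_cases hx : γ' • C.ψ j y ∈ Set.range (fun z => γ • C.ψ i z)
  · obtain ⟨z, hz⟩ := hx
    rw [S.loc_of hz.symm, hcore.D.compat γ γ' i j z y hz]
    congr 1
    change dir K (G i) (S.β i) (S.loc γ i b γ i) z = _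
    have : S.loc γ i b γ i = b := funext fun y => S.loc_self γ i y
    rw [this]
  · have e : S.loc γ i b γ' j =ᶠ[𝓝 y] fun _ => 0 := by
      have hK : IsCompact ((fun z => γ • C.ψ i z) '' tsupport (b : E n → V)) :=
        b.2.2.isCompact.image (Bas3.chart_emb C γ i).continuous
      have hy' : γ' • C.ψ j y ∉ (fun z => γ • C.ψ i z) '' tsupport (b : E n → V) :=
        fun ⟨z, _, hz⟩ => hx ⟨z, hz⟩
      have h1 : ∀ᶠ z in 𝓝 y, γ' • C.ψ j z ∈ ((fun z => γ • C.ψ i z) '' tsupport (b : E n → V))ᶜ :=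
        (Bas3.chart_emb C γ' j).continuous.continuousAt.eventually_mem
          (hK.isClosed.isOpen_compl.mem_nhds hy')
      filter_upwards [h1] with z hz
      exact S.loc_zero fun w hw h => hz ⟨w, subset_tsupport _ hw, h.symm⟩
    rw [S.loc_zero fun z _ h => hx ⟨z, h.symm⟩]
    change dir K (G j) (S.β j) (S.loc γ i b γ' j) y = 0
    rw [dir_congr K e]
    have h5 := dir_smul (G := G j) (β := S.β j) (φ := fun _ => (0 : V)) (y := y) K
      (differentiableAt_const _) (0 : ℂ)
    simpa using h5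

omit [MeasurableSpace X] [BorelSpace X] [T2Space X] in
theorem hp_add_left {φ φ' ψ : Raw Γ I n V} (x : X) :
    hp C (φ + φ') ψ x = hp C φ ψ x + hp C φ' ψ x := inner_add_left _ _ _

omit [MeasurableSpace X] [BorelSpace X] [T2Space X] in
theorem hp_add_right {φ ψ ψ' : Raw Γ I n V} (x : X) :
    hp C φ (ψ + ψ') x = hp C φ ψ x + hp C φ ψ' x := inner_add_right _ _ _

omit [MeasurableSpace X] [BorelSpace X] [T2Space X] in
theorem hp_smul_left {φ ψ : Raw Γ I n V} (c : ℂ) (x : X) :
    hp C (c • φ) ψ x = (starRingEnd ℂ) c * hp C φ ψ x := inner_smul_left _ _ _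

omit [MeasurableSpace X] [BorelSpace X] [T2Space X] in
theorem hp_smul_right {φ ψ : Raw Γ I n V} (c : ℂ) (x : X) :
    hp C φ (c • ψ) x = c * hp C φ ψ x := inner_smul_right _ _ _

theorem ipr_add_left (hV : VolX C G μ) (φ φ' ψ : Core S) :
    ipr C μ ((φ + φ' : Core S) : Raw Γ I n V) (ψ : Raw Γ I n V) =
      ipr C μ (φ : Raw Γ I n V) (ψ : Raw Γ I n V) +
      ipr C μ (φ' : Raw Γ I n V) (ψ : Raw Γ I n V) := by
  unfold ipr
  rw [← integral_add (φ.2.integrable_hp ψ.2 hV) (φ'.2.integrable_hp ψ.2 hV)]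
  exact integral_congr_ae (Filter.Eventually.of_forall fun x => hp_add_left x)

theorem ipr_add_right (hV : VolX C G μ) (φ ψ ψ' : Core S) :
    ipr C μ (φ : Raw Γ I n V) ((ψ + ψ' : Core S) : Raw Γ I n V) =
      ipr C μ (φ : Raw Γ I n V) (ψ : Raw Γ I n V) +
      ipr C μ (φ : Raw Γ I n V) (ψ' : Raw Γ I n V) := by
  unfold ipr
  rw [← integral_add (φ.2.integrable_hp ψ.2 hV) (φ.2.integrable_hp ψ'.2 hV)]
  exact integral_congr_ae (Filter.Eventually.of_forall fun x => hp_add_right x)

omit [BorelSpace X] [T2Space X] in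
theorem ipr_smul_left (c : ℂ) (φ ψ : Core S) :
    ipr C μ ((c • φ : Core S) : Raw Γ I n V) (ψ : Raw Γ I n V) =
      (starRingEnd ℂ) c * ipr C μ (φ : Raw Γ I n V) (ψ : Raw Γ I n V) := by
  unfold ipr
  rw [← integral_const_mul]
  exact integral_congr_ae (Filter.Eventually.of_forall fun x => hp_smul_left c x)

omit [BorelSpace X] [T2Space X] in
theorem ipr_smul_right (c : ℂ) (φ ψ : Core S) :
    ipr C μ (φ : Raw Γ I n V) ((c • ψ : Core S) : Raw Γ I n V) =
      c * ipr C μ (φ : Raw Γ I n V) (ψ : Raw Γ I n V) := by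
  unfold ipr
  rw [← integral_const_mul]
  exact integral_congr_ae (Filter.Eventually.of_forall fun x => hp_smul_right c x)

omit [BorelSpace X] [T2Space X] in
theorem ipr_conj (φ ψ : Core S) :
    (starRingEnd ℂ) (ipr C μ (ψ : Raw Γ I n V) (φ : Raw Γ I n V)) =
      ipr C μ (φ : Raw Γ I n V) (ψ : Raw Γ I n V) := by
  unfold ipr
  rw [← integral_conj]
  exact integral_congr_ae (Filter.Eventually.of_forall fun x => inner_conj_symm _ _)

omit [BorelSpace X] [T2Space X] in
theorem ipr_self_nonneg (φ : Core S) :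
    0 ≤ (ipr C μ (φ : Raw Γ I n V) (φ : Raw Γ I n V)).re := by
  have h1 : ∀ x, hp C (φ : Raw Γ I n V) (φ : Raw Γ I n V) x =
      ((nm C (φ : Raw Γ I n V) x ^ 2 : ℝ) : ℂ) := fun x => by
    unfold nm hp
    rw [inner_self_eq_norm_sq_to_K]; norm_cast
  unfold ipr
  simp only [h1]
  rw [integral_complex_ofReal, Complex.ofReal_re]
  exact integral_nonneg fun x => sq_nonneg _

/-- the Dirac operator is skew symmetric -/
theorem DC_skew [Fintype I] [FiniteDimensional ℂ V] (hL : SpecLocal) (hV : VolX C G μ)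
    (φ ψ : Core S) : ipr C μ (S.DC φ : Raw Γ I n V) (ψ : Raw Γ I n V) =
      -ipr C μ (φ : Raw Γ I n V) (S.DC ψ : Raw Γ I n V) := by
  obtain ⟨F, b, hb⟩ := core_decomp φ
  rw [hb]
  have hadd : ∀ φ φ' : Core S,
      ipr C μ (S.DC φ : Raw Γ I n V) (ψ : Raw Γ I n V) =
        -ipr C μ (φ : Raw Γ I n V) (S.DC ψ : Raw Γ I n V) →
      ipr C μ (S.DC φ' : Raw Γ I n V) (ψ : Raw Γ I n V) =
        -ipr C μ (φ' : Raw Γ I n V) (S.DC ψ : Raw Γ I n V) →
      ipr C μ (S.DC (φ + φ') : Raw Γ I n V) (ψ : Raw Γ I n V) =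
        -ipr C μ ((φ + φ' : Core S) : Raw Γ I n V) (S.DC ψ : Raw Γ I n V) := by
    intro φ φ' h1 h2
    rw [map_add, ipr_add_left hV, ipr_add_left hV, h1, h2]; ring
  have hzero : ipr C μ (S.DC (0 : Core S) : Raw Γ I n V) (ψ : Raw Γ I n V) =
        -ipr C μ ((0 : Core S) : Raw Γ I n V) (S.DC ψ : Raw Γ I n V) := by
    have h1 := ipr_smul_left (μ := μ) (0 : ℂ) (0 : Core S) ψ
    have h2 := ipr_smul_left (μ := μ) (0 : ℂ) (0 : Core S) (S.DC ψ)
    simp only [zero_smul, map_zero, zero_mul] at h1 h2 ⊢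
    rw [h1, h2, neg_zero]
  refine Finset.sum_induction _ (fun φ : Core S =>
    ipr C μ (S.DC φ : Raw Γ I n V) (ψ : Raw Γ I n V) =
        -ipr C μ (φ : Raw Γ I n V) (S.DC ψ : Raw Γ I n V)) hadd hzero fun i _ => ?_
  refine Finset.sum_induction _ (fun φ : Core S =>
    ipr C μ (S.DC φ : Raw Γ I n V) (ψ : Raw Γ I n V) =
        -ipr C μ (φ : Raw Γ I n V) (S.DC ψ : Raw Γ I n V)) hadd hzero fun γ _ => ?_
  obtain ⟨h1, h2⟩ := DC_lC (S := S) γ i (b γ i)
  rw [h2, (ipr_lC hV γ i _ _).2, (ipr_lC hV γ i _ _).2]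
  exact skew_loc hL K (S.met.smooth i) (S.met.pos i) (S.fr i) (b γ i).2.1 (b γ i).2.2
    (ψ.2.smooth γ i)

end meas

end core

section green
variable {n : ℕ} {M X Γ I : Type} [TopologicalSpace M] [TopologicalSpace X] [Group Γ]
    [MulAction Γ X] {C : Cov n M X Γ I} {G : I → E n → Matrix (Fin n) (Fin n) ℝ}
    [MeasurableSpace X] [BorelSpace X] [T2Space X] {μ : Measure X}

omit [MeasurableSpace X] [BorelSpace X] in
/-- functions which vanish near a point -/
theorem lapX_zero (hG : MetX C G) {f : X → ℝ} (hf : C.Ck ∞ f) {x : X} (hx : x ∉ tsupport f) :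
    lapX C G f x = 0 := by
  rw [← pg_spec C x, lapX_eq hG (fun γ i => contDiff_infty.1 (hf γ i) 2)]
  have e : C.rep f (C.pg x) (C.pi x) =ᶠ[𝓝 (C.py x)] fun _ => 0 := by
    have h1 : f =ᶠ[𝓝 x] fun _ => 0 := notMem_tsupport_iff_eventuallyEq.1 hx
    rw [← pg_spec C x] at h1
    exact (Bas3.chart_emb C (C.pg x) (C.pi x)).continuous.continuousAt.eventually h1
  rw [Bas2.lap_congr e]
  unfold lap
  simp [H.pd]

theorem green_piece (hG : MetX C G) (hV : VolX C G μ) {f h : X → ℝ} (hf : C.Ck ∞ f)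
    (hh : C.Ck ∞ h) (γ : Γ) (i : I) (hc : HasCompactSupport (C.rep f γ i))
    (hs : ∀ x, x ∉ (fun y => γ • C.ψ i y) '' tsupport (C.rep f γ i) → f x = 0) :
    ∫ x, f x * lapX C G h x ∂μ = ∫ x, lapX C G f x * h x ∂μ := by
  have hcl : IsClosed ((fun y => γ • C.ψ i y) '' tsupport (C.rep f γ i)) :=
    (hc.isCompact.image (Bas3.chart_emb C γ i).continuous).isClosed
  have hts : ∀ x, x ∉ Set.range (fun y => γ • C.ψ i y) → x ∉ tsupport f := by
    intro x hx h
    have : tsupport f ⊆ (fun y => γ • C.ψ i y) '' tsupport (C.rep f γ i) :=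
      closure_minimal (fun z hz => by by_contra h'; exact hz (hs z h')) hcl
    obtain ⟨y, _, hy⟩ := this h
    exact hx ⟨y, hy⟩
  rw [Int.integral_chart hG hV γ i, Int.integral_chart hG hV γ i]
  · have e := green (hG.smooth i) (hG.pos i) (hf γ i) (hh γ i) hc
    calc _ = ∫ y, C.rep f γ i y * lap (G i) (C.rep h γ i) y * H.dens (G i) y := by
          congr 1
          funext y
          rw [lapX_eq hG (fun γ i => contDiff_infty.1 (hh γ i) 2)]; rfl
      _ = _ := e
      _ = _ := by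
          congr 1
          funext y
          rw [lapX_eq hG (fun γ i => contDiff_infty.1 (hf γ i) 2)]; rfl
  · intro x hx
    rw [lapX_zero hG hf (hts x hx), zero_mul]
  · intro x hx
    rw [image_eq_zero_of_notMem_tsupport (hts x hx), zero_mul]

theorem lap_add' {f h : E n → ℝ} (hf : ContDiff ℝ ∞ f) (hh : ContDiff ℝ ∞ h) (G : E n →
    Matrix (Fin n) (Fin n) ℝ) (x : E n) :
    lap G (fun y => f y + h y) x = lap G f x + lap G h x := by
  have p1 : ∀ k z, H.pd k (fun y => f y + h y) z = H.pd k f z + H.pd k h z := fun k z =>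
    Bridge.pd_add (hf.differentiable (by simp) z) (hh.differentiable (by simp) z)
  have p2 : ∀ l k z, H.pd l (fun z => H.pd k (fun y => f y + h y) z) z =
      H.pd l (fun z => H.pd k f z) z + H.pd l (fun z => H.pd k h z) z := by
    intro l k z
    simp only [p1]
    exact Bridge.pd_add
      ((Bridge.contDiff_pd hf (k := ∞) (by simp) k).differentiable (by simp) z)
      ((Bridge.contDiff_pd hh (k := ∞) (by simp) k).differentiable (by simp) z)
  unfold lap
  simp only [p2]
  simp only [p1]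
  simp only [← Finset.sum_add_distrib]
  refine Finset.sum_congr rfl fun i _ => Finset.sum_congr rfl fun j _ => ?_
  simp only [mul_add, Finset.sum_add_distrib]
  ring

/-- Green's formula on `X` -/
theorem greenX [Fintype I] (hG : MetX C G) (hV : VolX C G μ) {f h : X → ℝ} (hf : C.Ck ∞ f)
    (hh : C.Ck ∞ h) (hc : HasCompactSupport f) :
    ∫ x, f x * lapX C G h x ∂μ = ∫ x, lapX C G f x * h x ∂μ := by
  classical
  have hfin := finComp hG hV
  obtain ⟨χ, hχ⟩ := PartX.main n M X Γ I C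
  obtain ⟨F, hF⟩ := exists_F (C := C) hχ hc.isCompact
  have hck2 : ∀ {g : X → ℝ}, C.Ck ∞ g → C.Ck 2 g := fun hg γ i => contDiff_infty.1 (hg γ i) 2
  have hcont : ∀ {g : X → ℝ}, C.Ck ∞ g → Continuous g := fun hg =>
    Ck_continuous C fun γ i => contDiff_infty.1 (hg γ i) 0
  have hcl : ∀ {g : X → ℝ}, C.Ck ∞ g → Continuous (lapX C G g) := fun {g} hg =>
    Ck_continuous C fun γ i => (Ck_lapX hG (fun γ i => contDiff_infty.1 (hg γ i) 4) γ i).of_le
      (by norm_num)
  have hsl : ∀ {g : X → ℝ}, C.Ck ∞ g → HasCompactSupport g → HasCompactSupport (lapX C G g) :=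
    fun {g} hg hc => HasCompactSupport.intro hc.isCompact fun x hx => lapX_zero hG hg hx
  set P : (X → ℝ) → Prop := fun f => C.Ck ∞ f ∧ HasCompactSupport f ∧
    ∫ x, f x * lapX C G h x ∂μ = ∫ x, lapX C G f x * h x ∂μ with hP
  have hadd : ∀ f f', P f → P f' → P (f + f') := by
    rintro f f' ⟨h1, h2, h3⟩ ⟨h1', h2', h3'⟩
    have hk : C.Ck ∞ (f + f') := fun γ i => (h1 γ i).add (h1' γ i)
    refine ⟨hk, h2.add h2', ?_⟩
    have hlx : ∀ x, lapX C G (f + f') x = lapX C G f x + lapX C G f' x := by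
      intro x
      rw [← pg_spec C x, lapX_eq hG (hck2 hk), lapX_eq hG (hck2 h1), lapX_eq hG (hck2 h1')]
      exact lap_add' (h1 _ _) (h1' _ _) _ _
    simp only [hlx, Pi.add_apply, add_mul]
    rw [integral_add, integral_add, h3, h3']
    · exact ((hcl h1).mul (hcont hh)).integrable_of_hasCompactSupport (hsl h1 h2).mul_right
    · exact ((hcl h1').mul (hcont hh)).integrable_of_hasCompactSupport (hsl h1' h2').mul_right
    · exact ((hcont h1).mul (hcl hh)).integrable_of_hasCompactSupport h2.mul_right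
    · exact ((hcont h1').mul (hcl hh)).integrable_of_hasCompactSupport h2'.mul_right
  have hzero : P 0 := by
    have hk : C.Ck ∞ (0 : X → ℝ) := fun γ i => contDiff_const
    refine ⟨hk, HasCompactSupport.zero, ?_⟩
    have : ∀ x, lapX C G 0 x = 0 := fun x => lapX_zero hG hk (by
      rw [tsupport_eq_empty_iff.2 rfl]; exact Set.notMem_empty x)
    simp [this]
  set u : Γ → I → X → ℝ := fun γ i x => IBPX.th C χ γ i x * f x with hu
  have hu1 : ∀ γ i, C.Ck ∞ (u γ i) := fun γ i γ' j => (IBPX.Ck_th hχ γ i γ' j).mul (hf γ' j)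
  have hus : ∀ γ i, HasCompactSupport (u γ i) := fun γ i => hc.mul_left
  have hsum : f = ∑ i, ∑ γ ∈ F, u γ i := by
    funext x
    simp only [Finset.sum_apply]
    simp only [hu, ← Finset.sum_mul]
    by_cases hx : x ∈ tsupport f
    · rw [hF x hx, one_mul]
    · rw [image_eq_zero_of_notMem_tsupport hx, mul_zero]
  have hpiece : ∀ γ i, P (u γ i) := by
    intro γ i
    refine ⟨hu1 γ i, hus γ i, ?_⟩
    have hr : ∀ y, C.rep (u γ i) γ⁻¹ i y = χ i y * C.rep f γ⁻¹ i y := by
      intro y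
      change IBPX.th C χ γ i (γ⁻¹ • C.ψ i y) * f (γ⁻¹ • C.ψ i y) = _
      unfold IBPX.th
      rw [smul_inv_smul, ex_ψ]; rfl
    have hcr : HasCompactSupport (C.rep (u γ i) γ⁻¹ i) := by
      refine HasCompactSupport.intro (IBPX.hasCompactSupport_χ hχ i).isCompact fun y hy => ?_
      rw [hr, image_eq_zero_of_notMem_tsupport hy, zero_mul]
    refine green_piece hG hV (hu1 γ i) hh γ⁻¹ i hcr fun x hx => ?_
    by_contra h0
    have h1 : IBPX.th C χ γ i x ≠ 0 := fun h => h0 (by simp only [hu, h, zero_mul])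
    obtain ⟨y, _, hy⟩ := IBPX.th_ne_zero hχ h1
    have hx' : x = γ⁻¹ • C.ψ i y := by rw [← hy, inv_smul_smul]
    apply hx
    refine ⟨y, subset_tsupport _ ?_, hx'.symm⟩
    change u γ i (γ⁻¹ • C.ψ i y) ≠ 0
    rw [← hx']; exact h0
  have := Finset.sum_induction (s := Finset.univ) (fun i => ∑ γ ∈ F, u γ i) P hadd hzero
    fun i _ => Finset.sum_induction _ P hadd hzero fun γ _ => hpiece γ i
  rw [← hsum] at this
  exact this.2.2

end green

theorem intS (hL : SpecLocal) : SpecIntS := by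
  intro n M X Γ I V _ _ _ _ _ _ _ _ _ _ _ _ _ C G K S μ _ hV
  refine ⟨fun φ ψ γ i y => φ.2.hp_chart ψ.2 γ i y, fun φ ψ => ⟨φ.2.continuous_hp ψ.2, φ.2.hp_supp,
    φ.2.integrable_hp ψ.2 hV⟩, fun φ ψ => DC_skew hL hV φ ψ, fun γ i b ψ => ipr_lC hV γ i b ψ,
    fun φ => ?_, fun f h hf hh hc => greenX S.met hV hf hh hc⟩
  obtain ⟨F, b, hb⟩ := core_decomp φ
  rw [hb]
  exact Submodule.sum_mem _ fun i _ => Submodule.sum_mem _ fun γ _ =>
    Submodule.subset_span (Set.mem_iUnion₂.2 ⟨γ, i, b γ i, rfl⟩)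

end Vale.Agent.P223.H566
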