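import Vale.Agent.P223.H566.Iso
import Mathlib.Analysis.SpecialFunctions.SmoothTransition
import Mathlib.Analysis.Calculus.Deriv.Abs

/-! Block V6a: the local isoperimetric inequality. -/

namespace Vale.Agent.P223.H566.LocV

open scoped ContDiff ENNReal NNReal Topology
open MeasureTheory Set
open Vale.Agent.P223.H566.NV

/-- the derivative of the smooth step is bounded -/
theorem exists_bound : ∃ B : ℝ, 0 < B ∧ ∀ x, |deriv Real.smoothTransition x| ≤ B := by
  have hcd : ContDiff ℝ ∞ Real.smoothTransition := Real.smoothTransition.contDiff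
  have hc : Continuous (deriv Real.smoothTransition) := hcd.continuous_deriv (by simp)
  obtain ⟨B, hB⟩ := (isCompact_Icc (a := (0 : ℝ)) (b := 1)).exists_bound_of_continuousOn
    hc.continuousOn
  refine ⟨max B 1, lt_max_of_lt_right one_pos, fun x => ?_⟩
  by_cases hx : x ∈ Icc (0 : ℝ) 1
  · exact (hB x hx).trans (le_max_left _ _)
  · have h0 : deriv Real.smoothTransition x = 0 := by
      rw [mem_Icc, not_and_or, not_le, not_le] at hx
      rcases hx with hx | hx
      · have h1 : Real.smoothTransition =ᶠ[𝓝 x] fun _ => 0 := by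
          filter_upwards [Iio_mem_nhds hx] with y hy
          exact Real.smoothTransition.zero_of_nonpos (le_of_lt hy)
        rw [h1.deriv_eq, deriv_const]
      · have h1 : Real.smoothTransition =ᶠ[𝓝 x] fun _ => 1 := by
          filter_upwards [Ioi_mem_nhds hx] with y hy
          exact Real.smoothTransition.one_of_one_le (le_of_lt hy)
        rw [h1.deriv_eq, deriv_const]
    rw [h0, abs_zero]
    exact le_max_of_le_right zero_le_one

/-- the level function -/
noncomputable def lev (t ε : ℝ) (x : ℝ) : ℝ := Real.smoothTransition ((|x| - t) / ε)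

theorem lev_nonneg (t ε x : ℝ) : 0 ≤ lev t ε x := Real.smoothTransition.nonneg _

theorem lev_le (t ε x : ℝ) : lev t ε x ≤ 1 := Real.smoothTransition.le_one _

theorem lev_zero {t ε x : ℝ} (hε : 0 < ε) (hx : |x| ≤ t) : lev t ε x = 0 :=
  Real.smoothTransition.zero_of_nonpos (div_nonpos_of_nonpos_of_nonneg (by linarith) hε.le)

theorem lev_one {t ε x : ℝ} (hε : 0 < ε) (hx : t + ε ≤ |x|) : lev t ε x = 1 :=
  Real.smoothTransition.one_of_one_le ((one_le_div hε).2 (by linarith))

theorem lev_smooth {t ε : ℝ} (ht : 0 < t) (hε : 0 < ε) : ContDiff ℝ ∞ (lev t ε) := by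
  refine contDiff_iff_contDiffAt.2 fun x => ?_
  rcases eq_or_ne x 0 with rfl | hx
  · have h1 : lev t ε =ᶠ[𝓝 0] fun _ => 0 := by
      have h2 : ∀ᶠ y : ℝ in 𝓝 0, |y| < t :=
        (continuous_abs.tendsto 0).eventually_lt_const (by rwa [abs_zero])
      filter_upwards [h2] with y hy
      exact lev_zero hε hy.le
    exact contDiffAt_const.congr_of_eventuallyEq h1
  · have h1 : ContDiffAt ℝ ∞ (fun y : ℝ => (|y| - t) / ε) x :=
      ((contDiffAt_abs hx).sub contDiffAt_const).div_const _
    exact (Real.smoothTransition.contDiff (n := ⊤)).contDiffAt.comp x h1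

theorem lev_deriv {t ε : ℝ} (ht : 0 < t) (hε : 0 < ε) {B : ℝ}
    (hB : ∀ x, |deriv Real.smoothTransition x| ≤ B) (x : ℝ) :
    |deriv (lev t ε) x| ≤ B / ε ∧ (¬ (t < |x| ∧ |x| ≤ t + ε) → deriv (lev t ε) x = 0) := by
  have hB0 : 0 ≤ B := (abs_nonneg _).trans (hB 0)
  have hz : |x| ≤ t → deriv (lev t ε) x = 0 := fun h => by
    refine IsLocalMin.deriv_eq_zero (Filter.Eventually.of_forall fun y => ?_)
    rw [lev_zero hε h]
    exact lev_nonneg _ _ _
  have ho : t + ε ≤ |x| → deriv (lev t ε) x = 0 := fun h => by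
    refine IsLocalMax.deriv_eq_zero (Filter.Eventually.of_forall fun y => ?_)
    rw [lev_one hε h]
    exact lev_le _ _ _
  refine ⟨?_, fun h => ?_⟩
  · rcases le_or_gt |x| t with h | h
    · rw [hz h, abs_zero]; positivity
    · have hx : x ≠ 0 := fun h0 => by rw [h0, abs_zero] at h; linarith
      have h1 : HasDerivAt (fun y : ℝ => (|y| - t) / ε) ((SignType.sign x : ℝ) / ε) x :=
        ((hasDerivAt_abs hx).sub_const t).div_const ε
      have h2 : HasDerivAt Real.smoothTransition (deriv Real.smoothTransition ((|x| - t) / ε))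
          ((|x| - t) / ε) :=
        ((Real.smoothTransition.contDiff (n := ⊤)).differentiable (by simp) _).hasDerivAt
      have h3 : HasDerivAt (lev t ε) (deriv Real.smoothTransition ((|x| - t) / ε) *
          ((SignType.sign x : ℝ) / ε)) x := h2.comp x h1
      rw [h3.deriv, abs_mul, abs_div, abs_of_pos hε]
      have h4 : |(SignType.sign x : ℝ)| ≤ 1 := by
        rcases lt_trichotomy x 0 with h | h | h
        · simp [sign_neg h]
        · exact absurd h hx
        · simp [sign_pos h]
      calc |deriv Real.smoothTransition ((|x| - t) / ε)| * (|(SignType.sign x : ℝ)| / ε)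
          ≤ B * (1 / ε) := by
            gcongr
            exact hB _
        _ = B / ε := by ring
  · by_cases h1 : t < |x|
    · exact ho (le_of_not_ge fun h2 => h ⟨h1, h2⟩)
    · exact hz (not_lt.1 h1)

/-- composition of smooth functions -/
theorem sm_comp {n : ℕ} {X : Type} [TopologicalSpace X] {c : X → J.Ch n X} {u : X → ℝ}
    {ψ : ℝ → ℝ} (hψ : ContDiff ℝ ∞ ψ) (hu : J.Sm c u) : J.Sm c fun q => ψ (u q) :=
  fun a => hψ.comp_contDiffOn (hu a)

theorem sm_mul {n : ℕ} {X : Type} [TopologicalSpace X] {c : X → J.Ch n X} {u v : X → ℝ}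
    (hu : J.Sm c u) (hv : J.Sm c v) : J.Sm c fun q => u q * v q :=
  fun a => (hu a).mul (hv a)

/-- Block V6a. -/
theorem specLoc (hLT : SpecLT) (hCut : SpecCut) : SpecLoc := by
  intro n hn
  obtain ⟨C₀, hLT⟩ := hLT n hn
  obtain ⟨B, hB0, hB⟩ := exists_bound
  set C : ℝ := (C₀ + 1) * (4 + 2 * B) ^ n with hC
  refine ⟨C, by positivity, ?_⟩
  intro X _ _ _ _ μ c g r hc hg hμ hr hinj x u hu huc t s ht hs hsr
  have hlf := JB.locFin hc hg hμ
  have hucont := JB.sm_cont hc hu
  have hrx : 0 < r x := (hinj x).1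
  obtain ⟨e, he⟩ := (injAt_iff c g x (r x)).1 (hinj x).2
  obtain ⟨φ, hφ, hφ01, hφ1, hφs, hφg⟩ := hCut n X c g x (r x) e hn hc hg hrx he s (2 * s) hs
    (by linarith) (by linarith)
  have hφg' : ∀ z, grd c g φ z ≤ 2 / s := fun z => by
    have := hφg z
    rwa [show 2 * s - s = s by ring] at this
  set Ω : Set X := {q | t < |u q|} with hΩ
  set D : Set X := bal c g x (2 * s) with hD
  set D' : Set X := bal c g x s with hD'
  have hDm : MeasurableSet D := Iso.meas_ball hc x _
  have hDm' : MeasurableSet D' := Iso.meas_ball hc x _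
  have hΩo : IsOpen Ω := isOpen_lt continuous_const hucont.abs
  have hΩm := hΩo.measurableSet
  have hΩs : Ω ⊆ tsupport u := fun q hq => subset_tsupport u (by
    intro h
    have h1 : t < |u q| := hq
    rw [h, abs_zero] at h1
    linarith)
  have hμΩ : μ Ω ≠ ⊤ := ne_top_of_le_ne_top (huc : IsCompact (tsupport u)).measure_lt_top.ne
    (measure_mono hΩs)
  set A : ℝ → Set X := fun ε => {q | t < |u q| ∧ |u q| ≤ t + ε} with hA
  have hAm : ∀ ε, MeasurableSet (A ε) := fun ε =>
    hΩm.inter (measurableSet_le hucont.abs.measurable measurable_const)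
  set I : ℝ → ℝ≥0∞ := fun ε => ∫⁻ q in D ∩ A ε, ENNReal.ofReal (grd c g u q / ε) ∂μ with hI
  set b : ℝ≥0∞ := μ (Ω ∩ (D \ D')) / ENNReal.ofReal s with hb
  set K : ℝ≥0∞ := ENNReal.ofReal C * μ (Ω ∩ D) ^ 2 with hK
  have hKt : K ≠ ⊤ := ENNReal.mul_ne_top ENNReal.ofReal_ne_top (ENNReal.pow_ne_top
    (ne_top_of_le_ne_top hμΩ (measure_mono inter_subset_left)))
  have hgu := (JB.cont_grd hc hg hu).measurable
  have hgφ := (JB.cont_grd hc hg hφ).measurable
  -- the inequality at level `ε`
  have key : ∀ ε, 0 < ε → μ ({q | t + ε < |u q|} ∩ D') ^ (n + 1) ≤ K * (I ε + b) ^ n := by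
    intro ε hε
    set w : X → ℝ := fun q => lev t ε (u q) with hw
    have hwS : J.Sm c w := sm_comp (lev_smooth ht hε) hu
    set v : X → ℝ := fun q => w q * φ q with hv
    have hvS : J.Sm c v := sm_mul hwS hφ
    have hvφ : tsupport v ⊆ tsupport φ :=
      closure_mono fun q hq => right_ne_zero_of_mul hq
    have hvu : tsupport v ⊆ tsupport u := closure_mono fun q hq h0 =>
      left_ne_zero_of_mul hq (by
        have : |u q| ≤ t := by rw [h0, abs_zero]; exact ht.le
        exact lev_zero hε this)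
    have hvc : HasCompactSupport v := (huc : IsCompact (tsupport u)).of_isClosed_subset
      (isClosed_tsupport _) hvu
    have hDr : tsupport v ⊆ bal c g x (r x / 10) := fun q hq => by
      have h1 : dst c g x q < ENNReal.ofReal (2 * s) := hφs (hvφ hq)
      exact h1.trans_le (ENNReal.ofReal_le_ofReal (by linarith))
    have h1 := hLT X μ c g r hc hg hμ hr hinj x v hvS hDr hvc 0 (1 / 2) le_rfl (by norm_num)
    have hvD : ∀ q, v q ≠ 0 → q ∈ Ω ∩ D := by
      intro q hq
      refine ⟨?_, hφs (subset_tsupport φ (right_ne_zero_of_mul hq))⟩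
      by_contra h
      exact left_ne_zero_of_mul hq (lev_zero hε (not_lt.1 h))
    have h2 : μ ({q | t + ε < |u q|} ∩ D') ≤ μ {q | 0 + 1 / 2 < |v q|} := by
      refine measure_mono fun q hq => ?_
      have h3 : v q = 1 := by
        show lev t ε (u q) * φ q = 1
        rw [lev_one hε (le_of_lt hq.1), hφ1 q hq.2, one_mul]
      show (0 : ℝ) + 1 / 2 < |v q|
      rw [h3, abs_one]; norm_num
    have h3 : μ {q | 0 < |v q|} ≤ μ (Ω ∩ D) :=
      measure_mono fun q hq => hvD q (abs_pos.1 hq)
    have hgrd : ∀ q, grd c g v q ≤ |w q| * grd c g φ q + |φ q| * grd c g w q :=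
      fun q => JB.grd_mul_le hc hg hwS hφ q
    have hgw : ∀ q, grd c g w q ≤ (A ε).indicator (fun q => B / ε * grd c g u q) q := by
      intro q
      have h4 : HasDerivAt (lev t ε) (deriv (lev t ε) (u q)) (u q) :=
        ((lev_smooth ht hε).differentiable (by simp) _).hasDerivAt
      have h5 : grd c g w q = |deriv (lev t ε) (u q)| * grd c g u q :=
        JB.grd_comp hc hu h4
      obtain ⟨h6, h7⟩ := lev_deriv ht hε hB (u q)
      rw [h5]
      by_cases h8 : q ∈ A ε
      · rw [indicator_of_mem h8]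
        exact mul_le_mul_of_nonneg_right h6 (JB.grd_nonneg q)
      · rw [indicator_of_notMem h8, h7 h8, abs_zero, zero_mul]
    have h4 : ∫⁻ q in {q | 0 < |v q| ∧ |v q| ≤ 0 + 1 / 2}, ENNReal.ofReal (grd c g v q / (1 / 2)) ∂μ
        ≤ ENNReal.ofReal (4 + 2 * B) * (I ε + b) := by
      calc ∫⁻ q in {q | 0 < |v q| ∧ |v q| ≤ 0 + 1 / 2},
            ENNReal.ofReal (grd c g v q / (1 / 2)) ∂μ
          ≤ ∫⁻ q in Ω ∩ D, ENNReal.ofReal (grd c g v q / (1 / 2)) ∂μ :=
            lintegral_mono_set fun q hq => hvD q (abs_pos.1 hq.1)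
        _ ≤ ∫⁻ q in Ω ∩ D, ((Ω ∩ (D \ D')).indicator (fun _ => ENNReal.ofReal (4 / s)) q +
            (D ∩ A ε).indicator (fun q => ENNReal.ofReal (2 * B) *
              ENNReal.ofReal (grd c g u q / ε)) q) ∂μ := by
            refine setLIntegral_mono' (hΩm.inter hDm) fun q hq => ?_
            have h5 : grd c g v q / (1 / 2) ≤ 2 * (grd c g φ q) + 2 * grd c g w q := by
              have h6 := hgrd q
              have h7 : |w q| ≤ 1 := by
                rw [abs_of_nonneg (lev_nonneg _ _ _)]; exact lev_le _ _ _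
              have h8 : |φ q| ≤ 1 := by
                rw [abs_of_nonneg (hφ01 q).1]; exact (hφ01 q).2
              have h9 := mul_le_of_le_one_left (JB.grd_nonneg (c := c) (g := g) (u := φ) q) h7
              have h10 := mul_le_of_le_one_left (JB.grd_nonneg (c := c) (g := g) (u := w) q) h8
              linarith
            refine (ENNReal.ofReal_le_ofReal h5).trans ?_
            rw [ENNReal.ofReal_add (mul_nonneg zero_le_two (JB.grd_nonneg q))
              (mul_nonneg zero_le_two (JB.grd_nonneg q))]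
            refine add_le_add ?_ ?_
            · by_cases h6 : q ∈ D'
              · have h7 : grd c g φ q = 0 := JB.grd_max hc fun p => by
                  rw [hφ1 q h6]; exact (hφ01 p).2
                rw [h7, mul_zero, ENNReal.ofReal_zero]
                exact zero_le
              · rw [indicator_of_mem (show q ∈ Ω ∩ (D \ D') from ⟨hq.1, hq.2, h6⟩)]
                refine ENNReal.ofReal_le_ofReal ?_
                have := hφg' q
                calc 2 * grd c g φ q ≤ 2 * (2 / s) := by linarith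
                  _ = 4 / s := by ring
            · have h6 := hgw q
              by_cases h7 : q ∈ A ε
              · rw [indicator_of_mem (show q ∈ D ∩ A ε from ⟨hq.2, h7⟩),
                  ← ENNReal.ofReal_mul (by positivity)]
                rw [indicator_of_mem h7] at h6
                refine ENNReal.ofReal_le_ofReal ?_
                calc 2 * grd c g w q ≤ 2 * (B / ε * grd c g u q) := by linarith
                  _ = 2 * B * (grd c g u q / ε) := by ring
              · rw [indicator_of_notMem h7] at h6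
                have h8 : ENNReal.ofReal (2 * grd c g w q) = 0 :=
                  ENNReal.ofReal_eq_zero.2 (by linarith)
                rw [h8]
                exact zero_le
        _ ≤ ∫⁻ q, ((Ω ∩ (D \ D')).indicator (fun _ => ENNReal.ofReal (4 / s)) q +
            (D ∩ A ε).indicator (fun q => ENNReal.ofReal (2 * B) *
              ENNReal.ofReal (grd c g u q / ε)) q) ∂μ := setLIntegral_le_lintegral _ _
        _ = ENNReal.ofReal (4 / s) * μ (Ω ∩ (D \ D')) + ENNReal.ofReal (2 * B) * I ε := by
            rw [lintegral_add_left (measurable_const.indicator (hΩm.inter (hDm.diff hDm'))),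
              lintegral_indicator (hΩm.inter (hDm.diff hDm')), setLIntegral_const,
              lintegral_indicator (hDm.inter (hAm ε)), lintegral_const_mul]
            exact (hgu.div_const ε).ennreal_ofReal
        _ ≤ ENNReal.ofReal (4 + 2 * B) * b + ENNReal.ofReal (4 + 2 * B) * I ε := by
            refine add_le_add ?_ ?_
            · rw [ENNReal.ofReal_div_of_pos hs, hb, ENNReal.div_eq_inv_mul,
                ENNReal.div_eq_inv_mul]
              calc (ENNReal.ofReal s)⁻¹ * ENNReal.ofReal 4 * μ (Ω ∩ (D \ D'))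
                  = ENNReal.ofReal 4 * ((ENNReal.ofReal s)⁻¹ * μ (Ω ∩ (D \ D'))) := by ring
                _ ≤ _ := by
                  gcongr
                  linarith
            · gcongr
              linarith
        _ = _ := by ring
    calc μ ({q | t + ε < |u q|} ∩ D') ^ (n + 1)
        ≤ μ {q | 0 + 1 / 2 < |v q|} ^ (n + 1) := pow_le_pow_left' h2 _
      _ ≤ C₀ * μ {q | 0 < |v q|} ^ 2 * (∫⁻ q in {q | 0 < |v q| ∧ |v q| ≤ 0 + 1 / 2},
          ENNReal.ofReal (grd c g v q / (1 / 2)) ∂μ) ^ n := h1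
      _ ≤ C₀ * μ (Ω ∩ D) ^ 2 * (ENNReal.ofReal (4 + 2 * B) * (I ε + b)) ^ n := by gcongr
      _ = (C₀ * ENNReal.ofReal (4 + 2 * B) ^ n) * μ (Ω ∩ D) ^ 2 * (I ε + b) ^ n := by
          rw [mul_pow]; ring
      _ ≤ ENNReal.ofReal C * μ (Ω ∩ D) ^ 2 * (I ε + b) ^ n := by
          gcongr
          rw [hC, ENNReal.ofReal_mul (by positivity), ← ENNReal.ofReal_pow (by positivity)]
          gcongr
          rw [← ENNReal.ofReal_coe_nnreal]
          exact ENNReal.ofReal_le_ofReal (by linarith)
  -- the limit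
  set A₀ : ℝ≥0∞ := Filter.liminf I (𝓝[>] 0) with hA₀
  have hlim : Filter.liminf (fun ε => K * (I ε + b) ^ n) (𝓝[>] 0) = K * (A₀ + b) ^ n := by
    have hmono : Monotone fun y : ℝ≥0∞ => K * (y + b) ^ n := fun y z hyz => by
      simp only
      gcongr
    have hcont : Continuous fun y : ℝ≥0∞ => K * (y + b) ^ n :=
      (ENNReal.continuous_const_mul hKt).comp
        ((ENNReal.continuous_pow n).comp (continuous_id.add continuous_const))
    exact (hmono.map_liminf_of_continuousAt I hcont.continuousAt).symm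
  have h1 : ∀ ε, 0 < ε → μ ({q | t + ε < |u q|} ∩ D') ^ (n + 1) ≤ K * (A₀ + b) ^ n := by
    intro ε hε
    rw [← hlim]
    refine Filter.le_liminf_of_le (by isBoundedDefault) ?_
    filter_upwards [Ioo_mem_nhdsGT hε] with δ hδ
    refine le_trans ?_ (key δ hδ.1)
    gcongr
    exact hδ.2.le
  have h2 : Filter.Tendsto (fun k : ℕ => μ ({q | t + 1 / ((k : ℝ) + 1) < |u q|} ∩ D'))
      Filter.atTop (𝓝 (μ (Ω ∩ D'))) := by
    have h3 : Ω ∩ D' = ⋃ k : ℕ, ({q | t + 1 / ((k : ℝ) + 1) < |u q|} ∩ D') := by
      ext q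
      simp only [mem_inter_iff, mem_iUnion]
      constructor
      · rintro ⟨hq, hq'⟩
        have h4 : 0 < |u q| - t := sub_pos.2 hq
        obtain ⟨k, hk⟩ := exists_nat_one_div_lt h4
        exact ⟨k, by show t + 1 / ((k : ℝ) + 1) < |u q|; linarith, hq'⟩
      · rintro ⟨k, hk, hq'⟩
        have h4 : t + 1 / ((k : ℝ) + 1) < |u q| := hk
        have h5 : 0 < 1 / ((k : ℝ) + 1) := by positivity
        exact ⟨by show t < |u q|; linarith, hq'⟩
    rw [h3]
    refine tendsto_measure_iUnion_atTop fun k l hkl => ?_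
    refine inter_subset_inter_left _ fun q hq => ?_
    have h4 : t + 1 / ((k : ℝ) + 1) < |u q| := hq
    have h5 : 1 / ((l : ℝ) + 1) ≤ 1 / ((k : ℝ) + 1) := by
      have : (k : ℝ) ≤ l := by exact_mod_cast hkl
      gcongr
    show t + 1 / ((l : ℝ) + 1) < |u q|
    linarith
  have h3 : Filter.Tendsto (fun k : ℕ => μ ({q | t + 1 / ((k : ℝ) + 1) < |u q|} ∩ D') ^ (n + 1))
      Filter.atTop (𝓝 (μ (Ω ∩ D') ^ (n + 1))) := ((ENNReal.continuous_pow _).tendsto _).comp h2
  exact le_of_tendsto' h3 fun k => h1 _ (by positivity)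

end Vale.Agent.P223.H566.LocV
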