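import Vale.Agent.P223.H566.SupC
import Vale.Agent.P223.H.B25c

/-! Sup bound, estimate A. -/

namespace Vale.Agent.P223.H566

open scoped ContDiff InnerProductSpace Topology
open MeasureTheory Vale.Agent.P223.H Vale.Agent.P223.X

section loc
variable {n : ℕ} {G : E n → Matrix (Fin n) (Fin n) ℝ}

theorem lap_mul' (h2 : ∀ x, (G x).PosDef) {f h : E n → ℝ} (hf : ContDiff ℝ ∞ f)
    (hh : ContDiff ℝ ∞ h) (x : E n) :
    lap G (fun y => f y * h y) x = f x * lap G h x + h x * lap G f x + 2 * gradIp G f h x := by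
  have hfd : ∀ y, DifferentiableAt ℝ f y := fun y => hf.differentiable (by simp) y
  have hhd : ∀ y, DifferentiableAt ℝ h y := fun y => hh.differentiable (by simp) y
  have p1 : ∀ k z, H.pd k (fun y => f y * h y) z = H.pd k f z * h z + f z * H.pd k h z :=
    fun k z => Bridge.pd_mul (hfd z) (hhd z)
  have hpf : ∀ k y, DifferentiableAt ℝ (fun z => H.pd k f z) y := fun k y =>
    (Bridge.contDiff_pd hf (k := ∞) (by simp) k).differentiable (by simp) y
  have hph : ∀ k y, DifferentiableAt ℝ (fun z => H.pd k h z) y := fun k y =>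
    (Bridge.contDiff_pd hh (k := ∞) (by simp) k).differentiable (by simp) y
  have p2 : ∀ l k, H.pd l (fun z => H.pd k (fun y => f y * h y) z) x =
      (H.pd l (fun z => H.pd k f z) x * h x + H.pd k f x * H.pd l h x) +
      (H.pd l f x * H.pd k h x + f x * H.pd l (fun z => H.pd k h z) x) := by
    intro l k
    simp only [p1]
    have q1 : H.pd l (fun y => H.pd k f y * h y) x =
        H.pd l (fun z => H.pd k f z) x * h x + H.pd k f x * H.pd l h x :=
      Bridge.pd_mul (hpf k x) (hhd x)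
    have q2 : H.pd l (fun y => f y * H.pd k h y) x =
        H.pd l f x * H.pd k h x + f x * H.pd l (fun z => H.pd k h z) x :=
      Bridge.pd_mul (hfd x) (hph k x)
    rw [← q1, ← q2]
    exact Bridge.pd_add ((hpf k x).fun_mul (hhd x)) ((hfd x).fun_mul (hph k x))
  have hc := Grad.gradIp_comm (G := G) (f := h) (k := f) (h2 x)
  have e2 : (2 : ℝ) * gradIp G f h x = gradIp G h f x + gradIp G f h x := by rw [hc]; ring
  rw [e2]
  unfold lap gradIp
  simp only [p2]
  simp only [p1]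
  simp only [Finset.mul_sum, ← Finset.sum_add_distrib]
  refine Finset.sum_congr rfl fun i _ => Finset.sum_congr rfl fun j _ => ?_
  have e3 : ∑ k, H.chr G x k i j * (H.pd k f x * h x + f x * H.pd k h x) =
      h x * ∑ k, H.chr G x k i j * H.pd k f x + f x * ∑ k, H.chr G x k i j * H.pd k h x := by
    simp only [Finset.mul_sum, ← Finset.sum_add_distrib]
    exact Finset.sum_congr rfl fun k _ => by ring
  rw [e3]
  ring

/-- the primitive of a test function -/
noncomputable def prim (f : ℝ → ℝ) (t : ℝ) : ℝ := ∫ r in (0 : ℝ)..t, f r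

theorem prim_deriv {f : ℝ → ℝ} (hf : Continuous f) (t : ℝ) : HasDerivAt (prim f) (f t) t :=
  intervalIntegral.integral_hasDerivAt_right (hf.intervalIntegrable _ _)
    hf.stronglyMeasurable.stronglyMeasurableAtFilter hf.continuousAt

theorem prim_smooth {f : ℝ → ℝ} (hf : ContDiff ℝ ∞ f) : ContDiff ℝ ∞ (prim f) := by
  refine contDiff_infty_iff_deriv.2 ⟨fun t => (prim_deriv hf.continuous t).differentiableAt, ?_⟩
  have : deriv (prim f) = f := funext fun t => (prim_deriv hf.continuous t).deriv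
  rw [this]; exact hf

theorem prim_zero {f : ℝ → ℝ} {δ : ℝ} (hd : 0 ≤ δ) (h : ∀ t, t ≤ δ → f t = 0) {t : ℝ}
    (ht : t ≤ δ) : prim f t = 0 := by
  unfold prim
  refine (intervalIntegral.integral_congr (g := fun _ => (0 : ℝ)) fun r hr => ?_).trans
    (by simp)
  refine h r ?_
  rcases Set.mem_uIcc.1 hr with h' | h'
  · exact h'.2.trans ht
  · exact h'.2.trans hd

/-- pointwise inequality -/
theorem locA (hL : SpecLocal) {V : Type} [NormedAddCommGroup V] [InnerProductSpace ℂ V]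
    [FiniteDimensional ℂ V] (K : Cliff n V) {β : E n → Matrix (Fin n) (Fin n) ℝ}
    (h1 : ∀ i j, ContDiff ℝ ∞ (fun x => G x i j)) (h2 : ∀ x, (G x).PosDef) (hβ : Fr G β)
    {φ : E n → V} (hφ : ContDiff ℝ ∞ φ) {w : E n → ℝ} (hw : ContDiff ℝ ∞ w) (hw0 : ∀ y, 0 < w y)
    {s m δ : ℝ} {f : ℝ → ℝ} (hf : Tst δ f) (y : E n)
    (hs : s * w y ≤ -lap G w y + H.scal G y / 4 * w y) :
    (m ^ 2 + s) * (f (‖φ y‖ ^ 2 / w y ^ 2) * ‖φ y‖ ^ 2) ≤
      m ^ 2 * (f (‖φ y‖ ^ 2 / w y ^ 2) * ‖φ y‖ ^ 2) -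
        f (‖φ y‖ ^ 2 / w y ^ 2) * (⟪dir K G β (dir K G β φ) y, φ y⟫_ℂ).re +
      1 / 4 * (lap G (fun z => prim f (‖φ z‖ ^ 2 / w z ^ 2) * w z ^ 2) y +
        w y ^ 2 * lap G (fun z => prim f (‖φ z‖ ^ 2 / w z ^ 2)) y -
        prim f (‖φ y‖ ^ 2 / w y ^ 2) * lap G (fun z => w z ^ 2) y) := by
  obtain ⟨-, hlich, hkato, -⟩ := hL n V K G β h1 h2 hβ
  set q : E n → ℝ := fun z => ‖φ z‖ ^ 2 / w z ^ 2 with hq
  have hqs : ContDiff ℝ ∞ q := (hφ.norm_sq ℂ).div (hw.pow 2) fun z => pow_ne_zero 2 (hw0 z).ne'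
  have hW : ContDiff ℝ ∞ (fun z => w z ^ 2) := hw.pow 2
  have hqW : (fun z => ‖φ z‖ ^ 2) = fun z => q z * w z ^ 2 := by
    funext z
    simp only [hq]
    rw [div_mul_cancel₀ _ (pow_ne_zero 2 (hw0 z).ne')]
  have hdf : ∀ t, HasDerivAt f (deriv f t) t := fun t =>
    (hf.smooth.differentiable (by simp) t).hasDerivAt
  have hF1 : lap G (fun z => prim f (q z)) y = f (q y) * lap G q y +
      deriv f (q y) * gradSq G q y :=
    B25c.lap_comp (contDiff_infty.1 hqs 2) (fun t => prim_deriv hf.smooth.continuous t) hdf y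
  have hFs : ContDiff ℝ ∞ (fun z => prim f (q z)) := (prim_smooth hf.smooth).comp hqs
  have hF2 := lap_mul' h2 hFs hW y
  have hqd : DifferentiableAt ℝ q y := hqs.differentiable (by simp) y
  have hwd : DifferentiableAt ℝ w y := hw.differentiable (by simp) y
  have hlw : lap G (fun z => w z ^ 2) y = 2 * w y * lap G w y + 2 * gradSq G w y := by
    have e : (fun z => w z ^ 2) = fun z => w z * w z := funext fun z => pow_two _
    rw [e, lap_mul' h2 hw hw y]
    unfold gradSq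
    ring
  have hip : ∀ u : E n → ℝ, gradIp G u (fun z => w z ^ 2) y = 2 * w y * gradIp G u w y := by
    intro u
    have e : (fun z => w z ^ 2) = fun z => w z * w z := funext fun z => pow_two _
    rw [e, Grad.gradIp_mul_right hwd hwd]
    ring
  have hipF : gradIp G (fun z => prim f (q z)) (fun z => w z ^ 2) y =
      f (q y) * (2 * w y * gradIp G q w y) := by
    rw [hip, Grad.gradIp_comm (h2 y), Grad.gradIp_comp_right (prim_deriv hf.smooth.continuous _)
      hqd, Grad.gradIp_comm (h2 y)]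
    ring
  have hlq := lap_mul' h2 hqs hW y
  have hlic := hlich φ hφ y
  rw [hqW, hlq, hip] at hlic
  obtain ⟨hN0, hK⟩ := hkato φ hφ y
  rw [hqW] at hK
  have hgq : gradSq G (fun z => q z * w z ^ 2) y = w y ^ 2 * (w y ^ 2 * gradSq G q y +
      4 * q y * w y * gradIp G q w y + 4 * q y ^ 2 * gradSq G w y) := by
    have hWd : DifferentiableAt ℝ (fun z => w z ^ 2) y := hwd.pow 2
    have e1 : ∀ u : E n → ℝ, gradIp G u (fun z => q z * w z ^ 2) y =
        w y ^ 2 * gradIp G u q y + q y * (2 * w y * gradIp G u w y) := fun u => by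
      rw [Grad.gradIp_mul_right hqd hWd, hip]
    unfold gradSq
    rw [e1, Grad.gradIp_comm (h2 y) (f := fun z => q z * w z ^ 2) (k := q), e1,
      Grad.gradIp_comm (h2 y) (f := fun z => q z * w z ^ 2) (k := w), e1,
      Grad.gradIp_comm (h2 y) (f := w) (k := q)]
    ring
  rw [hgq] at hK
  have hqW' : ‖φ y‖ ^ 2 = q y * w y ^ 2 := congrFun hqW y
  change (m ^ 2 + s) * (f (q y) * ‖φ y‖ ^ 2) ≤ m ^ 2 * (f (q y) * ‖φ y‖ ^ 2) -
        f (q y) * (⟪dir K G β (dir K G β φ) y, φ y⟫_ℂ).re +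
      1 / 4 * (lap G (fun z => prim f (q z) * w z ^ 2) y +
        w y ^ 2 * lap G (fun z => prim f (q z)) y -
        prim f (q y) * lap G (fun z => w z ^ 2) y)
  rw [hF2, hF1, hlw, hipF]
  rw [hlw] at hlic
  have hw := hw0 y
  have hnn : 0 ≤ ‖φ y‖ ^ 2 := sq_nonneg _
  rw [hqW'] at hK hlic ⊢
  have ha : 0 ≤ gradSq G q y := Grad.gradSq_nonneg' (h2 y) q
  have hd : 0 ≤ gradSq G w y := Grad.gradSq_nonneg' (h2 y) w
  have hf' := hf.mono (q y)
  have hf0 := hf.nonneg (q y)
  have hcase : f (q y) = 0 ∨ 0 < q y := by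
    by_cases h : q y ≤ δ
    · exact Or.inl (hf.zero _ h)
    · exact Or.inr (hf.pos.trans (not_le.1 h))
  generalize q y = Q at *
  generalize w y = W at *
  generalize gradSq G q y = a at *
  generalize gradSq G w y = d at *
  generalize gradIp G q w y = b at *
  generalize nsq K G β φ y = N at *
  generalize lap G w y = L at *
  generalize lap G q y = Lq at *
  generalize (⟪dir K G β (dir K G β φ) y, φ y⟫_ℂ).re = R at *
  generalize H.scal G y = Sc at *
  generalize deriv f Q = f' at *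
  generalize f Q = F at *
  generalize prim f Q = P at *
  have hQ0 : 0 ≤ Q := by
    by_contra h
    push Not at h
    have : Q * W ^ 2 < 0 := mul_neg_of_neg_of_pos h (by positivity)
    linarith
  have k1 : 0 ≤ F * (N - W * b - Q * d) := by
    rcases hcase with h | h
    · rw [h, zero_mul]
    · refine mul_nonneg hf0 ?_
      have h3 : 0 ≤ (4 * Q * W ^ 2) * (N - W * b - Q * d) := by
        have h4 : 0 ≤ W ^ 2 * (W ^ 2 * a) := by positivity
        nlinarith
      exact nonneg_of_mul_nonneg_right h3 (by positivity)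
  have k2 : 0 ≤ F * (Q * W * (-L + Sc / 4 * W - s * W)) :=
    mul_nonneg hf0 (mul_nonneg (mul_nonneg hQ0 hw.le) (by linarith))
  have k3 : 0 ≤ 1 / 2 * W ^ 2 * f' * a := by positivity
  have e : m ^ 2 * (F * (Q * W ^ 2)) - F * R + 1 / 4 * (P * (2 * W * L + 2 * d) +
      W ^ 2 * (F * Lq + f' * a) + 2 * (F * (2 * W * b)) + W ^ 2 * (F * Lq + f' * a) -
      P * (2 * W * L + 2 * d)) - (m ^ 2 + s) * (F * (Q * W ^ 2)) =
      F * (N - W * b - Q * d) + F * (Q * W * (-L + Sc / 4 * W - s * W)) +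
        1 / 2 * W ^ 2 * f' * a := by
    linear_combination (F / 2) * hlic
  linarith

end loc

theorem supA (hL : SpecLocal) : SpecSupA := by
  intro n M X Γ I V H _ _ _ _ _ _ _ _ _ _ _ _ _ _ _ _ c s w m δ f hn hw hf φ hsm
  have hfin := finComp c.S.met c.vol
  have hG := c.S.met
  -- the functions on `X`
  set q : X → ℝ := qf c.C w (φ : Raw Γ I n V) with hq
  set F : X → ℝ := fun x => prim f (q x) with hF
  set W : X → ℝ := fun x => w x ^ 2 with hW
  have hFs : c.C.Ck ∞ F := supSm n M X Γ I V c.C c.G c.K c.S w (prim f) φ hw.smooth hw.pos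
    (prim_smooth hf.smooth)
  have hWs : c.C.Ck ∞ W := fun γ i => (hw.smooth γ i).pow 2
  have h1s : c.C.Ck ∞ (fun _ => (1 : ℝ)) := fun γ i => contDiff_const
  have hFWs : c.C.Ck ∞ (fun x => F x * W x) := fun γ i => (hFs γ i).mul (hWs γ i)
  have hq0 : ∀ x, x ∉ tsupport (nm c.C (φ : Raw Γ I n V)) → q x = 0 := by
    intro x hx
    rw [hq]
    unfold qf
    rw [image_eq_zero_of_notMem_tsupport hx]; simp
  have hFc : HasCompactSupport F := by
    refine HasCompactSupport.intro φ.2.nm_supp.isCompact fun x hx => ?_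
    change prim f (q x) = 0
    rw [hq0 x hx]
    exact prim_zero hf.pos.le hf.zero hf.pos.le
  have hFWc : HasCompactSupport (fun x => F x * W x) := hFc.mul_right
  have hck2 : ∀ {g : X → ℝ}, c.C.Ck ∞ g → c.C.Ck 2 g := fun hg γ i => contDiff_infty.1 (hg γ i) 2
  have hcont : ∀ {g : X → ℝ}, c.C.Ck ∞ g → Continuous g := fun hg =>
    Ck_continuous c.C fun γ i => contDiff_infty.1 (hg γ i) 0
  have hcl : ∀ {g : X → ℝ}, c.C.Ck ∞ g → Continuous (lapX c.C c.G g) := fun {g} hg =>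
    Ck_continuous c.C fun γ i => (Ck_lapX hG (fun γ i => contDiff_infty.1 (hg γ i) 4) γ i).of_le
      (by norm_num)
  have hsl : ∀ {g : X → ℝ}, c.C.Ck ∞ g → HasCompactSupport g →
      HasCompactSupport (lapX c.C c.G g) :=
    fun {g} hg hc => HasCompactSupport.intro hc.isCompact fun x hx => lapX_zero hG hg hx
  -- integrals of Laplacians
  have i1 : ∫ x, lapX c.C c.G (fun x => F x * W x) x ∂c.μ = 0 := by
    have := greenX hG c.vol hFWs h1s hFWc
    have e : ∀ x, lapX c.C c.G (fun _ => (1 : ℝ)) x = 0 := fun x => by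
      rw [← pg_spec c.C x, lapX_eq hG (hck2 h1s)]
      have : c.C.rep (fun _ => (1 : ℝ)) (c.C.pg x) (c.C.pi x) = fun _ => 1 := rfl
      rw [this]
      unfold lap Vale.Agent.P223.H.pd
      simp
    simp only [e, mul_zero, integral_zero, mul_one] at this
    exact this.symm
  have i2 : ∫ x, F x * lapX c.C c.G W x ∂c.μ = ∫ x, lapX c.C c.G F x * W x ∂c.μ :=
    greenX hG c.vol hFs hWs hFc
  have n1 : Integrable (lapX c.C c.G (fun x => F x * W x)) c.μ :=
    (hcl hFWs).integrable_of_hasCompactSupport (hsl hFWs hFWc)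
  have n2 : Integrable (fun x => F x * lapX c.C c.G W x) c.μ :=
    ((hcont hFs).mul (hcl hWs)).integrable_of_hasCompactSupport hFc.mul_right
  have n3 : Integrable (fun x => lapX c.C c.G F x * W x) c.μ :=
    ((hcl hFs).mul (hcont hWs)).integrable_of_hasCompactSupport (hsl hFs hFc).mul_right
  -- the products
  set N : X → ℝ := nm c.C (φ : Raw Γ I n V) with hN
  set R : X → ℝ := fun x => (hp c.C (c.S.DC (c.S.DC φ) : Raw Γ I n V) (φ : Raw Γ I n V) x).re with hR
  have hNc : Continuous N := φ.2.continuous_nm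
  have hRc : Continuous R := Complex.continuous_re.comp
    ((c.S.DC (c.S.DC φ)).2.continuous_hp φ.2)
  have hfc : Continuous (fun x => f (q x)) := hcont hsm
  have hNs : HasCompactSupport N := φ.2.nm_supp
  have n4 : Integrable (fun x => f (q x) * N x ^ 2) c.μ := by
    refine (hfc.mul (hNc.pow 2)).integrable_of_hasCompactSupport ?_
    refine HasCompactSupport.intro hNs.isCompact fun x hx => ?_
    simp [image_eq_zero_of_notMem_tsupport hx]
  have n5 : Integrable (fun x => f (q x) * R x) c.μ := by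
    refine (hfc.mul hRc).integrable_of_hasCompactSupport ?_
    refine HasCompactSupport.intro hNs.isCompact fun x hx => ?_
    have h0 : N x = 0 := image_eq_zero_of_notMem_tsupport hx
    have h1 : ‖(φ : Raw Γ I n V) (c.C.pg x) (c.C.pi x) (c.C.py x)‖ = 0 := h0
    rw [norm_eq_zero] at h1
    simp [hR, hp, h1]
  have e1 : (⟪c.E.e φ, c.E.e (c.S.mC _ hsm φ)⟫_ℂ).re = ∫ x, f (q x) * N x ^ 2 ∂c.μ := by
    rw [c.E.ip]
    unfold ipr
    have h0 : ∀ x, hp c.C (φ : Raw Γ I n V) (c.S.mC _ hsm φ : Raw Γ I n V) x =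
        ((f (q x) * N x ^ 2 : ℝ) : ℂ) := by
      intro x
      change ⟪_, (f (q (c.C.pg x • c.C.ψ (c.C.pi x) (c.C.py x))) : ℂ) • _⟫_ℂ = _
      rw [inner_smul_right, pg_spec c.C x, inner_self_eq_norm_sq_to_K]
      push_cast
      rfl
    simp only [h0]
    rw [integral_complex_ofReal, Complex.ofReal_re]
  have e2 : (⟪c.E.e (c.S.DC φ), c.E.e (c.S.DC (c.S.mC _ hsm φ))⟫_ℂ).re =
      -∫ x, f (q x) * R x ∂c.μ := by
    have h0 := e_skew c.E hL c.vol (c.S.DC φ) (c.S.mC _ hsm φ)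
    have h1 : ⟪c.E.e (c.S.DC φ), c.E.e (c.S.DC (c.S.mC _ hsm φ))⟫_ℂ =
        -⟪c.E.e (c.S.DC (c.S.DC φ)), c.E.e (c.S.mC _ hsm φ)⟫_ℂ := by rw [h0, neg_neg]
    rw [h1, Complex.neg_re, c.E.ip]
    congr 1
    unfold ipr
    have h2 := Complex.reCLM.integral_comp_comm
      ((c.S.DC (c.S.DC φ)).2.integrable_hp (c.S.mC _ hsm φ).2 c.vol)
    simp only [Complex.reCLM_apply] at h2
    rw [← h2]
    congr 1
    funext x
    change (⟪_, (f (q (c.C.pg x • c.C.ψ (c.C.pi x) (c.C.py x))) : ℂ) • _⟫_ℂ).re = _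
    rw [inner_smul_right, pg_spec c.C x, Complex.re_ofReal_mul]
    rfl
  rw [e1, e2]
  -- the pointwise inequality
  have hpt : ∀ x, (m ^ 2 + s) * (f (q x) * N x ^ 2) ≤ m ^ 2 * (f (q x) * N x ^ 2) -
      f (q x) * R x + 1 / 4 * (lapX c.C c.G (fun x => F x * W x) x +
        lapX c.C c.G F x * W x - F x * lapX c.C c.G W x) := by
    intro x
    rw [← pg_spec c.C x]
    set γ := c.C.pg x
    set i := c.C.pi x
    set y := c.C.py x
    rw [lapX_eq hG (hck2 hFWs), lapX_eq hG (hck2 hFs), lapX_eq hG (hck2 hWs)]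
    have g1 : ∀ z, N (γ • c.C.ψ i z) = ‖(φ : Raw Γ I n V) γ i z‖ := fun z => φ.2.nm_chart γ i z
    have g2 : ∀ z, q (γ • c.C.ψ i z) =
        ‖(φ : Raw Γ I n V) γ i z‖ ^ 2 / c.C.rep w γ i z ^ 2 := fun z => by
      change nm c.C (φ : Raw Γ I n V) (γ • c.C.ψ i z) ^ 2 / _ = _
      rw [φ.2.nm_chart]; rfl
    have g3 : R (γ • c.C.ψ i y) = (⟪dir c.K (c.G i) (c.S.β i) (dir c.K (c.G i) (c.S.β i)
        ((φ : Raw Γ I n V) γ i)) y, (φ : Raw Γ I n V) γ i y⟫_ℂ).re := by
      change (hp c.C _ _ (γ • c.C.ψ i y)).re = _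
      rw [(c.S.DC (c.S.DC φ)).2.hp_chart φ.2]
      rfl
    have g4 : c.C.rep (fun x => F x * W x) γ i = fun z =>
        prim f (‖(φ : Raw Γ I n V) γ i z‖ ^ 2 / c.C.rep w γ i z ^ 2) * c.C.rep w γ i z ^ 2 := by
      funext z
      change prim f (q (γ • c.C.ψ i z)) * _ = _
      rw [g2]; rfl
    have g5 : c.C.rep F γ i = fun z =>
        prim f (‖(φ : Raw Γ I n V) γ i z‖ ^ 2 / c.C.rep w γ i z ^ 2) := by
      funext z
      change prim f (q (γ • c.C.ψ i z)) = _
      rw [g2]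
    have g6 : c.C.rep W γ i = fun z => c.C.rep w γ i z ^ 2 := rfl
    have := locA hL c.K (hG.smooth i) (hG.pos i) (c.S.fr i) (φ.2.smooth γ i)
      (hw.smooth γ i) (fun z => hw.pos _) (m := m) hf y (hw.ineq γ i y)
    rw [g4, g5, g6, g3, g1, g2]
    change _ ≤ m ^ 2 * _ - _ + 1 / 4 * (_ + _ * c.C.rep w γ i y ^ 2 - F (γ • c.C.ψ i y) * _)
    have g7 : F (γ • c.C.ψ i y) =
        prim f (‖(φ : Raw Γ I n V) γ i y‖ ^ 2 / c.C.rep w γ i y ^ 2) := congrFun g5 y
    rw [g7]
    rw [mul_comm _ (c.C.rep w γ i y ^ 2)]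
    exact this
  rw [← integral_const_mul]
  have hmono := integral_mono (n4.const_mul (m ^ 2 + s)) (((n4.const_mul (m ^ 2)).sub n5).add
    (((n1.add n3).sub n2).const_mul (1 / 4))) hpt
  refine hmono.trans (le_of_eq ?_)
  have j1 : ∫ x, (m ^ 2 * (f (q x) * N x ^ 2) - f (q x) * R x + 1 / 4 *
      (lapX c.C c.G (fun x => F x * W x) x + lapX c.C c.G F x * W x -
        F x * lapX c.C c.G W x)) ∂c.μ = m ^ 2 * (∫ x, f (q x) * N x ^ 2 ∂c.μ) -
        (∫ x, f (q x) * R x ∂c.μ) + 1 / 4 * ((∫ x, lapX c.C c.G (fun x => F x * W x) x ∂c.μ) +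
        (∫ x, lapX c.C c.G F x * W x ∂c.μ) - ∫ x, F x * lapX c.C c.G W x ∂c.μ) := by
    have a1 : Integrable (fun x => m ^ 2 * (f (q x) * N x ^ 2) - f (q x) * R x) c.μ :=
      (n4.const_mul (m ^ 2)).sub n5
    have a2 : Integrable (fun x => lapX c.C c.G (fun x => F x * W x) x +
        lapX c.C c.G F x * W x) c.μ := n1.add n3
    have a3 : Integrable (fun x => 1 / 4 * (lapX c.C c.G (fun x => F x * W x) x +
        lapX c.C c.G F x * W x - F x * lapX c.C c.G W x)) c.μ := (a2.sub n2).const_mul _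
    rw [integral_add a1 a3, integral_sub (n4.const_mul _) n5, integral_const_mul,
      integral_const_mul, integral_sub a2 n2, integral_add n1 n3]
  have j2 := j1
  rw [i1, i2] at j2
  refine Eq.trans ?_ (j2.trans (by ring))
  rfl

end Vale.Agent.P223.H566
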