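import Vale.Agent.P223.H566.Def

/-! Spinor bundles from transition functions on `M` (no signs). -/

namespace Vale.Agent.P223.H566

open scoped ContDiff InnerProductSpace
open MeasureTheory Vale.Agent.P223.H Vale.Agent.P223.X

variable {n : ℕ} {M X Γ I : Type} [TopologicalSpace M] [TopologicalSpace X] [Group Γ]
    [MulAction Γ X] {V : Type} [NormedAddCommGroup V] [InnerProductSpace ℂ V]

/-- Spinor bundle on `M`: transition functions `U i j γ` from the chart `ψ i` to the chart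
`γ⁻¹ • ψ j`. -/
structure SpU (C : Cov n M X Γ I) (G : I → E n → Matrix (Fin n) (Fin n) ℝ) (K : Cliff n V) where
  met : MetX C G
  β : I → E n → Matrix (Fin n) (Fin n) ℝ
  fr : ∀ i, Fr (G i) (β i)
  U : I → I → Γ → E n → V →L[ℂ] V
  smooth : ∀ i j γ, ContDiffOn ℝ ∞ (U i j γ) (C.dom i j γ)
  unit : ∀ i j γ, ∀ y ∈ C.dom i j γ, ∀ v w, ⟪U i j γ y v, U i j γ y w⟫_ℂ = ⟪v, w⟫_ℂ
  vol : ∀ i j γ, ∀ y ∈ C.dom i j γ, U i j γ y * K.vol = K.vol * U i j γ y
  cliff : ∀ i j γ, ∀ y ∈ C.dom i j γ, ∀ l,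
    U i j γ y * ∑ k, rs (Jc C i j γ y l k) (cl K (β i) y k) =
      cl K (β j) (C.tr i j γ y) l * U i j γ y
  conn : ∀ i j γ, ∀ y ∈ C.dom i j γ, ∀ k, fderiv ℝ (U i j γ) y (Pi.single k 1) =
    U i j γ y * spc K (G i) (β i) y k -
      (∑ l, rs (Jc C i j γ y l k) (spc K (G j) (β j) (C.tr i j γ y) l)) * U i j γ y
  coc : ∀ i j k γ γ' y, y ∈ C.dom i j γ → C.tr i j γ y ∈ C.dom j k γ' →
    U j k γ' (C.tr i j γ y) * U i j γ y = U i k (γ' * γ) y
  one : ∀ i y, U i i 1 y = 1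

variable {C : Cov n M X Γ I} {G : I → E n → Matrix (Fin n) (Fin n) ℝ} {K : Cliff n V}

/-- the associated spinor bundle on `X` -/
def SpX.ofU (S : SpU C G K) : SpX C G K where
  met := S.met
  β := S.β
  fr := S.fr
  T γ i γ' j := S.U i j (γ'⁻¹ * γ)
  sg _ _ := 1
  sg_sq _ _ := one_mul 1
  smooth γ i γ' j := S.smooth i j _
  unit γ i γ' j := S.unit i j _
  vol γ i γ' j := S.vol i j _
  cliff γ i γ' j := S.cliff i j _
  conn γ i γ' j := S.conn i j _
  coc γ i γ' j γ'' k y h h' := by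
    rw [S.coc i j k _ _ y h h']
    congr 1
    group
  one γ i y := by rw [inv_mul_cancel, S.one]
  equi g γ i γ' j y _ := by
    rw [one_mul, one_smul]
    congr 1
    group

end Vale.Agent.P223.H566
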