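import Vale.Agent.P223.H566.EmbS
import Mathlib.Analysis.Normed.Operator.Extend

/-! Existence of the operators. -/

namespace Vale.Agent.P223.H566

open scoped ContDiff InnerProductSpace Topology
open MeasureTheory Vale.Agent.P223.H Vale.Agent.P223.X

section
variable {n : ℕ} {M X Γ I : Type} [TopologicalSpace M] [TopologicalSpace X] [Group Γ]
    [MulAction Γ X] {V : Type} [NormedAddCommGroup V] [InnerProductSpace ℂ V]
    {C : Cov n M X Γ I} {G : I → E n → Matrix (Fin n) (Fin n) ℝ} {K : Cliff n V}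
    [MeasurableSpace X] {S : SpX C G K} {μ : Measure X} {H : Type} [NormedAddCommGroup H]
    [InnerProductSpace ℂ H] (E : Emb S μ H)

theorem norm_e_sq (φ : Core S) : ‖E.e φ‖ ^ 2 = ∫ x, nm C (φ : Raw Γ I n V) x ^ 2 ∂μ := by
  have h1 : ∀ x, hp C (φ : Raw Γ I n V) (φ : Raw Γ I n V) x =
      ((nm C (φ : Raw Γ I n V) x ^ 2 : ℝ) : ℂ) := fun x => by
    unfold nm hp
    rw [inner_self_eq_norm_sq_to_K]; norm_cast
  have h2 := E.ip φ φ
  rw [inner_self_eq_norm_sq_to_K] at h2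
  unfold ipr at h2
  simp only [h1] at h2
  rw [integral_complex_ofReal] at h2
  apply Complex.ofReal_injective
  rw [← h2]
  push_cast
  rfl

theorem norm_e_le [BorelSpace X] [T2Space X] (hV : VolX C G μ) {φ ψ : Core S} {c : ℝ}
    (hc : 0 ≤ c)
    (h : ∀ x, nm C (φ : Raw Γ I n V) x ≤ c * nm C (ψ : Raw Γ I n V) x) :
    ‖E.e φ‖ ≤ c * ‖E.e ψ‖ := by
  have := finComp S.met hV
  have i1 : ∀ φ : Core S, Integrable (fun x => nm C (φ : Raw Γ I n V) x ^ 2) μ := fun φ =>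
    (φ.2.continuous_nm.pow 2).integrable_of_hasCompactSupport
      (by simpa only [pow_two] using φ.2.nm_supp.mul_right)
  have h1 : ‖E.e φ‖ ^ 2 ≤ (c * ‖E.e ψ‖) ^ 2 := by
    rw [mul_pow, norm_e_sq E, norm_e_sq E, ← integral_const_mul]
    refine integral_mono (i1 φ) ((i1 ψ).const_mul _) fun x => ?_
    simp only
    rw [← mul_pow]
    exact pow_le_pow_left₀ (norm_nonneg _) (h x) 2
  exact (sq_le_sq₀ (norm_nonneg _) (by positivity)).1 h1

theorem Emb.ext_eq {T T' : H →L[ℂ] H} (h : ∀ φ, T (E.e φ) = T' (E.e φ)) : T = T' := by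
  refine ContinuousLinearMap.ext fun x => ?_
  exact congrFun (E.dense.equalizer T.continuous T'.continuous (funext h)) x

variable [CompleteSpace H]

/-- extension of operators -/
theorem Emb.ext_op (f : Core S →ₗ[ℂ] H) {c : ℝ} (h : ∀ φ, ‖f φ‖ ≤ c * ‖E.e φ‖) :
    ∃ T : H →L[ℂ] H, (∀ φ, T (E.e φ) = f φ) ∧ ∀ u, ‖T u‖ ≤ c * ‖u‖ :=
  ⟨f.extendOfNorm E.e, fun φ => LinearMap.extendOfNorm_eq E.dense ⟨c, h⟩ φ,
    fun u => LinearMap.norm_extendOfNorm_apply_le E.dense c h u⟩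

/-- extension of operators, second version -/
theorem ext_op' {F : Type} [AddCommGroup F] [Module ℂ F] {e f : F →ₗ[ℂ] H} (he : DenseRange e)
    {c : ℝ} (h : ∀ φ, ‖f φ‖ ≤ c * ‖e φ‖) :
    ∃ T : H →L[ℂ] H, (∀ φ, T (e φ) = f φ) ∧ ∀ u, ‖T u‖ ≤ c * ‖u‖ :=
  ⟨f.extendOfNorm e, fun φ => LinearMap.extendOfNorm_eq he ⟨c, h⟩ φ,
    fun u => LinearMap.norm_extendOfNorm_apply_le he c h u⟩

omit [MeasurableSpace X] [InnerProductSpace ℂ H] [NormedAddCommGroup H] [CompleteSpace H] in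
theorem nm_mC [T2Space X] {f : X → ℝ} (hf : C.Ck ∞ f) (φ : Core S) (x : X) :
    nm C (S.mC f hf φ : Raw Γ I n V) x = |f x| * nm C (φ : Raw Γ I n V) x := by
  unfold nm
  change ‖(f (C.pg x • C.ψ (C.pi x) (C.py x)) : ℂ) • _‖ = _
  rw [norm_smul, pg_spec C x, Complex.norm_real, Real.norm_eq_abs]

/-- multiplication by a bounded function -/
theorem Emb.mul_op [BorelSpace X] [T2Space X] (hV : VolX C G μ) {f : X → ℝ} (hf : C.Ck ∞ f)
    {c : ℝ} (hc : ∀ x, |f x| ≤ c) : ∃ T : H →L[ℂ] H, (∀ φ, T (E.e φ) = E.e (S.mC f hf φ)) ∧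
      ∀ u, ‖T u‖ ≤ c * ‖u‖ := by
  by_cases hX : Nonempty X
  · have hc0 : 0 ≤ c := (abs_nonneg _).trans (hc hX.some)
    refine E.ext_op (E.e ∘ₗ S.mC f hf) fun φ => ?_
    refine norm_e_le E hV hc0 fun x => ?_
    rw [nm_mC]
    exact mul_le_mul_of_nonneg_right (hc x) (norm_nonneg _)
  · have hz : ∀ φ : Core S, E.e φ = 0 := fun φ => by
      have h1 := norm_e_sq E φ
      have : IsEmpty X := not_nonempty_iff.1 hX
      rw [integral_of_isEmpty] at h1
      simpa using h1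
    have h0 : ∀ u : H, u = 0 := fun u => by
      have := congrFun (E.dense.equalizer continuous_id continuous_const
        (funext fun φ => (hz φ : _ = (0 : H)))) u
      simpa using this
    exact ⟨0, fun φ => (h0 _).trans (h0 _).symm, fun u => by rw [h0 u]; simp⟩

/-! ### the Dirac operator -/

omit [CompleteSpace H] in
theorem e_skew [BorelSpace X] [T2Space X] [Fintype I] [FiniteDimensional ℂ V] (hL : SpecLocal)
    (hV : VolX C G μ) (φ ψ : Core S) : ⟪E.e (S.DC φ), E.e ψ⟫_ℂ = -⟪E.e φ, E.e (S.DC ψ)⟫_ℂ := by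
  rw [E.ip, E.ip]
  exact DC_skew hL hV φ ψ

omit [CompleteSpace H] in
theorem norm_mD [BorelSpace X] [T2Space X] [Fintype I] [FiniteDimensional ℂ V] (hL : SpecLocal)
    (hV : VolX C G μ) (r : ℝ) (φ : Core S) :
    ‖E.e ((r : ℂ) • φ + S.DC φ)‖ ^ 2 = r ^ 2 * ‖E.e φ‖ ^ 2 + ‖E.e (S.DC φ)‖ ^ 2 := by
  have h := e_skew E hL hV φ φ
  rw [map_add, map_smul, @norm_add_sq ℂ, norm_smul, inner_smul_left]
  have h2 : (⟪E.e φ, E.e (S.DC φ)⟫_ℂ).re = 0 := by
    have h3 : (⟪E.e (S.DC φ), E.e φ⟫_ℂ).re = (⟪E.e φ, E.e (S.DC φ)⟫_ℂ).re := by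
      rw [← inner_conj_symm, Complex.conj_re]
    rw [h, Complex.neg_re] at h3
    linarith
  simp only [Complex.conj_ofReal, RCLike.re_to_complex, Complex.re_ofReal_mul, h2]
  rw [Complex.norm_real, Real.norm_eq_abs, mul_pow, sq_abs]
  ring

omit [CompleteSpace H] in
theorem norm_mD_ge [BorelSpace X] [T2Space X] [Fintype I] [FiniteDimensional ℂ V]
    (hL : SpecLocal) (hV : VolX C G μ) (r : ℝ) (φ : Core S) :
    |r| * ‖E.e φ‖ ≤ ‖E.e ((r : ℂ) • φ + S.DC φ)‖ := by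
  have h := norm_mD E hL hV r φ
  refine (sq_le_sq₀ (by positivity) (norm_nonneg _)).1 ?_
  rw [h, mul_pow, sq_abs]
  have := sq_nonneg ‖E.e (S.DC φ)‖
  linarith

/-- a linear map has dense range if nothing is orthogonal to the range -/
theorem denseRange_of_orth {F : Type} [AddCommGroup F] [Module ℂ F] (f : F →ₗ[ℂ] H)
    (h : ∀ w : H, (∀ φ, ⟪w, f φ⟫_ℂ = 0) → w = 0) : DenseRange f := by
  have h1 : (LinearMap.range f)ᗮ = ⊥ := by
    rw [eq_bot_iff]
    intro w hw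
    refine (Submodule.mem_bot ℂ).2 (h w fun φ => ?_)
    exact (Submodule.mem_orthogonal' _ _).1 hw _ ⟨φ, rfl⟩
  have h2 := (Submodule.topologicalClosure_eq_top_iff (K := LinearMap.range f)).2 h1
  have h3 : Dense ((LinearMap.range f : Submodule ℂ H) : Set H) :=
    Submodule.dense_iff_topologicalClosure_eq_top.2 h2
  exact h3

end

/-- one resolvent -/
theorem exists_res (hL : SpecLocal) (hD : SpecDense) {n : ℕ} {M X Γ I V H : Type}
    [TopologicalSpace M] [TopologicalSpace X]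
    [Group Γ] [MulAction Γ X] [Fintype I] [T2Space X] [ConnectedSpace X] [T2Space M]
    [MeasurableSpace X] [BorelSpace X] [NormedAddCommGroup V] [InnerProductSpace ℂ V]
    [FiniteDimensional ℂ V] [NormedAddCommGroup H] [InnerProductSpace ℂ H] [CompleteSpace H]
    (c : Ctx n M X Γ I V H) {r : ℝ} (hr : r ≠ 0) : ∃ s : H →L[ℂ] H,
    (∀ φ, s (c.E.e ((r : ℂ) • φ + c.S.DC φ)) = c.E.e φ) ∧ ∀ u, |r| * ‖s u‖ ≤ ‖u‖ := by
  have hd : DenseRange (c.E.e ∘ₗ ((r : ℂ) • LinearMap.id + c.S.DC)) := by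
    refine denseRange_of_orth _ fun w hw => hD n M X Γ I V H c r hr w fun φ => ?_
    exact hw φ
  obtain ⟨T, h1, h2⟩ := ext_op' (f := c.E.e) hd (c := |r|⁻¹) fun φ => by
    rw [inv_mul_eq_div, le_div_iff₀ (abs_pos.2 hr), mul_comm]
    exact norm_mD_ge c.E hL c.vol r φ
  refine ⟨T, fun φ => h1 φ, fun u => ?_⟩
  have := h2 u
  rw [inv_mul_eq_div, le_div_iff₀ (abs_pos.2 hr), mul_comm] at this
  exact this

theorem exists_Rsv (hL : SpecLocal) (hD : SpecDense) {n : ℕ} {M X Γ I V H : Type}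
    [TopologicalSpace M] [TopologicalSpace X]
    [Group Γ] [MulAction Γ X] [Fintype I] [T2Space X] [ConnectedSpace X] [T2Space M]
    [MeasurableSpace X] [BorelSpace X] [NormedAddCommGroup V] [InnerProductSpace ℂ V]
    [FiniteDimensional ℂ V] [NormedAddCommGroup H] [InnerProductSpace ℂ H] [CompleteSpace H]
    (c : Ctx n M X Γ I V H) {m : ℝ} (hm : 0 < m) : ∃ g p : H →L[ℂ] H, Rsv c.E m g p := by
  obtain ⟨sp, h1, h2⟩ := exists_res hL hD c hm.ne'
  obtain ⟨s', h3, h4⟩ := exists_res hL hD c (neg_ne_zero.2 hm.ne')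
  rw [abs_of_pos hm] at h2
  rw [abs_neg, abs_of_pos hm] at h4
  refine ⟨_, _, ⟨sp, -s', h1, fun φ => ?_, h2, fun u => ?_, rfl, rfl⟩⟩
  · have := h3 (-φ)
    have e : ((-m : ℝ) : ℂ) • (-φ) + c.S.DC (-φ) = (m : ℂ) • φ - c.S.DC φ := by
      rw [map_neg]
      push_cast
      module
    rw [e] at this
    rw [neg_apply, this, map_neg, neg_neg]
  · rw [neg_apply, norm_neg]
    exact h4 u

end Vale.Agent.P223.H566
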