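import Vale.Agent.P223.H566.DecS
import Vale.Agent.P223.H566.SupA
import Vale.Agent.P223.H66.LocD
import Vale.Agent.P223.H191.K1
import Vale.Agent.P223.H620.DecA
import Vale.Agent.P223.H620.SupB
import Vale.Agent.P223.H691.SpecTC
import Vale.Agent.P223.H691.SpecNuc
import Vale.Agent.P223.H691.PW
import Vale.Agent.P223.H316.Rec
import Vale.Agent.P223.H391.Grow
import Vale.Agent.P223.H391.Pair
import Vale.Agent.P223.H765.SpecAsy
import Vale.Agent.P223.H765.Assembly

/-! All blocks together: the pairing with bounded cocycles vanishes. -/

namespace Vale.Agent.P223.H566

theorem specLocal : SpecLocal := H66.specLocal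
theorem specIntS : SpecIntS := intS specLocal
theorem specDense : SpecDense := H191.specDense specIntS
theorem specEmb : SpecEmb := emb
theorem specOps : SpecOps := ops specLocal specDense
theorem specAlg : SpecAlg := alg specLocal specDense
theorem specDecA : SpecDecA := H620.decA specDense specLocal
theorem specNuc : SpecNuc := H691.specNuc specLocal specIntS specDecA
theorem specDec : SpecDec := dec specLocal specDecA specNuc
theorem specSup : SpecSup := sup specLocal specDense (supA specLocal) (H620.supB specLocal)
theorem specPW : H391.SpecPW := H691.specPW specLocal specIntS specSup
theorem specGrow : SpecGrow :=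
  H391.specGrow specIntS specLocal specSup specAlg specDecA specDec specPW
theorem specRecU : H391.SpecRecU := H316.specRecU H691.specTC
theorem specAsy : SpecAsy := H765.specAsy specIntS specLocal specSup specAlg specDec
theorem specPair : SpecPair :=
  H391.specPair specEmb specOps specAlg specDec specRecU specGrow specAsy

/-- the pairing with bounded cocycles vanishes -/
theorem pair : SpecPair := specPair

end Vale.Agent.P223.H566
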