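import Vale.Agent.P223.H566.Trans

/-! `SpecOps` and `SpecAlg`. -/

namespace Vale.Agent.P223.H566

open scoped ContDiff InnerProductSpace Topology
open MeasureTheory Vale.Agent.P223.H Vale.Agent.P223.X

section bd
variable {n : ℕ} {M X Γ I : Type} [TopologicalSpace M] [TopologicalSpace X] [Group Γ]
    [MulAction Γ X] {V : Type} [NormedAddCommGroup V] [InnerProductSpace ℂ V]
    {C : Cov n M X Γ I} {G : I → E n → Matrix (Fin n) (Fin n) ℝ} {K : Cliff n V}
    {S : SpX C G K}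

theorem nm_sum {α : Type} (T : Finset α) (φ : α → Core S) (x : X) :
    nm C ((∑ l ∈ T, φ l : Core S) : Raw Γ I n V) x ≤ ∑ l ∈ T, nm C (φ l : Raw Γ I n V) x := by
  unfold nm
  have e : ((∑ l ∈ T, φ l : Core S) : Raw Γ I n V) (C.pg x) (C.pi x) (C.py x) =
      ∑ l ∈ T, (φ l : Raw Γ I n V) (C.pg x) (C.pi x) (C.py x) := by
    simp only [AddSubmonoidClass.coe_finsetSum, Finset.sum_apply]
  rw [e]
  exact norm_sum_le _ _

variable [T2Space X] [FiniteDimensional ℂ V] [Fintype I] [ConnectedSpace X] [T2Space M]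
  [MeasurableSpace X] [BorelSpace X] {μ : Measure X} {H : Type} [NormedAddCommGroup H]
  [InnerProductSpace ℂ H] (E : Emb S μ H)

/-- bounds on `Core` extend -/
theorem Emb.le_of_core {T : H →L[ℂ] H} {c : ℝ} (h : ∀ φ, ‖T (E.e φ)‖ ≤ c * ‖E.e φ‖) (x : H) :
    ‖T x‖ ≤ c * ‖x‖ := by
  have hcl : IsClosed {x : H | ‖T x‖ ≤ c * ‖x‖} :=
    isClosed_le (T.continuous.norm) (continuous_const.mul continuous_norm)
  exact closure_minimal (s := Set.range E.e) (by rintro _ ⟨φ, rfl⟩; exact h φ) hcl (E.dense x)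

variable {ι : Type} [Fintype ι] {P : PUX C ι} {a h : Γ × ι → H →L[ℂ] H} {W : H →L[ℂ] H}

theorem OpA.bda (hL : SpecLocal) (hV : VolX C G μ) (hO : OpA E P a h W) :
    ∃ B : ℝ, ∀ (T : Finset (Γ × ι)) (x : H), ‖∑ l ∈ T, a l x‖ ≤ B * ‖x‖ ∧
    ‖∑ l ∈ T, h l x‖ ≤ B * ‖x‖ := by
  obtain ⟨L1, hL1, h1⟩ := H391.fn_bdd P hO.sm
  obtain ⟨L2, hL2, h2⟩ := H391.dfn_bdd S.met P hO.sm
  refine ⟨max L1 L2, fun T x => ⟨?_, ?_⟩⟩
  · have := E.le_of_core (T := ∑ l ∈ T, a l) (c := max L1 L2) (fun φ => by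
      have e : (∑ l ∈ T, a l) (E.e φ) =
          E.e (∑ l ∈ T, S.mC (P.fn l) (H391.ck_fn hO.sm l) φ) := by
        rw [sum_apply, map_sum]
        exact Finset.sum_congr rfl fun l _ => hO.a_e l _ φ
      rw [e]
      refine norm_e_le E hV (le_max_of_le_left hL1) fun y => ?_
      refine (nm_sum _ _ _).trans ?_
      refine le_trans (le_of_eq (Finset.sum_congr rfl fun l _ => nm_mC _ φ y)) ?_
      rw [← Finset.sum_mul]
      exact mul_le_mul_of_nonneg_right ((h1 T y).trans (le_max_left _ _)) (norm_nonneg _)) x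
    rwa [sum_apply] at this
  · have := E.le_of_core (T := ∑ l ∈ T, h l) (c := max L1 L2) (fun φ => by
      have e : (∑ l ∈ T, h l) (E.e φ) =
          E.e (∑ l ∈ T, S.cC (P.fn l) (H391.ck_fn hO.sm l) φ) := by
        rw [sum_apply, map_sum]
        exact Finset.sum_congr rfl fun l _ => hO.h_e l _ φ
      rw [e]
      refine norm_e_le E hV (le_max_of_le_right hL2) fun y => ?_
      refine (nm_sum _ _ _).trans ?_
      refine le_trans (le_of_eq (Finset.sum_congr rfl fun l _ =>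
        H391.nm_cl hL (P.fn l) (φ : Raw Γ I n V) y)) ?_
      rw [← Finset.sum_mul]
      exact mul_le_mul_of_nonneg_right ((h2 T y).trans (le_max_right _ _)) (norm_nonneg _)) x
    rwa [sum_apply] at this

variable [CompleteSpace H]

/-- existence of the operators -/
theorem exists_OpA (hL : SpecLocal) (hV : VolX C G μ) (hP : ∀ i, C.Ck ∞ (P.φ i)) :
    ∃ (a h : Γ × ι → H →L[ℂ] H) (W : H →L[ℂ] H), OpA E P a h W := by
  obtain ⟨L1, hL1, h1⟩ := H391.fn_bdd P hP
  obtain ⟨L2, hL2, h2⟩ := H391.dfn_bdd S.met P hP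
  have ha : ∀ l : Γ × ι, ∃ T : H →L[ℂ] H,
      ∀ φ, T (E.e φ) = E.e (S.mC (P.fn l) (H391.ck_fn hP l) φ) := fun l => by
    obtain ⟨T, hT, -⟩ := E.mul_op hV (H391.ck_fn hP l) (c := L1) fun x => by
      simpa using h1 {l} x
    exact ⟨T, hT⟩
  have hh : ∀ l : Γ × ι, ∃ T : H →L[ℂ] H,
      ∀ φ, T (E.e φ) = E.e (S.cC (P.fn l) (H391.ck_fn hP l) φ) := fun l => by
    obtain ⟨T, hT, -⟩ := E.ext_op (E.e ∘ₗ S.cC (P.fn l) (H391.ck_fn hP l)) (c := L2) fun φ => by
      refine norm_e_le E hV hL2 fun x => ?_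
      refine le_trans (le_of_eq (H391.nm_cl hL (P.fn l) (φ : Raw Γ I n V) x)) ?_
      exact mul_le_mul_of_nonneg_right (by simpa using h2 {l} x) (norm_nonneg _)
    exact ⟨T, hT⟩
  have hW : ∃ T : H →L[ℂ] H, ∀ φ, T (E.e φ) = E.e (S.vC φ) := by
    obtain ⟨T, hT, -⟩ := E.ext_op (E.e ∘ₗ S.vC) (c := 1) fun φ => by
      refine norm_e_le E hV zero_le_one fun x => ?_
      rw [one_mul]
      exact le_of_eq (H391.nm_vol hL S _ x)
    exact ⟨T, hT⟩
  choose a ha using ha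
  choose h hh using hh
  obtain ⟨W, hW⟩ := hW
  exact ⟨a, h, W, hP, fun l _ φ => ha l φ, fun l _ φ => hh l φ, hW⟩

end bd

theorem ops (hL : SpecLocal) (hD : SpecDense) : SpecOps := by
  intro n M X Γ I V H _ _ _ _ _ _ _ _ _ _ _ _ _ _ _ _ c
  exact ⟨fun m hm => exists_Rsv hL hD c hm, fun ι _ P hP => exists_OpA c.E hL c.vol hP⟩

section alg
variable {n : ℕ} {M X Γ I V H : Type}
    [TopologicalSpace M] [TopologicalSpace X]
    [Group Γ] [MulAction Γ X] [Fintype I] [T2Space X] [ConnectedSpace X] [T2Space M]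
    [MeasurableSpace X] [BorelSpace X] [NormedAddCommGroup V] [InnerProductSpace ℂ V]
    [FiniteDimensional ℂ V] [NormedAddCommGroup H] [InnerProductSpace ℂ H] [CompleteSpace H]
    (c : Ctx n M X Γ I V H)

theorem dense_p (hD : SpecDense) {r : ℝ} (hr : r ≠ 0) :
    DenseRange fun φ : Core c.S => c.E.e ((r : ℂ) • φ + c.S.DC φ) := by
  have h : DenseRange (c.E.e ∘ₗ ((r : ℂ) • LinearMap.id + c.S.DC)) := by
    refine denseRange_of_orth _ fun w hw => hD n M X Γ I V H c r hr w fun φ => ?_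
    exact hw φ
  have e : (fun φ : Core c.S => c.E.e ((r : ℂ) • φ + c.S.DC φ)) =
      (c.E.e ∘ₗ ((r : ℂ) • LinearMap.id + c.S.DC) : Core c.S →ₗ[ℂ] H) := by
    funext φ
    simp only [LinearMap.comp_apply, LinearMap.add_apply, LinearMap.smul_apply, LinearMap.id_apply]
  rw [e]
  exact h

theorem dense_m (hD : SpecDense) {r : ℝ} (hr : r ≠ 0) :
    DenseRange fun φ : Core c.S => c.E.e ((r : ℂ) • φ - c.S.DC φ) := by
  have h := dense_p c hD (r := -r) (neg_ne_zero.2 hr)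
  have e : (fun φ : Core c.S => c.E.e ((r : ℂ) • φ - c.S.DC φ)) =
      (fun φ : Core c.S => c.E.e (((-r : ℝ) : ℂ) • φ + c.S.DC φ)) ∘ (fun φ => -φ) := by
    funext φ
    simp only [Function.comp_apply]
    congr 1
    rw [map_neg]
    push_cast
    module
  rw [e]
  unfold DenseRange
  rw [Set.range_comp, neg_surjective.range_eq, Set.image_univ]
  exact h

variable {c} {m : ℝ} {sp sm : H →L[ℂ] H}

/-- both resolvents -/
theorem res_sum (hD : SpecDense) (hm : m ≠ 0)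
    (h1 : ∀ φ, sp (c.E.e ((m : ℂ) • φ + c.S.DC φ)) = c.E.e φ)
    (h2 : ∀ φ, sm (c.E.e ((m : ℂ) • φ - c.S.DC φ)) = c.E.e φ) :
    sp + sm = (2 * m : ℂ) • (sp * sm) ∧ sp + sm = (2 * m : ℂ) • (sm * sp) := by
  constructor
  · ext u
    have h := (gr_sm h2 (dense_m c hD hm) u).sp h1
    have e : (m : ℂ) • sm u + ((m : ℂ) • sm u - u) = (2 * m : ℂ) • sm u - u := by module
    rw [e, map_sub, map_smul] at h
    rw [add_apply, smul_apply, mul_apply_eq_comp]
    rw [sub_eq_iff_eq_add] at h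
    rw [h, add_comm]
  · ext u
    have h := (gr_sp h1 (dense_p c hD hm) u).sm h2
    have e : (m : ℂ) • sp u - (u - (m : ℂ) • sp u) = (2 * m : ℂ) • sp u - u := by module
    rw [e, map_sub, map_smul] at h
    rw [add_apply, smul_apply, mul_apply_eq_comp]
    rw [sub_eq_iff_eq_add] at h
    rw [h]

/-- commutators with the resolvents -/
theorem res_comm (hD : SpecDense) (hm : m ≠ 0)
    (h1 : ∀ φ, sp (c.E.e ((m : ℂ) • φ + c.S.DC φ)) = c.E.e φ)
    (h2 : ∀ φ, sm (c.E.e ((m : ℂ) • φ - c.S.DC φ)) = c.E.e φ) {A C' : H →L[ℂ] H}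
    (hA : ∀ φ, Gr c.E (A (c.E.e φ)) (A (c.E.e (c.S.DC φ)) + C' (c.E.e φ))) :
    A * sp - sp * A = sp * C' * sp ∧ A * sm - sm * A = -(sm * C' * sm) := by
  constructor
  · ext u
    have h := ((gr_sp h1 (dense_p c hD hm) u).map hA).sp h1
    have e : (m : ℂ) • A (sp u) + (A (u - (m : ℂ) • sp u) + C' (sp u)) = A u + C' (sp u) := by
      rw [map_sub, map_smul]; abel
    rw [e, map_add] at h
    simp only [sub_apply, mul_apply_eq_comp]
    rw [← h, add_sub_cancel_left]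
  · ext u
    have h := ((gr_sm h2 (dense_m c hD hm) u).map hA).sm h2
    have e : (m : ℂ) • A (sm u) - (A ((m : ℂ) • sm u - u) + C' (sm u)) = A u - C' (sm u) := by
      rw [map_sub, map_smul]; abel
    rw [e, map_sub] at h
    simp only [sub_apply, mul_apply_eq_comp, neg_apply]
    rw [← h]; abel

/-- operators which anticommute with the Dirac operator -/
theorem res_anti (hD : SpecDense) (hm : m ≠ 0)
    (h1 : ∀ φ, sp (c.E.e ((m : ℂ) • φ + c.S.DC φ)) = c.E.e φ)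
    (h2 : ∀ φ, sm (c.E.e ((m : ℂ) • φ - c.S.DC φ)) = c.E.e φ) {A : H →L[ℂ] H}
    (hA : ∀ φ, Gr c.E (A (c.E.e φ)) (-A (c.E.e (c.S.DC φ)))) :
    A * sp = sm * A ∧ A * sm = sp * A := by
  have hA' : ∀ φ, Gr c.E (A (c.E.e φ)) ((-A) (c.E.e (c.S.DC φ)) + (0 : H →L[ℂ] H) (c.E.e φ)) :=
    fun φ => by
      rw [neg_apply, zero_apply, add_zero]; exact hA φ
  constructor
  · ext u
    have h := ((gr_sp h1 (dense_p c hD hm) u).map hA').sm h2
    have e : (m : ℂ) • A (sp u) - ((-A) (u - (m : ℂ) • sp u) + (0 : H →L[ℂ] H) (sp u)) = A u := by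
      rw [neg_apply, zero_apply, map_sub, map_smul]; abel
    rw [e] at h
    simp only [mul_apply_eq_comp]
    exact h.symm
  · ext u
    have h := ((gr_sm h2 (dense_m c hD hm) u).map hA').sp h1
    have e : (m : ℂ) • A (sm u) + ((-A) ((m : ℂ) • sm u - u) + (0 : H →L[ℂ] H) (sm u)) = A u := by
      rw [neg_apply, zero_apply, map_sub, map_smul]; abel
    rw [e] at h
    simp only [mul_apply_eq_comp]
    exact h.symm

end alg

end Vale.Agent.P223.H566
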