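import Vale.Agent.P223.H566.Alg

/-! `SpecAlg`. -/

namespace Vale.Agent.P223.H566

open scoped ContDiff InnerProductSpace Topology
open MeasureTheory Vale.Agent.P223.H Vale.Agent.P223.X

section core
variable {n : ℕ} {M X Γ I : Type} [TopologicalSpace M] [TopologicalSpace X] [Group Γ]
    [MulAction Γ X] {V : Type} [NormedAddCommGroup V] [InnerProductSpace ℂ V]
    {C : Cov n M X Γ I} {G : I → E n → Matrix (Fin n) (Fin n) ℝ} {K : Cliff n V}
    {S : SpX C G K} [T2Space X]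

theorem mC_comm {f f' : X → ℝ} (hf : C.Ck ∞ f) (hf' : C.Ck ∞ f') (φ : Core S) :
    S.mC f hf (S.mC f' hf' φ) = S.mC f' hf' (S.mC f hf φ) := by
  refine Subtype.ext ?_
  funext γ i y
  exact smul_comm _ _ _

theorem mC_cC {f f' : X → ℝ} (hf : C.Ck ∞ f) (hf' : C.Ck ∞ f') (φ : Core S) :
    S.mC f hf (S.cC f' hf' φ) = S.cC f' hf' (S.mC f hf φ) := by
  refine Subtype.ext ?_
  funext γ i y
  exact (map_smul (cdf K (S.β i) (C.rep f' γ i) y) _ _).symm

omit [T2Space X] in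
theorem mC_congr {f f' : X → ℝ} (h : f = f') (hf : C.Ck ∞ f) (hf' : C.Ck ∞ f') :
    S.mC f hf = S.mC f' hf' := by
  subst h; rfl

theorem cC_congr {f f' : X → ℝ} (h : f = f') (hf : C.Ck ∞ f) (hf' : C.Ck ∞ f') :
    S.cC f hf = S.cC f' hf' := by
  subst h; rfl

omit [T2Space X] in
theorem mC_vC {f : X → ℝ} (hf : C.Ck ∞ f) (φ : Core S) :
    S.vC (S.mC f hf φ) = S.mC f hf (S.vC φ) := by
  refine Subtype.ext ?_
  funext γ i y
  exact map_smul K.vol _ _

omit [T2Space X] in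
theorem tC_vC (γ₀ : Γ) (φ : Core S) : S.tC γ₀ (S.vC φ) = S.vC (S.tC γ₀ φ) := by
  refine Subtype.ext ?_
  funext γ i y
  exact (map_smul K.vol _ _).symm

theorem cC_eq {f : X → ℝ} (hf : C.Ck ∞ f) (φ : Core S) :
    S.cC f hf φ = S.DC (S.mC f hf φ) - S.mC f hf (S.DC φ) := by
  rw [S.DC_mC, add_sub_cancel_left]

theorem tC_cC (γ₀ : Γ) {f : X → ℝ} (hf : C.Ck ∞ f) (φ : Core S) :
    S.tC γ₀ (S.cC f hf φ) = S.cC (fun x => f (γ₀⁻¹ • x)) (Ck_smul C hf γ₀⁻¹) (S.tC γ₀ φ) := by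
  rw [cC_eq, cC_eq, map_sub, ← S.DC_tC, S.tC_mC, S.tC_mC, S.DC_tC]

variable [FiniteDimensional ℂ V]

theorem vC_cC (hL : SpecLocal) {f : X → ℝ} (hf : C.Ck ∞ f) (φ : Core S) :
    S.vC (S.cC f hf φ) = (-1 : ℂ) ^ (n + 1) • S.cC f hf (S.vC φ) := by
  refine Subtype.ext ?_
  funext γ i y
  obtain ⟨-, -, -, -, h, -⟩ := hL n V K (G i) (S.β i) (S.met.smooth i) (S.met.pos i) (S.fr i)
  exact (h (C.rep f γ i) y ((φ : Raw Γ I n V) γ i y) 0).2.2

theorem DC_vC (hL : SpecLocal) (φ : Core S) :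
    S.DC (S.vC φ) = (-1 : ℂ) ^ (n + 1) • S.vC (S.DC φ) := by
  refine Subtype.ext ?_
  funext γ i y
  obtain ⟨-, -, -, h, -⟩ := hL n V K (G i) (S.β i) (S.met.smooth i) (S.met.pos i) (S.fr i)
  exact h _ (φ.2.smooth γ i) y

end core

theorem alg (hL : SpecLocal) (hD : SpecDense) : SpecAlg := by
  intro n M X Γ I V H _ _ _ _ _ _ _ _ _ _ _ _ _ _ _ _ c ι _ P a h W g p m hn hm hO hR
  obtain ⟨sp, sm, h1, h2, h3, h4, hg, hp⟩ := hR.ex
  have hm0 : m ≠ 0 := hm.ne'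
  have hmc : (m : ℂ) ≠ 0 := by exact_mod_cast hm0
  obtain ⟨s1, s2⟩ := res_sum hD hm0 h1 h2
  have hg' : g = (1 / (2 * m) : ℂ) • (sp + sm) := by rw [hg]; push_cast; rfl
  obtain ⟨r1, r2⟩ := sp_eq hmc hg' hp
  obtain ⟨gp, pp, -, -⟩ := alg1 hmc hg' hp s1 s2
  have hk : ∀ l, c.C.Ck ∞ (P.fn l) := fun l => H391.ck_fn hO.sm l
  have hae : ∀ l φ, a l (c.E.e φ) = c.E.e (c.S.mC (P.fn l) (hk l) φ) := fun l φ => hO.a_e l _ φ
  have hhe : ∀ l φ, h l (c.E.e φ) = c.E.e (c.S.cC (P.fn l) (hk l) φ) := fun l φ => hO.h_e l _ φ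
  have hGa : ∀ l φ, Gr c.E (a l (c.E.e φ)) (a l (c.E.e (c.S.DC φ)) + h l (c.E.e φ)) := by
    intro l φ
    rw [hae, hae, hhe, ← map_add, ← c.S.DC_mC]
    exact Gr.core _ _
  have hcomm : ∀ l, a l * sp - sp * a l = sp * h l * sp ∧ a l * sm - sm * a l =
      -(sm * h l * sm) := fun l => res_comm hD hm0 h1 h2 (hGa l)
  have halg := fun l => alg2 hmc hg' hp s1 s2 (hcomm l).1 (hcomm l).2
  have hfn : ∀ (γ : Γ) (l : Γ × ι), (fun x => P.fn l (γ⁻¹ • x)) = P.fn (γ * l.1, l.2) := by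
    intro γ l
    funext x
    unfold PUX.fn
    rw [mul_inv_rev, mul_smul]
  -- translations
  have hτ : ∀ γ : Γ, ∃ τ : H →L[ℂ] H, ∀ φ, τ (c.E.e φ) = c.E.e (c.S.tC γ φ) := fun γ => by
    obtain ⟨T, hT, -⟩ := c.E.ext_op (c.E.e ∘ₗ (c.S.tC γ).toLinearMap) (c := 1) fun φ => by
      have e1 : ‖c.E.e (c.S.tC γ φ)‖ ^ 2 = ‖c.E.e φ‖ ^ 2 := by
        have e2 := c.E.ip (c.S.tC γ φ) (c.S.tC γ φ)
        rw [ipr_tC c.vol, ← c.E.ip, inner_self_eq_norm_sq_to_K, inner_self_eq_norm_sq_to_K] at e2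
        exact_mod_cast e2
      rw [one_mul]
      exact le_of_eq ((sq_eq_sq₀ (norm_nonneg _) (norm_nonneg _)).1 e1)
    exact ⟨T, hT⟩
  choose τ hτ using hτ
  have hτ' : ∀ γ : Γ, ∃ τ' : H →L[ℂ] H, ∀ φ, τ' (c.E.e φ) = c.E.e ((c.S.tC γ).symm φ) := fun γ => by
    obtain ⟨T, hT, -⟩ := c.E.ext_op (c.E.e ∘ₗ (c.S.tC γ).symm.toLinearMap) (c := 1) fun φ => by
      have e1 : ‖c.E.e ((c.S.tC γ).symm φ)‖ ^ 2 = ‖c.E.e φ‖ ^ 2 := by
        have e2 := c.E.ip ((c.S.tC γ).symm φ) ((c.S.tC γ).symm φ)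
        rw [← ipr_tC c.vol γ, LinearEquiv.apply_symm_apply, ← c.E.ip,
          inner_self_eq_norm_sq_to_K, inner_self_eq_norm_sq_to_K] at e2
        exact_mod_cast e2
      rw [one_mul]
      exact le_of_eq ((sq_eq_sq₀ (norm_nonneg _) (norm_nonneg _)).1 e1)
    exact ⟨T, hT⟩
  choose τ' hτ' using hτ'
  have hGτ : ∀ γ φ, Gr c.E (τ γ (c.E.e φ)) (τ γ (c.E.e (c.S.DC φ)) +
      (0 : H →L[ℂ] H) (c.E.e φ)) := by
    intro γ φ
    rw [hτ, hτ, zero_apply, add_zero, ← c.S.DC_tC]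
    exact Gr.core _ _
  have hτc := fun γ => res_comm hD hm0 h1 h2 (hGτ γ)
  have hτsp : ∀ γ, τ γ * sp = sp * τ γ := fun γ => by
    have := (hτc γ).1
    rw [mul_zero, zero_mul] at this
    exact sub_eq_zero.1 this
  have hτsm : ∀ γ, τ γ * sm = sm * τ γ := fun γ => by
    have := (hτc γ).2
    rw [mul_zero, zero_mul, neg_zero] at this
    exact sub_eq_zero.1 this
  -- the volume element
  have hW : W * g = g * W ∧ W * p = (-1 : ℂ) ^ (n + 1) • (p * W) := by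
    rcases neg_one_pow_eq_or ℂ (n + 1) with he | he
    · have hGW : ∀ φ, Gr c.E (W (c.E.e φ)) (W (c.E.e (c.S.DC φ)) +
          (0 : H →L[ℂ] H) (c.E.e φ)) := by
        intro φ
        have e := DC_vC hL (S := c.S) φ
        rw [he, one_smul] at e
        rw [hO.W_e, hO.W_e, zero_apply, add_zero, ← e]
        exact Gr.core _ _
      obtain ⟨w1, w2⟩ := res_comm hD hm0 h1 h2 hGW
      rw [mul_zero, zero_mul] at w1
      rw [mul_zero, zero_mul, neg_zero] at w2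
      have w1 := sub_eq_zero.1 w1
      have w2 := sub_eq_zero.1 w2
      rw [he, one_smul, hg', hp]
      constructor
      · rw [mul_smul_comm, smul_mul_assoc, mul_add, add_mul, w1, w2]
      · rw [mul_smul_comm, smul_mul_assoc, mul_sub, sub_mul, w1, w2]
    · have hGW : ∀ φ, Gr c.E (W (c.E.e φ)) (-W (c.E.e (c.S.DC φ))) := by
        intro φ
        have e : c.S.DC (c.S.vC φ) = -c.S.vC (c.S.DC φ) :=
          (DC_vC hL (S := c.S) φ).trans (by
            rw [he]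
            exact neg_one_smul ℂ (M := Core c.S) (c.S.vC (c.S.DC φ)))
        rw [hO.W_e, hO.W_e, ← map_neg, ← e]
        exact Gr.core _ _
      obtain ⟨w1, w2⟩ := res_anti hD hm0 h1 h2 hGW
      rw [he, neg_smul, one_smul, hg', hp]
      constructor
      · rw [mul_smul_comm, smul_mul_assoc, mul_add, add_mul, w1, w2, add_comm]
      · rw [mul_smul_comm, smul_mul_assoc, mul_sub, sub_mul, w1, w2, ← smul_neg, neg_sub]
  obtain ⟨B, hB⟩ := hO.bda c.E hL c.vol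
  refine ⟨fun l k => ?_, fun l k => ?_, gp, pp, fun l => (halg l).1, fun l => (halg l).2.1,
    fun l => (halg l).2.2, fun l => ?_, fun l => ?_, hW.1, hW.2, ?_, fun x => ?_, fun x => ?_,
    B, hB⟩
  · refine c.E.ext_eq fun φ => ?_
    simp only [mul_apply_eq_comp, hae]
    rw [mC_comm]
  · refine c.E.ext_eq fun φ => ?_
    simp only [mul_apply_eq_comp, hae, hhe]
    rw [mC_cC]
  · refine c.E.ext_eq fun φ => ?_
    simp only [mul_apply_eq_comp, hae, hO.W_e]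
    rw [mC_vC]
  · refine c.E.ext_eq fun φ => ?_
    simp only [mul_apply_eq_comp, hhe, hO.W_e, smul_apply]
    rw [vC_cC hL, map_smul]
  · refine ⟨τ, τ', fun γ => ⟨?_, ?_⟩, fun γ x y => ?_, fun γ l => ?_, fun γ l => ?_, fun γ =>
      ⟨?_, ?_, ?_⟩⟩
    · refine c.E.ext_eq fun φ => ?_
      simp only [mul_apply_eq_comp, hτ, hτ', LinearEquiv.apply_symm_apply,
        one_apply_eq_self]
    · refine c.E.ext_eq fun φ => ?_
      simp only [mul_apply_eq_comp, hτ, hτ', LinearEquiv.symm_apply_apply,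
        one_apply_eq_self]
    · have hx : ∀ y, (fun x => ⟪τ γ x, τ γ y⟫_ℂ) = fun x => ⟪x, y⟫_ℂ := by
        intro y
        refine c.E.dense.equalizer ((τ γ).continuous.inner continuous_const)
          (continuous_id.inner continuous_const) (funext fun φ => ?_)
        have hy : (fun y => ⟪τ γ (c.E.e φ), τ γ y⟫_ℂ) = fun y => ⟪c.E.e φ, y⟫_ℂ := by
          refine c.E.dense.equalizer (continuous_const.inner (τ γ).continuous)
            (continuous_const.inner continuous_id) (funext fun ψ => ?_)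
          simp only [Function.comp_apply, hτ, c.E.ip]
          exact ipr_tC c.vol γ φ ψ
        exact congrFun hy y
      exact congrFun (hx y) x
    · refine c.E.ext_eq fun φ => ?_
      simp only [mul_apply_eq_comp, hae, hτ]
      rw [c.S.tC_mC, mC_congr (S := c.S) (hfn γ l) _ (hk _)]
    · refine c.E.ext_eq fun φ => ?_
      simp only [mul_apply_eq_comp, hhe, hτ]
      rw [tC_cC, cC_congr (S := c.S) (hfn γ l) _ (hk _)]
    · rw [hg', mul_smul_comm, smul_mul_assoc, mul_add, add_mul, hτsp, hτsm]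
    · rw [hp, mul_smul_comm, smul_mul_assoc, mul_sub, sub_mul, hτsp, hτsm]
    · refine c.E.ext_eq fun φ => ?_
      simp only [mul_apply_eq_comp, hO.W_e, hτ]
      rw [tC_vC]
  · refine hasSum_of_dense (A := a) (S' := 1) (fun T x => (hB T x).1) c.E.dense (fun φ => ?_) x
    simp only [hae]
    exact hasSum_mC hO.sm c.E φ
  · have := hasSum_of_dense (A := h) (S' := 0) (fun T x => (hB T x).2) c.E.dense (fun φ => ?_) x
    · simpa using this
    · simp only [hhe]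
      exact hasSum_cC hO.sm c.E φ

end Vale.Agent.P223.H566
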