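import Vale.Agent.P223.H566.SobR3
import Vale.Agent.P223.H566.Chd

/-! Geodesic flows: facts on the shell and the chords. -/

namespace Vale.Agent.P223.H566.ChdG

open MeasureTheory Set
open Vale.Agent.P223.H765.NC
open scoped ENNReal NNReal ContDiff

variable {n : ℕ} {G : J.Mtx n} {Φ : ℝ → J.E n × J.E n → J.E n × J.E n}

theorem cd_ham (hs : ∀ i j, ContDiff ℝ ∞ fun x => G x i j) (hp : ∀ x, (G x).PosDef) :
    ContDiff ℝ ∞ (ham G) := by
  unfold ham
  refine contDiff_const.mul (ContDiff.sum fun i _ => ContDiff.sum fun j _ => ?_)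
  refine ContDiff.mul (ContDiff.mul ?_ ?_) ?_
  · exact (X.X3.contDiff_inv hs (fun x => (hp x).det_pos.ne') i j).comp contDiff_fst
  · exact (contDiff_apply ℝ ℝ i).comp contDiff_snd
  · exact (contDiff_apply ℝ ℝ j).comp contDiff_snd

theorem pd_ham (hs : ∀ i j, ContDiff ℝ ∞ fun x => G x i j) (hp : ∀ x, (G x).PosDef)
    (z : J.E n × J.E n) (k : Fin n) : J.pd k (fun q => ham G (q, z.2)) z.1 =
      fderiv ℝ (ham G) z (Pi.single k 1, 0) := by
  unfold J.pd
  have h1 : HasFDerivAt (fun q : J.E n => (q, z.2)) (ContinuousLinearMap.inl ℝ (J.E n) (J.E n))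
      z.1 := hasFDerivAt_prodMk_left z.1 z.2
  have h2 : HasFDerivAt (ham G) (fderiv ℝ (ham G) z) (z.1, z.2) :=
    ((cd_ham hs hp).differentiable (by simp) z).hasFDerivAt
  have h3 := h2.comp z.1 h1
  have h4 : fderiv ℝ (fun q => ham G (q, z.2)) z.1 =
      (fderiv ℝ (ham G) z).comp (ContinuousLinearMap.inl ℝ (J.E n) (J.E n)) := h3.fderiv
  rw [h4]
  rfl

/-- the vector field is smooth -/
theorem cd_hv (hs : ∀ i j, ContDiff ℝ ∞ fun x => G x i j) (hp : ∀ x, (G x).PosDef) :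
    ContDiff ℝ ∞ (hv G) := by
  unfold hv
  refine ContDiff.prodMk ?_ ?_
  · refine contDiff_pi.2 fun i => ContDiff.sum fun j _ => ContDiff.mul ?_ ?_
    · exact (X.X3.contDiff_inv hs (fun x => (hp x).det_pos.ne') i j).comp contDiff_fst
    · exact (contDiff_apply ℝ ℝ j).comp contDiff_snd
  · refine contDiff_pi.2 fun k => ?_
    simp only [pd_ham hs hp]
    refine ContDiff.neg ?_
    exact ((cd_ham hs hp).fderiv_right (m := ∞) (by simp)).clm_apply contDiff_const

theorem meas_shl (hs : ∀ i j, ContDiff ℝ ∞ fun x => G x i j) (hp : ∀ x, (G x).PosDef) :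
    MeasurableSet (shl G) := by
  have h := (cd_ham hs hp).continuous
  exact (measurableSet_lt measurable_const (continuous_const.mul h).measurable).inter
    (measurableSet_le (continuous_const.mul h).measurable measurable_const)

theorem shl_inv (hE : ∀ t z, ham G (Φ t z) = ham G z) (t : ℝ) (z : J.E n × J.E n) :
    Φ t z ∈ shl G ↔ z ∈ shl G := by
  simp only [shl, mem_ofPred_eq, hE]

theorem ne_of_shl {z : J.E n × J.E n} (hz : z ∈ shl G) : z.2 ≠ 0 := by
  intro h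
  have h1 : ham G z = 0 := by simp [ham, h]
  have h2 := hz.1
  rw [h1] at h2
  norm_num at h2

theorem isOpen_fst {Ω : Set (J.E n)} (hΩ : IsOpen Ω) :
    IsOpen (Prod.fst ⁻¹' Ω : Set (J.E n × J.E n)) := hΩ.preimage continuous_fst

/-- the length of the chord is finite -/
theorem len_fin (hG : Geo G Φ) {Ω : Set (J.E n)} (hb : Bornology.IsBounded Ω)
    {z : J.E n × J.E n} (hz : z.2 ≠ 0) : Chd.len Φ (Prod.fst ⁻¹' Ω) z ≠ ⊤ := by
  obtain ⟨R, hR⟩ := hG.proper z hz (closure Ω) hb.isCompact_closure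
  have h1 : Chd.chord Φ (Prod.fst ⁻¹' Ω) z ⊆ Icc (-|R|) |R| := by
    intro s hs
    by_contra h
    have h2 : |R| < |s| := by
      by_contra h3
      push Not at h3
      exact h (abs_le.1 h3)
    exact hR s ((le_abs_self R).trans h2.le) (subset_closure (Chd.end_mem hs))
  refine ne_top_of_le_ne_top ?_ (measure_mono h1)
  rw [Real.volume_Icc]
  exact ENNReal.ofReal_ne_top

theorem len_eq (h0 : ∀ z, Φ 0 z = z) (Ω : Set (J.E n)) (z : J.E n × J.E n) :
    len Φ Ω z = Chd.len Φ (Prod.fst ⁻¹' Ω) z := by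
  unfold len Chd.len
  rw [← Chd.comp_eq h0]
  rfl

/-- continuity of the flow -/
theorem cont_flow (hF : SpecFlow) (hG : Geo G Φ) : Continuous fun q : ℝ × (J.E n × J.E n) =>
    Φ q.1 q.2 :=
  (hF _ (hv G) Φ (cd_hv hG.smooth hG.pos) hG.zero hG.flow).1.continuous

theorem add_flow (hF : SpecFlow) (hG : Geo G Φ) (s t : ℝ) (z : J.E n × J.E n) :
    Φ (s + t) z = Φ s (Φ t z) :=
  (hF _ (hv G) Φ (cd_hv hG.smooth hG.pos) hG.zero hG.flow).2.1 s t z

/-- averaging along the chords, for geodesic flows -/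
theorem avg (hF : SpecFlow) (hL : SpecLiou) (hG : Geo G Φ) {Ω : Set (J.E n)} (hΩ : IsOpen Ω)
    (hb : Bornology.IsBounded Ω) {H : J.E n × J.E n → ℝ≥0∞} (hH : Measurable H) :
    ∫⁻ z in shl G ∩ Prod.fst ⁻¹' Ω, (Chd.len Φ (Prod.fst ⁻¹' Ω) z)⁻¹ *
      ∫⁻ s in Chd.chord Φ (Prod.fst ⁻¹' Ω) z, H (Φ s z) =
      ∫⁻ z in shl G ∩ Prod.fst ⁻¹' Ω, H z := by
  obtain ⟨h1, h2, -, -⟩ := hL n G Φ hG
  exact Chd.avg (μ := volume) (cont_flow hF hG) hG.zero (add_flow hF hG) h1 (isOpen_fst hΩ)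
    (meas_shl hG.smooth hG.pos) (shl_inv h2) (fun z hz => len_fin hG hb (ne_of_shl hz.1)) hH

end Vale.Agent.P223.H566.ChdG
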