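import Vale.Agent.P223.H566.Alg2

/-! `SpecDec` from `SpecDecA` and `SpecNuc`. -/

namespace Vale.Agent.P223.H566

open scoped ContDiff InnerProductSpace Topology
open MeasureTheory Vale.Agent.P223.H Vale.Agent.P223.X

section cut
variable {n : ℕ} {M X Γ I : Type} [TopologicalSpace M] [TopologicalSpace X] [Group Γ]
    [MulAction Γ X] (C : Cov n M X Γ I) [Fintype I] [T2Space X]

/-- smooth cutoff functions -/
theorem exists_cut {B : Set X} (hB : IsCompact B) : ∃ κ : X → ℝ, C.Ck ∞ κ ∧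
    HasCompactSupport κ ∧ (∀ x, 0 ≤ κ x) ∧ (∀ x, κ x ≤ 1) ∧ ∀ x ∈ B, κ x = 1 := by
  classical
  obtain ⟨χ, hχ⟩ := PartX.main n M X Γ I C
  obtain ⟨F, hF⟩ := exists_F (C := C) hχ hB
  refine ⟨fun x => ∑ i, ∑ γ ∈ F, IBPX.th C χ γ i x, fun γ' j => ?_, ?_,
    fun x => IBPX.sum_th_nonneg hχ x F, fun x => IBPX.sum_th_le hχ x F, hF⟩
  · exact ContDiff.sum fun i _ => ContDiff.sum fun γ _ => IBPX.Ck_th hχ γ i γ' j
  · have hK : IsCompact (⋃ γ ∈ F, (fun x => γ⁻¹ • x) '' (⋃ i, C.ψ i '' {y : E n | ‖y‖ ≤ 2})) :=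
      F.isCompact_biUnion fun γ _ => (isCompact_core C 2).image (C.cont γ⁻¹)
    refine HasCompactSupport.intro hK fun x hx => ?_
    refine Finset.sum_eq_zero fun i _ => Finset.sum_eq_zero fun γ hγ => ?_
    by_contra h
    obtain ⟨y, hy, hy'⟩ := IBPX.th_ne_zero hχ h
    apply hx
    refine Set.mem_biUnion hγ ⟨γ • x, ?_, inv_smul_smul _ _⟩
    rw [hy']
    exact Set.mem_iUnion.2 ⟨i, y, hy, rfl⟩

end cut

theorem Nuc.mono {H : Type} [NormedAddCommGroup H] [InnerProductSpace ℂ H]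
    [CompleteSpace H] {T : H →L[ℂ] H} {b b' : ℝ} (h : Nuc T b) (hb : b ≤ b') : Nuc T b' := by
  obtain ⟨α, i, ν, u, v, h1, h2, h3, h4, h5⟩ := h
  exact ⟨α, i, ν, u, v, h1, h2, h3, h4.trans hb, h5⟩

theorem dec (hL : SpecLocal) (hA : SpecDecA) (hN : SpecNuc) : SpecDec := by
  intro n M X Γ I V H _ _ _ _ _ _ _ _ _ _ _ _ _ _ _ _ c ι _ P a h W hn hO
  choose κ h1 h2 h3 h4 h5 using fun i : ι => exists_cut c.C (P.supp i)
  have hcut : Cut c.C κ := ⟨h1, h2, h3, h4⟩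
  obtain ⟨k, w, A, m₀, hk, hk1, hm, hw, hws, hdec⟩ := hA n M X Γ I V H c ι κ hn hcut
  obtain ⟨w', A', m₀', hm', hw', hws', hnuc⟩ := hN n M X Γ I V H c ι κ k hn hcut hk
  obtain ⟨B, hB⟩ := hO.bda c.E hL c.vol
  have hκ : ∀ l : Γ × ι, c.C.Ck ∞ (fun x => κ l.2 (l.1⁻¹ • x)) := fun l => Ck_smul c.C (h1 l.2) l.1⁻¹
  have hke : ∀ l φ, k l (c.E.e φ) = c.E.e (c.S.mC _ (hκ l) φ) := fun l φ => hk.k_e l (hκ l) φ
  have hae : ∀ l φ, a l (c.E.e φ) = c.E.e (c.S.mC (P.fn l) (H391.ck_fn hO.sm l) φ) :=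
    fun l φ => hO.a_e l _ φ
  have hhe : ∀ l φ, h l (c.E.e φ) = c.E.e (c.S.cC (P.fn l) (H391.ck_fn hO.sm l) φ) :=
    fun l φ => hO.h_e l _ φ
  have hκ1 : ∀ (l : Γ × ι) x, x ∈ tsupport (P.fn l) → κ l.2 (l.1⁻¹ • x) = 1 := by
    intro l x hx
    refine h5 l.2 _ ?_
    have hs : tsupport (P.fn l) ⊆ (fun x => l.1⁻¹ • x) ⁻¹' tsupport (P.φ l.2) := by
      refine closure_minimal (fun y hy => subset_tsupport _ hy) ?_
      exact (isClosed_tsupport _).preimage (c.C.cont l.1⁻¹)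
    exact hs hx
  have m1 : ∀ (l : Γ × ι) φ, c.S.mC _ (hκ l) (c.S.mC (P.fn l) (H391.ck_fn hO.sm l) φ) =
      c.S.mC (P.fn l) (H391.ck_fn hO.sm l) φ := by
    intro l φ
    refine Subtype.ext ?_
    funext γ i y
    change (κ l.2 (l.1⁻¹ • γ • c.C.ψ i y) : ℂ) • (P.fn l (γ • c.C.ψ i y) : ℂ) • _ =
      (P.fn l (γ • c.C.ψ i y) : ℂ) • _
    by_cases hx : γ • c.C.ψ i y ∈ tsupport (P.fn l)
    · rw [hκ1 l _ hx, Complex.ofReal_one, one_smul]
    · rw [image_eq_zero_of_notMem_tsupport hx, Complex.ofReal_zero, zero_smul, smul_zero]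
  have m2 : ∀ (l : Γ × ι) φ, c.S.mC _ (hκ l) (c.S.cC (P.fn l) (H391.ck_fn hO.sm l) φ) =
      c.S.cC (P.fn l) (H391.ck_fn hO.sm l) φ := by
    intro l φ
    refine Subtype.ext ?_
    funext γ i y
    change (κ l.2 (l.1⁻¹ • γ • c.C.ψ i y) : ℂ) • cdf c.K (c.S.β i) (c.C.rep (P.fn l) γ i) y _ =
      cdf c.K (c.S.β i) (c.C.rep (P.fn l) γ i) y _
    by_cases hx : γ • c.C.ψ i y ∈ tsupport (P.fn l)
    · rw [hκ1 l _ hx, Complex.ofReal_one, one_smul]
    · have e : c.C.rep (P.fn l) γ i =ᶠ[𝓝 y] fun _ => 0 := by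
        have h1 : P.fn l =ᶠ[𝓝 (γ • c.C.ψ i y)] fun _ => 0 :=
          notMem_tsupport_iff_eventuallyEq.1 hx
        exact (Bas3.chart_emb c.C γ i).continuous.continuousAt.eventually h1
      have e2 : cdf c.K (c.S.β i) (c.C.rep (P.fn l) γ i) y = 0 := by
        unfold cdf Vale.Agent.P223.H.pd
        rw [e.fderiv_eq]
        simp [rs]
      rw [e2, zero_apply, smul_zero]
  refine ⟨k, fun γ => w γ + w' γ, fun j => |A j| + |A' j| + |B|, max m₀ m₀',
    lt_of_lt_of_le one_pos (hm.trans (le_max_left _ _)), fun γ => add_nonneg (hw γ) (hw' γ),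
    hws.add hws', fun m hmm g p hR => ?_⟩
  have hm1 : m₀ ≤ m := (le_max_left _ _).trans hmm
  have hm2 : m₀' ≤ m := (le_max_right _ _).trans hmm
  have hm0 : 0 < m := lt_of_lt_of_le one_pos (hm.trans hm1)
  have hd := hdec m hm1 g p hR
  have hn' := hnuc m hm2 g p hR
  have key1 : ∀ j (r : ℝ) γ, A j * m ^ r * w γ ≤
      (|A j| + |A' j| + |B|) * m ^ r * (w γ + w' γ) := by
    intro j r γ
    have hr : 0 ≤ m ^ r := Real.rpow_nonneg hm0.le _
    have h6 : A j ≤ |A j| + |A' j| + |B| := by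
      have := le_abs_self (A j); have := abs_nonneg (A' j); have := abs_nonneg B; linarith
    calc A j * m ^ r * w γ ≤ (|A j| + |A' j| + |B|) * m ^ r * w γ :=
          mul_le_mul_of_nonneg_right (mul_le_mul_of_nonneg_right h6 hr) (hw γ)
      _ ≤ _ := mul_le_mul_of_nonneg_left (le_add_of_nonneg_right (hw' γ)) (by positivity)
  have key2 : ∀ j (r : ℝ) γ, A' j * m ^ r * w' γ ≤
      (|A j| + |A' j| + |B|) * m ^ r * (w γ + w' γ) := by
    intro j r γ
    have hr : 0 ≤ m ^ r := Real.rpow_nonneg hm0.le _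
    have h6 : A' j ≤ |A j| + |A' j| + |B| := by
      have := le_abs_self (A' j); have := abs_nonneg (A j); have := abs_nonneg B; linarith
    calc A' j * m ^ r * w' γ ≤ (|A j| + |A' j| + |B|) * m ^ r * w' γ :=
          mul_le_mul_of_nonneg_right (mul_le_mul_of_nonneg_right h6 hr) (hw' γ)
      _ ≤ _ := mul_le_mul_of_nonneg_left (le_add_of_nonneg_left (hw γ)) (by positivity)
  refine ⟨fun l => ⟨?_, ?_⟩, fun l => ⟨?_, ?_⟩, hk1, fun l => ⟨?_, ?_⟩, fun j l l' => ?_,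
    fun j l l' => ?_, fun j hj l l' => ?_, fun j hj l l' => ?_⟩
  · refine c.E.ext_eq fun φ => ?_
    rw [mul_apply_eq_comp, hae, hke, m1]
  · refine c.E.ext_eq fun φ => ?_
    rw [mul_apply_eq_comp, hke, hae, hae, mC_comm, m1]
  · refine c.E.ext_eq fun φ => ?_
    rw [mul_apply_eq_comp, hhe, hke, m2]
  · refine c.E.ext_eq fun φ => ?_
    rw [mul_apply_eq_comp, hke, hhe, hhe, ← mC_cC, m2]
  · refine (a l).opNorm_le_bound (by positivity) fun x => ?_
    have := (hB {l} x).1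
    rw [Finset.sum_singleton] at this
    refine this.trans (mul_le_mul_of_nonneg_right ?_ (norm_nonneg _))
    have := le_abs_self B; have := abs_nonneg (A 0); have := abs_nonneg (A' 0); linarith
  · refine (h l).opNorm_le_bound (by positivity) fun x => ?_
    have := (hB {l} x).2
    rw [Finset.sum_singleton] at this
    refine this.trans (mul_le_mul_of_nonneg_right ?_ (norm_nonneg _))
    have := le_abs_self B; have := abs_nonneg (A 0); have := abs_nonneg (A' 0); linarith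
  · exact (hd j l l').1.trans (key1 _ _ _)
  · exact (hd j l l').2.trans (key1 _ _ _)
  · exact (hn' j hj l l').1.mono (key2 _ _ _)
  · exact (hn' j hj l l').2.mono (key2 _ _ _)

end Vale.Agent.P223.H566
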