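import Vale.Agent.P223.X.SpecY
import Mathlib.Analysis.InnerProductSpace.Adjoint

/-! Dirac operator on the universal covering: definitions. -/

namespace Vale.Agent.P223.H566

open scoped ContDiff InnerProductSpace
open MeasureTheory Vale.Agent.P223.H Vale.Agent.P223.X

section lin
variable {n : ℕ} {V : Type} [NormedAddCommGroup V] [InnerProductSpace ℂ V]

/-- Clifford multiplication by the standard basis: symmetric, `c_a c_b + c_b c_a = 2 δ_ab`. -/
structure Cliff (n : ℕ) (V : Type) [NormedAddCommGroup V] [InnerProductSpace ℂ V] where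
  c : Fin n → V →L[ℂ] V
  symm : ∀ a v w, ⟪c a v, w⟫_ℂ = ⟪v, c a w⟫_ℂ
  rel : ∀ a b, c a * c b + c b * c a = if a = b then 2 else 0

/-- `c_{n-1} ⋯ c_0` -/
noncomputable def Cliff.vol (K : Cliff n V) : V →L[ℂ] V := (List.ofFn K.c).reverse.prod

/-- real scalars -/
noncomputable def rs (r : ℝ) (A : V →L[ℂ] V) : V →L[ℂ] V := (r : ℂ) • A

variable (K : Cliff n V) (G β : E n → Matrix (Fin n) (Fin n) ℝ)

/-- Clifford multiplication by `dx^k` -/
noncomputable def cl (y : E n) (k : Fin n) : V →L[ℂ] V := ∑ a, rs (β y a k) (K.c a)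

/-- Clifford multiplication by `df` -/
noncomputable def cdf (f : E n → ℝ) (y : E n) : V →L[ℂ] V := ∑ k, rs (pd k f y) (cl K β y k)

/-- connection form: `g(∇_k e_b, e_a)` for the frame `e_b = ∑ β_bl ∂_l` -/
noncomputable def om (y : E n) (k a b : Fin n) : ℝ :=
  ∑ m, (∑ p, β y a p * G y p m) * (pd k (fun z => β z b m) y + ∑ l, chr G y m k l * β y b l)

/-- spin connection -/
noncomputable def spc (y : E n) (k : Fin n) : V →L[ℂ] V :=
  ∑ a, ∑ b, rs (om G β y k a b / 4) (K.c a * K.c b)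

/-- covariant derivative -/
noncomputable def nab (k : Fin n) (φ : E n → V) (y : E n) : V :=
  fderiv ℝ φ y (Pi.single k 1) + spc K G β y k (φ y)

/-- Dirac operator -/
noncomputable def dir (φ : E n → V) (y : E n) : V := ∑ k, cl K β y k (nab K G β k φ y)

/-- `|∇φ|²` -/
noncomputable def nsq (φ : E n → V) (y : E n) : ℝ :=
  ∑ k, ∑ l, (G y)⁻¹ k l * (⟪nab K G β k φ y, nab K G β l φ y⟫_ℂ).re

/-- smooth oriented orthonormal frames `e_a = ∑ β_ak ∂_k` -/
structure Fr (G β : E n → Matrix (Fin n) (Fin n) ℝ) : Prop where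
  smooth : ∀ a k, ContDiff ℝ ∞ (fun y => β y a k)
  orth : ∀ y, β y * G y * (β y).transpose = 1
  pos : ∀ y, 0 < (β y).det

end lin

section glob
variable {n : ℕ} {M X Γ I : Type} [TopologicalSpace M] [TopologicalSpace X] [Group Γ]
    [MulAction Γ X] {V : Type} [NormedAddCommGroup V] [InnerProductSpace ℂ V]

/-- Jacobian matrix of the coordinate change -/
noncomputable def Jc (C : Cov n M X Γ I) (i j : I) (γ : Γ) (y : E n) (l k : Fin n) : ℝ :=
  fderiv ℝ (C.tr i j γ) y (Pi.single k 1) l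

/-- Spinor bundle of the covering: orthonormal frames `β i` in the charts `γ • ψ i` and transition
functions `T γ i γ' j` (from the chart `γ • ψ i` to the chart `γ' • ψ j`, in the coordinates of the
first chart), compatible with Clifford multiplication and spin connection, and equivariant up to
signs. -/
structure SpX (C : Cov n M X Γ I) (G : I → E n → Matrix (Fin n) (Fin n) ℝ) (K : Cliff n V) where
  met : MetX C G
  β : I → E n → Matrix (Fin n) (Fin n) ℝ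
  fr : ∀ i, Fr (G i) (β i)
  T : Γ → I → Γ → I → E n → V →L[ℂ] V
  sg : Γ → Γ → ℂ
  sg_sq : ∀ a b, sg a b * sg a b = 1
  smooth : ∀ γ i γ' j, ContDiffOn ℝ ∞ (T γ i γ' j) (C.dom i j (γ'⁻¹ * γ))
  unit : ∀ γ i γ' j, ∀ y ∈ C.dom i j (γ'⁻¹ * γ), ∀ v w,
    ⟪T γ i γ' j y v, T γ i γ' j y w⟫_ℂ = ⟪v, w⟫_ℂ
  vol : ∀ γ i γ' j, ∀ y ∈ C.dom i j (γ'⁻¹ * γ), T γ i γ' j y * K.vol = K.vol * T γ i γ' j y
  cliff : ∀ γ i γ' j, ∀ y ∈ C.dom i j (γ'⁻¹ * γ), ∀ l,
    T γ i γ' j y * ∑ k, rs (Jc C i j (γ'⁻¹ * γ) y l k) (cl K (β i) y k) =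
      cl K (β j) (C.tr i j (γ'⁻¹ * γ) y) l * T γ i γ' j y
  conn : ∀ γ i γ' j, ∀ y ∈ C.dom i j (γ'⁻¹ * γ), ∀ k, fderiv ℝ (T γ i γ' j) y (Pi.single k 1) =
    T γ i γ' j y * spc K (G i) (β i) y k -
      (∑ l, rs (Jc C i j (γ'⁻¹ * γ) y l k) (spc K (G j) (β j) (C.tr i j (γ'⁻¹ * γ) y) l)) *
        T γ i γ' j y
  coc : ∀ γ i γ' j γ'' k y, y ∈ C.dom i j (γ'⁻¹ * γ) →
    C.tr i j (γ'⁻¹ * γ) y ∈ C.dom j k (γ''⁻¹ * γ') →
    T γ' j γ'' k (C.tr i j (γ'⁻¹ * γ) y) * T γ i γ' j y = T γ i γ'' k y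
  one : ∀ γ i y, T γ i γ i y = 1
  equi : ∀ g γ i γ' j, ∀ y ∈ C.dom i j (γ'⁻¹ * γ),
    T (g * γ) i (g * γ') j y = (sg g γ * sg g γ') • T γ i γ' j y

/-- a family of functions in the charts `γ • ψ i` -/
abbrev Raw (Γ I : Type) (n : ℕ) (V : Type) := Γ → I → E n → V

variable {C : Cov n M X Γ I} {G : I → E n → Matrix (Fin n) (Fin n) ℝ} {K : Cliff n V}

/-- compactly supported smooth spinor fields on `X` -/
structure IsCore (S : SpX C G K) (φ : Raw Γ I n V) : Prop where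
  smooth : ∀ γ i, ContDiff ℝ ∞ (φ γ i)
  compat : ∀ γ γ' i j y y', γ • C.ψ i y = γ' • C.ψ j y' →
    φ γ' j y' = S.T γ i γ' j y (φ γ i y)
  supp : ∃ B : Set X, IsCompact B ∧ ∀ γ i y, γ • C.ψ i y ∉ B → φ γ i y = 0

/-- pointwise hermitian product, a function on `X` -/
noncomputable def hp (C : Cov n M X Γ I) (φ ψ : Raw Γ I n V) (x : X) : ℂ :=
  ⟪φ (C.pg x) (C.pi x) (C.py x), ψ (C.pg x) (C.pi x) (C.py x)⟫_ℂ

/-- pointwise norm -/
noncomputable def nm (C : Cov n M X Γ I) (φ : Raw Γ I n V) (x : X) : ℝ :=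
  ‖φ (C.pg x) (C.pi x) (C.py x)‖

/-- the hermitian product in `L²` -/
noncomputable def ipr [MeasurableSpace X] (C : Cov n M X Γ I) (μ : Measure X)
    (φ ψ : Raw Γ I n V) : ℂ := ∫ x, hp C φ ψ x ∂μ

/-- Dirac operator -/
noncomputable def SpX.D (S : SpX C G K) (φ : Raw Γ I n V) : Raw Γ I n V :=
  fun γ i y => dir K (G i) (S.β i) (φ γ i) y

/-- multiplication by a function -/
noncomputable def mulR (C : Cov n M X Γ I) (f : X → ℝ) (φ : Raw Γ I n V) : Raw Γ I n V :=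
  fun γ i y => (f (γ • C.ψ i y) : ℂ) • φ γ i y

/-- Clifford multiplication by `df` -/
noncomputable def SpX.clR (S : SpX C G K) (f : X → ℝ) (φ : Raw Γ I n V) : Raw Γ I n V :=
  fun γ i y => cdf K (S.β i) (C.rep f γ i) y (φ γ i y)

/-- the volume element -/
noncomputable def volR (K : Cliff n V) (φ : Raw Γ I n V) : Raw Γ I n V :=
  fun γ i y => K.vol (φ γ i y)

/-- translation -/
noncomputable def SpX.trR (S : SpX C G K) (γ₀ : Γ) (φ : Raw Γ I n V) : Raw Γ I n V :=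
  fun γ i y => S.sg γ₀ (γ₀⁻¹ * γ) • φ (γ₀⁻¹ * γ) i y

/-- inverse of the translation -/
noncomputable def SpX.trR' (S : SpX C G K) (γ₀ : Γ) (φ : Raw Γ I n V) : Raw Γ I n V :=
  fun γ i y => S.sg γ₀ γ • φ (γ₀ * γ) i y

open Classical in
/-- section supported in the chart `γ₀ • ψ i₀` -/
noncomputable def SpX.loc (S : SpX C G K) (γ₀ : Γ) (i₀ : I) (b : E n → V) : Raw Γ I n V :=
  fun γ j y => if γ • C.ψ j y ∈ Set.range (fun z => γ₀ • C.ψ i₀ z) then
    S.T γ₀ i₀ γ j (C.co i₀ (γ₀⁻¹ • γ • C.ψ j y)) (b (C.co i₀ (γ₀⁻¹ • γ • C.ψ j y))) else 0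

/-- the space of compactly supported smooth spinor fields -/
def Core (S : SpX C G K) : Submodule ℂ (Raw Γ I n V) where
  carrier := {φ | IsCore S φ}
  add_mem' := by
    rintro φ ψ ⟨h1, h2, B, hB, h3⟩ ⟨k1, k2, B', hB', k3⟩
    refine ⟨fun γ i => (h1 γ i).add (k1 γ i), fun γ γ' i j y y' h => ?_, B ∪ B', hB.union hB', ?_⟩
    · change φ γ' j y' + ψ γ' j y' = _
      rw [h2 γ γ' i j y y' h, k2 γ γ' i j y y' h]
      exact (map_add _ _ _).symm
    · intro γ i y h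
      change φ γ i y + ψ γ i y = 0
      rw [h3 γ i y fun h' => h (Or.inl h'), k3 γ i y fun h' => h (Or.inr h'), add_zero]
  zero_mem' := ⟨fun _ _ => contDiff_const, fun γ γ' i j y y' _ => (map_zero _).symm, ∅,
    isCompact_empty, fun _ _ _ _ => rfl⟩
  smul_mem' := by
    rintro c φ ⟨h1, h2, B, hB, h3⟩
    refine ⟨fun γ i => (h1 γ i).const_smul c, fun γ γ' i j y y' h => ?_, B, hB, ?_⟩
    · change c • φ γ' j y' = _
      rw [h2 γ γ' i j y y' h]
      exact (map_smul _ _ _).symm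
    · intro γ i y h
      change c • φ γ i y = 0
      rw [h3 γ i y h, smul_zero]

end glob

end Vale.Agent.P223.H566
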