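import Vale.Agent.P223.H566.IntS
import Mathlib.Analysis.InnerProductSpace.Completion

/-! Completion of the space of compactly supported spinor fields. -/

namespace Vale.Agent.P223.H566

open scoped ContDiff InnerProductSpace Topology
open MeasureTheory Vale.Agent.P223.H Vale.Agent.P223.X

/-- completion of a vector space with a semidefinite hermitian form -/
theorem exists_completion {F : Type} [AddCommGroup F] [Module ℂ F]
    (cd : PreInnerProductSpace.Core ℂ F) :
    ∃ (H : Type) (_ : NormedAddCommGroup H) (_ : InnerProductSpace ℂ H) (_ : CompleteSpace H)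
      (e : F →ₗ[ℂ] H), DenseRange e ∧ ∀ x y, ⟪e x, e y⟫_ℂ = cd.inner x y := by
  letI : SeminormedAddCommGroup F := @InnerProductSpace.Core.toSeminormedAddCommGroup ℂ F _ _ _ cd
  letI : InnerProductSpace ℂ F := InnerProductSpace.ofCore cd
  refine ⟨UniformSpace.Completion F, inferInstance, inferInstance, inferInstance,
    (UniformSpace.Completion.toComplL (𝕜 := ℂ) (E := F)).toLinearMap, ?_, ?_⟩
  · exact UniformSpace.Completion.denseRange_coe
  · intro x y
    exact UniformSpace.Completion.inner_coe x y

theorem emb : SpecEmb := by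
  intro n M X Γ I V _ _ _ _ _ _ _ _ _ _ _ _ _ C G K S μ hV
  let cd : PreInnerProductSpace.Core ℂ (Core S) :=
    { inner := fun φ ψ => ipr C μ (φ : Raw Γ I n V) (ψ : Raw Γ I n V)
      conj_inner_symm := fun φ ψ => ipr_conj φ ψ
      re_inner_nonneg := fun φ => ipr_self_nonneg φ
      add_left := fun φ φ' ψ => ipr_add_left hV φ φ' ψ
      smul_left := fun φ ψ c => ipr_smul_left c φ ψ }
  obtain ⟨H, h1, h2, h3, e, h4, h5⟩ := exists_completion cd
  exact ⟨H, h1, h2, h3, ⟨⟨e, h4, h5⟩⟩⟩

end Vale.Agent.P223.H566
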