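import Vale.Agent.P223.H566.Loc
import Vale.Agent.P223.X.Int
import Vale.Agent.P223.X.PartX

/-! Compactly supported smooth spinor fields on the universal covering: stability under the basic
operations, decomposition into local pieces. -/

namespace Vale.Agent.P223.H566

open scoped ContDiff InnerProductSpace Topology
open MeasureTheory Vale.Agent.P223.H Vale.Agent.P223.X

variable {n : ℕ} {M X Γ I : Type} [TopologicalSpace M] [TopologicalSpace X] [Group Γ]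
    [MulAction Γ X] {V : Type} [NormedAddCommGroup V] [InnerProductSpace ℂ V]
    {C : Cov n M X Γ I} {G : I → E n → Matrix (Fin n) (Fin n) ℝ} {K : Cliff n V}
    (S : SpX C G K)

theorem SpX.T_inv {i j : I} {γ γ' : Γ} {y : E n} (h : y ∈ C.dom i j (γ'⁻¹ * γ)) :
    S.T γ' j γ i (C.tr i j (γ'⁻¹ * γ) y) * S.T γ i γ' j y = 1 ∧
      S.T γ i γ' j y * S.T γ' j γ i (C.tr i j (γ'⁻¹ * γ) y) = 1 := by
  have h1 := tr_tr C h
  have h2 : (γ'⁻¹ * γ)⁻¹ = γ⁻¹ * γ' := by group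
  rw [h2] at h1
  have e1 := S.coc γ i γ' j γ i y h h1.1
  rw [S.one] at e1
  have e2 := S.coc γ' j γ i γ' j (C.tr i j (γ'⁻¹ * γ) y) h1.1 (by rw [h1.2]; exact h)
  rw [S.one, h1.2] at e2
  exact ⟨e1, e2⟩

section raw
variable {S}
variable {φ ψ : Raw Γ I n V}

/-- near points outside of the support the section vanishes -/
theorem IsCore.ev [T2Space X] (h : IsCore S φ) {B : Set X} (hB : IsCompact B)
    (h3 : ∀ γ i y, γ • C.ψ i y ∉ B → φ γ i y = 0) {γ : Γ} {i : I} {y : E n}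
    (hy : γ • C.ψ i y ∉ B) : φ γ i =ᶠ[𝓝 y] fun _ => 0 := by
  have h1 : ∀ᶠ z in 𝓝 y, γ • C.ψ i z ∈ Bᶜ :=
    (Bas3.chart_emb C γ i).continuous.continuousAt.eventually_mem
      (hB.isClosed.isOpen_compl.mem_nhds hy)
  filter_upwards [h1] with z hz
  exact h3 γ i z hz

theorem IsCore.evtr (h : IsCore S φ) {γ γ' : Γ} {i j : I} {y : E n}
    (hd : y ∈ C.dom i j (γ'⁻¹ * γ)) : (fun z => φ γ' j (C.tr i j (γ'⁻¹ * γ) z)) =ᶠ[𝓝 y]
      fun z => S.T γ i γ' j z (φ γ i z) := by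
  filter_upwards [(isOpen_dom C i j (γ'⁻¹ * γ)).mem_nhds hd] with z hz
  refine h.compat γ γ' i j z _ ?_
  rw [tr_spec C hz, mul_smul, smul_inv_smul]

theorem IsCore.D [T2Space X] (h : IsCore S φ) : IsCore S (S.D φ) := by
  refine ⟨fun γ i => contDiff_dir K (S.met.smooth i) (S.met.pos i) (S.fr i).smooth
    (h.smooth γ i), fun γ γ' i j y y' hy => ?_, ?_⟩
  · obtain ⟨hd, ht⟩ := chart_eq C hy
    subst ht
    refine cov_dir K ((contDiffAt_tr C hd).differentiableAt (by simp))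
      (((S.smooth γ i γ' j).contDiffAt ((isOpen_dom C i j _).mem_nhds hd)).differentiableAt (by simp))
      ((h.smooth γ i).differentiable (by simp) _) ((h.smooth γ' j).differentiable (by simp) _)
      ⟨_, (S.T_inv hd).2, (S.T_inv hd).1⟩ (S.conn γ i γ' j y hd) (S.cliff γ i γ' j y hd)
      (h.evtr hd)
  · obtain ⟨B, hB, h3⟩ := h.supp
    refine ⟨B, hB, fun γ i y hy => ?_⟩
    have h4 := dir_congr (G := G i) (β := S.β i) K (h.ev hB h3 hy)
    change dir K (G i) (S.β i) (φ γ i) y = 0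
    rw [h4]
    have h5 := dir_smul (G := G i) (β := S.β i) (φ := fun _ => (0 : V)) (y := y) K
      (differentiableAt_const _) (0 : ℂ)
    simpa using h5

theorem IsCore.mul (h : IsCore S φ) {f : X → ℝ} (hf : C.Ck ∞ f) : IsCore S (mulR C f φ) := by
  refine ⟨fun γ i => ?_, fun γ γ' i j y y' hy => ?_, ?_⟩
  · exact (Complex.ofRealCLM.contDiff.comp (hf γ i)).smul (h.smooth γ i)
  · unfold mulR
    rw [map_smul, ← h.compat γ γ' i j y y' hy, hy]
  · obtain ⟨B, hB, h3⟩ := h.supp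
    refine ⟨B, hB, fun γ i y hy => ?_⟩
    unfold mulR
    rw [h3 γ i y hy, smul_zero]

/-- Leibniz rule -/
theorem IsCore.D_mul (h : IsCore S φ) {f : X → ℝ} (hf : C.Ck ∞ f) :
    S.D (mulR C f φ) = mulR C f (S.D φ) + S.clR f φ := by
  funext γ i y
  exact dir_mul_real K ((hf γ i).differentiable (by simp) y)
    ((h.smooth γ i).differentiable (by simp) y)

theorem IsCore.cl [T2Space X] (h : IsCore S φ) {f : X → ℝ} (hf : C.Ck ∞ f) :
    IsCore S (S.clR f φ) := by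
  have h1 : (S.D (mulR C f φ) : Raw Γ I n V) ∈ Core S := (h.mul hf).D
  have h2 : (mulR C f (S.D φ) : Raw Γ I n V) ∈ Core S := (h.D).mul hf
  have h3 := (Core S).sub_mem h1 h2
  rw [h.D_mul hf, add_sub_cancel_left] at h3
  exact h3

theorem IsCore.vol (h : IsCore S φ) : IsCore S (volR K φ) := by
  refine ⟨fun γ i => ?_, fun γ γ' i j y y' hy => ?_, ?_⟩
  · exact (K.vol.restrictScalars ℝ).contDiff.comp (h.smooth γ i)
  · obtain ⟨hd, ht⟩ := chart_eq C hy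
    unfold volR
    rw [h.compat γ γ' i j y y' hy]
    have := S.vol γ i γ' j y hd
    exact (congrArg (fun L : V →L[ℂ] V => L (φ γ i y)) this).symm
  · obtain ⟨B, hB, h3⟩ := h.supp
    refine ⟨B, hB, fun γ i y hy => ?_⟩
    unfold volR
    rw [h3 γ i y hy, map_zero]

theorem IsCore.tr (h : IsCore S φ) (γ₀ : Γ) : IsCore S (S.trR γ₀ φ) := by
  refine ⟨fun γ i => (h.smooth _ _).const_smul _, fun γ γ' i j y y' hy => ?_, ?_⟩
  · unfold SpX.trR
    have h0 : (γ₀⁻¹ * γ) • C.ψ i y = (γ₀⁻¹ * γ') • C.ψ j y' := by rw [mul_smul, mul_smul, hy]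
    have h1 := S.equi γ₀ (γ₀⁻¹ * γ) i (γ₀⁻¹ * γ') j y (chart_eq C h0).1
    rw [mul_inv_cancel_left, mul_inv_cancel_left] at h1
    rw [h.compat (γ₀⁻¹ * γ) (γ₀⁻¹ * γ') i j y y' h0, h1, map_smul, smul_apply, smul_smul]
    congr 1
    rw [← mul_assoc, S.sg_sq, one_mul]
  · obtain ⟨B, hB, h3⟩ := h.supp
    refine ⟨(fun x => γ₀ • x) '' B, hB.image (C.cont γ₀), fun γ i y hy => ?_⟩
    unfold SpX.trR
    rw [h3 _ _ _ fun h' => hy ⟨_, h', ?_⟩, smul_zero]
    rw [mul_smul]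
    exact smul_inv_smul _ _

theorem IsCore.tr' (h : IsCore S φ) (γ₀ : Γ) : IsCore S (S.trR' γ₀ φ) := by
  refine ⟨fun γ i => (h.smooth _ _).const_smul _, fun γ γ' i j y y' hy => ?_, ?_⟩
  · unfold SpX.trR'
    have h0 : (γ₀ * γ) • C.ψ i y = (γ₀ * γ') • C.ψ j y' := by rw [mul_smul, mul_smul, hy]
    have h1 := S.equi γ₀ γ i γ' j y (chart_eq C hy).1
    rw [h.compat (γ₀ * γ) (γ₀ * γ') i j y y' h0, h1, map_smul, smul_apply, smul_smul]
    congr 1
    rw [mul_comm, mul_assoc, S.sg_sq, mul_one]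
  · obtain ⟨B, hB, h3⟩ := h.supp
    refine ⟨(fun x => γ₀⁻¹ • x) '' B, hB.image (C.cont γ₀⁻¹), fun γ i y hy => ?_⟩
    unfold SpX.trR'
    rw [h3 _ _ _ fun h' => hy ⟨_, h', ?_⟩, smul_zero]
    rw [mul_smul]
    exact inv_smul_smul _ _

end raw

/-! ### local pieces -/

variable {b : E n → V}

theorem SpX.loc_of {γ₀ γ : Γ} {i₀ j : I} {y z : E n} (h : γ • C.ψ j y = γ₀ • C.ψ i₀ z) :
    S.loc γ₀ i₀ b γ j y = S.T γ₀ i₀ γ j z (b z) := by
  unfold SpX.loc
  rw [if_pos ⟨z, h.symm⟩, h, inv_smul_smul, co_ψ]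

theorem SpX.loc_zero {γ₀ γ : Γ} {i₀ j : I} {y : E n}
    (h : ∀ z, b z ≠ 0 → γ • C.ψ j y ≠ γ₀ • C.ψ i₀ z) : S.loc γ₀ i₀ b γ j y = 0 := by
  by_cases h1 : γ • C.ψ j y ∈ Set.range (fun z => γ₀ • C.ψ i₀ z)
  · obtain ⟨z, hz⟩ := h1
    rw [S.loc_of hz.symm]
    by_cases hb : b z = 0
    · rw [hb, map_zero]
    · exact absurd hz.symm (h z hb)
  · unfold SpX.loc
    rw [if_neg h1]

theorem SpX.loc_self (γ : Γ) (i : I) (y : E n) : S.loc γ i b γ i y = b y := by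
  rw [S.loc_of rfl, S.one]; rfl

theorem SpX.isCore_loc [T2Space X] (γ₀ : Γ) (i₀ : I) (hb : ContDiff ℝ ∞ b)
    (hc : HasCompactSupport b) : IsCore S (S.loc γ₀ i₀ b) := by
  have hK : IsCompact ((fun z => γ₀ • C.ψ i₀ z) '' tsupport b) :=
    hc.isCompact.image (Bas3.chart_emb C γ₀ i₀).continuous
  have h3 : ∀ γ i y, γ • C.ψ i y ∉ (fun z => γ₀ • C.ψ i₀ z) '' tsupport b →
      S.loc γ₀ i₀ b γ i y = 0 := fun γ i y hy =>
    S.loc_zero fun z hz h => hy ⟨z, subset_tsupport _ hz, h.symm⟩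
  refine ⟨fun γ j => ?_, fun γ γ' i j y y' hy => ?_, _, hK, h3⟩
  · refine contDiff_iff_contDiffAt.2 fun y => ?_
    by_cases hy : γ • C.ψ j y ∈ Set.range (fun z => γ₀ • C.ψ i₀ z)
    · obtain ⟨z, hz⟩ := hy
      obtain ⟨hd, ht⟩ := chart_eq C hz.symm
      have e : S.loc γ₀ i₀ b γ j =ᶠ[𝓝 y] fun w =>
          S.T γ₀ i₀ γ j (C.tr j i₀ (γ₀⁻¹ * γ) w) (b (C.tr j i₀ (γ₀⁻¹ * γ) w)) := by
        filter_upwards [(isOpen_dom C j i₀ (γ₀⁻¹ * γ)).mem_nhds hd] with w hw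
        refine S.loc_of ?_
        rw [tr_spec C hw, mul_smul, smul_inv_smul]
      refine ContDiffAt.congr_of_eventuallyEq ?_ e
      have h1 : ContDiffAt ℝ ∞ (C.tr j i₀ (γ₀⁻¹ * γ)) y := contDiffAt_tr C hd
      have h2 : ContDiffAt ℝ ∞ (S.T γ₀ i₀ γ j) (C.tr j i₀ (γ₀⁻¹ * γ) y) := by
        refine (S.smooth γ₀ i₀ γ j).contDiffAt ((isOpen_dom C i₀ j _).mem_nhds ?_)
        have := (tr_tr C hd).1
        rwa [mul_inv_rev, inv_inv] at this
      have hbl : IsBoundedBilinearMap ℝ (fun p : (V →L[ℂ] V) × V => p.1 p.2) := by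
        have := (isBoundedBilinearMap_apply (𝕜 := ℂ) (E := V) (F := V))
        exact ⟨fun x y z => rfl, fun c x y => rfl, fun x y z => map_add _ _ _,
          fun c x y => (x.restrictScalars ℝ).map_smul c y, this.bound⟩
      exact hbl.contDiff.contDiffAt.comp y
        ((h2.comp y h1).prodMk (hb.contDiffAt.comp y h1))
    · have hy' : γ • C.ψ j y ∉ (fun z => γ₀ • C.ψ i₀ z) '' tsupport b :=
        fun ⟨z, _, hz⟩ => hy ⟨z, hz⟩
      have e : S.loc γ₀ i₀ b γ j =ᶠ[𝓝 y] fun _ => 0 := by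
        have h1 : ∀ᶠ z in 𝓝 y, γ • C.ψ j z ∈ ((fun z => γ₀ • C.ψ i₀ z) '' tsupport b)ᶜ :=
          (Bas3.chart_emb C γ j).continuous.continuousAt.eventually_mem
            (hK.isClosed.isOpen_compl.mem_nhds hy')
        filter_upwards [h1] with z hz
        exact h3 γ j z hz
      exact contDiffAt_const.congr_of_eventuallyEq e
  · by_cases h1 : γ • C.ψ i y ∈ Set.range (fun z => γ₀ • C.ψ i₀ z)
    · obtain ⟨z, hz⟩ := h1
      rw [S.loc_of hz.symm, S.loc_of (hz.trans hy).symm]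
      obtain ⟨hd, ht⟩ := chart_eq C hz
      obtain ⟨hd2, ht2⟩ := chart_eq C hy
      have e := S.coc γ₀ i₀ γ i γ' j z hd (by rw [ht]; exact hd2)
      rw [ht] at e
      rw [← e]; rfl
    · rw [S.loc_zero fun z _ h => h1 ⟨z, h.symm⟩,
        S.loc_zero fun z _ h => h1 ⟨z, (hy.trans h).symm⟩, map_zero]

/-- smooth functions with compact support on `ℝ^n` -/
def CS (n : ℕ) (V : Type) [NormedAddCommGroup V] [InnerProductSpace ℂ V] :
    Submodule ℂ (E n → V) where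
  carrier := {b | ContDiff ℝ ∞ b ∧ HasCompactSupport b}
  add_mem' := fun h h' => ⟨h.1.add h'.1, h.2.add h'.2⟩
  zero_mem' := ⟨contDiff_const, HasCompactSupport.zero⟩
  smul_mem' := fun c b h => ⟨h.1.const_smul c, h.2.smul_left⟩

/-! ### linear maps on `Core` -/

section lin
variable [T2Space X]

/-- Dirac operator -/
noncomputable def SpX.DC : Core S →ₗ[ℂ] Core S where
  toFun φ := ⟨S.D φ, φ.2.D⟩
  map_add' φ ψ := by
    refine Subtype.ext ?_
    funext γ i y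
    exact dir_add K ((φ.2.smooth γ i).differentiable (by simp) y)
      ((ψ.2.smooth γ i).differentiable (by simp) y)
  map_smul' c φ := by
    refine Subtype.ext ?_
    funext γ i y
    exact dir_smul K ((φ.2.smooth γ i).differentiable (by simp) y) c

/-- multiplication by a smooth function -/
noncomputable def SpX.mC (f : X → ℝ) (hf : C.Ck ∞ f) : Core S →ₗ[ℂ] Core S where
  toFun φ := ⟨mulR C f φ, φ.2.mul hf⟩
  map_add' φ ψ := by
    refine Subtype.ext ?_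
    funext γ i y
    exact smul_add _ _ _
  map_smul' c φ := by
    refine Subtype.ext ?_
    funext γ i y
    exact smul_comm _ _ _

/-- Clifford multiplication by `df` -/
noncomputable def SpX.cC (f : X → ℝ) (hf : C.Ck ∞ f) : Core S →ₗ[ℂ] Core S where
  toFun φ := ⟨S.clR f φ, φ.2.cl hf⟩
  map_add' φ ψ := by
    refine Subtype.ext ?_
    funext γ i y
    exact map_add _ _ _
  map_smul' c φ := by
    refine Subtype.ext ?_
    funext γ i y
    exact map_smul _ _ _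

omit [T2Space X] in
/-- the volume element -/
noncomputable def SpX.vC : Core S →ₗ[ℂ] Core S where
  toFun φ := ⟨volR K φ, φ.2.vol⟩
  map_add' φ ψ := by
    refine Subtype.ext ?_
    funext γ i y
    exact map_add _ _ _
  map_smul' c φ := by
    refine Subtype.ext ?_
    funext γ i y
    exact map_smul _ _ _

omit [T2Space X] in
/-- translation -/
noncomputable def SpX.tC (γ₀ : Γ) : Core S ≃ₗ[ℂ] Core S where
  toFun φ := ⟨S.trR γ₀ φ, φ.2.tr γ₀⟩
  invFun φ := ⟨S.trR' γ₀ φ, φ.2.tr' γ₀⟩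
  map_add' φ ψ := by
    refine Subtype.ext ?_
    funext γ i y
    exact smul_add _ _ _
  map_smul' c φ := by
    refine Subtype.ext ?_
    funext γ i y
    exact smul_comm _ _ _
  left_inv φ := by
    refine Subtype.ext ?_
    funext γ i y
    change S.sg γ₀ γ • S.sg γ₀ (γ₀⁻¹ * (γ₀ * γ)) • (φ : Raw Γ I n V) (γ₀⁻¹ * (γ₀ * γ)) i y = _
    rw [inv_mul_cancel_left, smul_smul, S.sg_sq, one_smul]
  right_inv φ := by
    refine Subtype.ext ?_
    funext γ i y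
    change S.sg γ₀ (γ₀⁻¹ * γ) • S.sg γ₀ (γ₀⁻¹ * γ) • (φ : Raw Γ I n V) (γ₀ * (γ₀⁻¹ * γ)) i y = _
    rw [mul_inv_cancel_left, smul_smul, S.sg_sq, one_smul]

/-- local pieces -/
noncomputable def SpX.lC (γ₀ : Γ) (i₀ : I) : CS n V →ₗ[ℂ] Core S where
  toFun b := ⟨S.loc γ₀ i₀ b, S.isCore_loc γ₀ i₀ b.2.1 b.2.2⟩
  map_add' b b' := by
    refine Subtype.ext ?_
    funext γ j y
    by_cases h1 : γ • C.ψ j y ∈ Set.range (fun z => γ₀ • C.ψ i₀ z)
    · obtain ⟨z, hz⟩ := h1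
      change S.loc γ₀ i₀ ((b : E n → V) + b') γ j y =
        S.loc γ₀ i₀ b γ j y + S.loc γ₀ i₀ b' γ j y
      rw [S.loc_of hz.symm, S.loc_of hz.symm, S.loc_of hz.symm]
      exact map_add _ _ _
    · change S.loc γ₀ i₀ ((b : E n → V) + b') γ j y =
        S.loc γ₀ i₀ b γ j y + S.loc γ₀ i₀ b' γ j y
      unfold SpX.loc
      rw [if_neg h1, if_neg h1, if_neg h1, add_zero]
  map_smul' c b := by
    refine Subtype.ext ?_
    funext γ j y
    by_cases h1 : γ • C.ψ j y ∈ Set.range (fun z => γ₀ • C.ψ i₀ z)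
    · obtain ⟨z, hz⟩ := h1
      change S.loc γ₀ i₀ (c • (b : E n → V)) γ j y = c • S.loc γ₀ i₀ b γ j y
      rw [S.loc_of hz.symm, S.loc_of hz.symm]
      exact map_smul _ _ _
    · change S.loc γ₀ i₀ (c • (b : E n → V)) γ j y = c • S.loc γ₀ i₀ b γ j y
      unfold SpX.loc
      rw [if_neg h1, if_neg h1, smul_zero]

theorem SpX.DC_mC {f : X → ℝ} (hf : C.Ck ∞ f) (φ : Core S) :
    S.DC (S.mC f hf φ) = S.mC f hf (S.DC φ) + S.cC f hf φ :=
  Subtype.ext (φ.2.D_mul hf)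

theorem SpX.DC_tC (γ₀ : Γ) (φ : Core S) : S.DC (S.tC γ₀ φ) = S.tC γ₀ (S.DC φ) := by
  refine Subtype.ext ?_
  funext γ i y
  exact dir_smul K ((φ.2.smooth (γ₀⁻¹ * γ) i).differentiable (by simp) y) _

omit [T2Space X] in
theorem SpX.tC_mC (γ₀ : Γ) {f : X → ℝ} (hf : C.Ck ∞ f) (φ : Core S) :
    S.tC γ₀ (S.mC f hf φ) = S.mC (fun x => f (γ₀⁻¹ • x)) (Ck_smul C hf γ₀⁻¹) (S.tC γ₀ φ) := by
  refine Subtype.ext ?_
  funext γ i y
  change S.sg _ _ • (f ((γ₀⁻¹ * γ) • C.ψ i y) : ℂ) • _ = (f (γ₀⁻¹ • γ • C.ψ i y) : ℂ) • S.sg _ _ • _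
  rw [mul_smul, smul_comm]

end lin

end Vale.Agent.P223.H566
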