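import Vale.Agent.P223.H566.Ops
import Vale.Agent.P223.H391.Ops
import Mathlib.Tactic.NoncommRing

/-! The closure of the graph of the Dirac operator, resolvents and commutators. -/

namespace Vale.Agent.P223.H566

open scoped ContDiff InnerProductSpace Topology
open MeasureTheory Vale.Agent.P223.H Vale.Agent.P223.X

section gr
variable {n : ℕ} {M X Γ I : Type} [TopologicalSpace M] [TopologicalSpace X] [Group Γ]
    [MulAction Γ X] {V : Type} [NormedAddCommGroup V] [InnerProductSpace ℂ V]
    {C : Cov n M X Γ I} {G : I → E n → Matrix (Fin n) (Fin n) ℝ} {K : Cliff n V}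
    [MeasurableSpace X] {S : SpX C G K} {μ : Measure X} {H : Type} [NormedAddCommGroup H]
    [InnerProductSpace ℂ H] [T2Space X] {E : Emb S μ H}

/-- the closure of the graph of the Dirac operator -/
def Gr (E : Emb S μ H) (v w : H) : Prop :=
  (v, w) ∈ closure (Set.range fun φ : Core S => (E.e φ, E.e (S.DC φ)))

theorem Gr.core (E : Emb S μ H) (φ : Core S) : Gr E (E.e φ) (E.e (S.DC φ)) :=
  subset_closure ⟨φ, rfl⟩

/-- induction principle -/
theorem Gr.ind {v w : H} (h : Gr E v w) {P : Set (H × H)} (hP : IsClosed P)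
    (h1 : ∀ φ, (E.e φ, E.e (S.DC φ)) ∈ P) : (v, w) ∈ P :=
  closure_minimal (by rintro _ ⟨φ, rfl⟩; exact h1 φ) hP h

/-- operators which commute with the Dirac operator up to a bounded operator -/
theorem Gr.map {v w : H} (h : Gr E v w) {A B C' : H →L[ℂ] H}
    (hA : ∀ φ, Gr E (A (E.e φ)) (B (E.e (S.DC φ)) + C' (E.e φ))) :
    Gr E (A v) (B w + C' v) := by
  have hc : Continuous fun q : H × H => (A q.1, B q.2 + C' q.1) :=
    (A.continuous.comp continuous_fst).prodMk
      ((B.continuous.comp continuous_snd).add (C'.continuous.comp continuous_fst))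
  exact h.ind (P := {q | (A q.1, B q.2 + C' q.1) ∈
    closure (Set.range fun φ : Core S => (E.e φ, E.e (S.DC φ)))})
    (isClosed_closure.preimage hc) hA

theorem Gr.sp {v w : H} (h : Gr E v w) {r : ℂ} {s : H →L[ℂ] H}
    (hs : ∀ φ, s (E.e (r • φ + S.DC φ)) = E.e φ) : s (r • v + w) = v := by
  refine h.ind (P := {q : H × H | s (r • q.1 + q.2) = q.1}) ?_ fun φ => ?_
  · exact isClosed_eq (s.continuous.comp ((continuous_fst.const_smul r).add continuous_snd))
      continuous_fst
  · change s (r • E.e φ + E.e (S.DC φ)) = E.e φ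
    rw [← map_smul, ← map_add, hs]

theorem Gr.sm {v w : H} (h : Gr E v w) {r : ℂ} {s : H →L[ℂ] H}
    (hs : ∀ φ, s (E.e (r • φ - S.DC φ)) = E.e φ) : s (r • v - w) = v := by
  refine h.ind (P := {q : H × H | s (r • q.1 - q.2) = q.1}) ?_ fun φ => ?_
  · exact isClosed_eq (s.continuous.comp ((continuous_fst.const_smul r).sub continuous_snd))
      continuous_fst
  · change s (r • E.e φ - E.e (S.DC φ)) = E.e φ
    rw [← map_smul, ← map_sub, hs]

/-- the range of the resolvent is in the domain -/
theorem gr_sp {r : ℂ} {s : H →L[ℂ] H} (hs : ∀ φ, s (E.e (r • φ + S.DC φ)) = E.e φ)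
    (hd : DenseRange fun φ : Core S => E.e (r • φ + S.DC φ)) (u : H) :
    Gr E (s u) (u - r • s u) := by
  have hc : Continuous fun u : H => (s u, u - r • s u) :=
    s.continuous.prodMk (continuous_id.sub (s.continuous.const_smul r))
  have hcl : IsClosed {u : H | (s u, u - r • s u) ∈
    closure (Set.range fun φ : Core S => (E.e φ, E.e (S.DC φ)))} := isClosed_closure.preimage hc
  have := closure_minimal (s := Set.range fun φ : Core S => E.e (r • φ + S.DC φ)) (by
    rintro _ ⟨φ, rfl⟩
    change Gr E (s (E.e (r • φ + S.DC φ))) (E.e (r • φ + S.DC φ) - r • s (E.e (r • φ + S.DC φ)))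
    rw [hs, map_add, map_smul, add_sub_cancel_left]
    exact Gr.core E φ) hcl
  exact this (hd u)

theorem gr_sm {r : ℂ} {s : H →L[ℂ] H} (hs : ∀ φ, s (E.e (r • φ - S.DC φ)) = E.e φ)
    (hd : DenseRange fun φ : Core S => E.e (r • φ - S.DC φ)) (u : H) :
    Gr E (s u) (r • s u - u) := by
  have hc : Continuous fun u : H => (s u, r • s u - u) :=
    s.continuous.prodMk ((s.continuous.const_smul r).sub continuous_id)
  have hcl : IsClosed {u : H | (s u, r • s u - u) ∈
    closure (Set.range fun φ : Core S => (E.e φ, E.e (S.DC φ)))} := isClosed_closure.preimage hc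
  have := closure_minimal (s := Set.range fun φ : Core S => E.e (r • φ - S.DC φ)) (by
    rintro _ ⟨φ, rfl⟩
    change Gr E (s (E.e (r • φ - S.DC φ))) (r • s (E.e (r • φ - S.DC φ)) - E.e (r • φ - S.DC φ))
    rw [hs, map_sub, map_smul, sub_sub_cancel]
    exact Gr.core E φ) hcl
  exact this (hd u)

end gr

/-! ### algebra -/

section alg
variable {B : Type} [Ring B] [Algebra ℂ B] {m : ℂ} {sp sm a h g p : B}

theorem sp_eq (hm : m ≠ 0) (hg : g = (1 / (2 * m)) • (sp + sm))
    (hp : p = (1 / 2 : ℂ) • (sm - sp)) : sp = m • g - p ∧ sm = m • g + p := by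
  have h2 : (m * (1 / (2 * m)) : ℂ) = 1 / 2 := by field_simp
  constructor
  · rw [hg, hp, smul_smul, h2]; module
  · rw [hg, hp, smul_smul, h2]; module

theorem alg1 (hm : m ≠ 0) (hg : g = (1 / (2 * m)) • (sp + sm))
    (hp : p = (1 / 2 : ℂ) • (sm - sp)) (h1 : sp + sm = (2 * m) • (sp * sm))
    (h2 : sp + sm = (2 * m) • (sm * sp)) :
    g * p = p * g ∧ p * p = (m ^ 2) • (g * g) - g ∧ g = sp * sm ∧ g = sm * sp := by
  obtain ⟨e1, e2⟩ := sp_eq hm hg hp
  have hm2 : (2 * m : ℂ) ≠ 0 := mul_ne_zero two_ne_zero hm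
  have g1 : g = sp * sm := by
    rw [hg, h1, smul_smul, one_div_mul_cancel hm2, one_smul]
  have g2 : g = sm * sp := by
    rw [hg, h2, smul_smul, one_div_mul_cancel hm2, one_smul]
  have k1 : g = (m • g - p) * (m • g + p) := by rw [← e1, ← e2]; exact g1
  have k2 : g = (m • g + p) * (m • g - p) := by rw [← e1, ← e2]; exact g2
  simp only [mul_add, add_mul, mul_sub, sub_mul, smul_mul_assoc, mul_smul_comm, smul_smul] at k1 k2
  refine ⟨?_, ?_, g1, g2⟩
  · have h3 : (2 * m) • (g * p) = (2 * m) • (p * g) := by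
      linear_combination (norm := module) k2 - k1
    have := congrArg (fun x => (2 * m)⁻¹ • x) h3
    simpa only [smul_smul, inv_mul_cancel₀ hm2, one_smul] using this
  · have h3 : (2 : ℂ) • (p * p) = (2 : ℂ) • ((m ^ 2) • (g * g) - g) := by
      linear_combination (norm := module) k2 + k1
    have := congrArg (fun x => (2 : ℂ)⁻¹ • x) h3
    simpa only [smul_smul, inv_mul_cancel₀ (two_ne_zero' ℂ), one_smul] using this

theorem alg2 (hm : m ≠ 0) (hg : g = (1 / (2 * m)) • (sp + sm))
    (hp : p = (1 / 2 : ℂ) • (sm - sp)) (h1 : sp + sm = (2 * m) • (sp * sm))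
    (h2 : sp + sm = (2 * m) • (sm * sp)) (ha : a * sp - sp * a = sp * h * sp)
    (ha' : a * sm - sm * a = -(sm * h * sm)) :
    a * g - g * a = -(p * h * g + g * h * p) ∧ p * a * g - g * a * p = g * h * g ∧
      a * p - p * a = -(m ^ 2 • (g * h * g)) - p * h * p := by
  obtain ⟨e1, e2⟩ := sp_eq hm hg hp
  obtain ⟨gp, pp, -, -⟩ := alg1 hm hg hp h1 h2
  have hm2 : (2 * m : ℂ) ≠ 0 := mul_ne_zero two_ne_zero hm
  rw [e1] at ha
  rw [e2] at ha'
  simp only [mul_add, add_mul, mul_sub, sub_mul, smul_mul_assoc, mul_smul_comm, smul_smul] at ha ha'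
  have r1 : a * g - g * a = -(p * h * g + g * h * p) := by
    have h3 : (2 * m) • (a * g - g * a) = (2 * m) • (-(p * h * g + g * h * p)) := by
      linear_combination (norm := module) ha + ha'
    have := congrArg (fun x => (2 * m)⁻¹ • x) h3
    simpa only [smul_smul, inv_mul_cancel₀ hm2, one_smul] using this
  have r2 : a * p - p * a = -(m ^ 2 • (g * h * g)) - p * h * p := by
    have h3 : (2 : ℂ) • (a * p - p * a) = (2 : ℂ) • (-(m ^ 2 • (g * h * g)) - p * h * p) := by
      linear_combination (norm := module) ha' - ha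
    have := congrArg (fun x => (2 : ℂ)⁻¹ • x) h3
    simpa only [smul_smul, inv_mul_cancel₀ (two_ne_zero' ℂ), one_smul] using this
  refine ⟨r1, ?_, r2⟩
  have r3 : p * a * g = p * (g * a + (a * g - g * a)) := by noncomm_ring
  have r4 : g * a * p = g * (p * a + (a * p - p * a)) := by noncomm_ring
  rw [r3, r4, r1, r2]
  have r5 : p * (g * a + -(p * h * g + g * h * p)) - g * (p * a + (-(m ^ 2 • (g * h * g)) - p * h * p))
      = (p * g - g * p) * a - (p * p) * h * g - (p * g - g * p) * h * p +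
        m ^ 2 • ((g * g) * h * g) := by
    simp only [mul_add, mul_sub, sub_mul, mul_neg, mul_smul_comm, smul_mul_assoc, mul_assoc]
    module
  rw [r5, gp, pp]
  simp only [sub_self, zero_mul, sub_mul, smul_mul_assoc]
  module

end alg

end Vale.Agent.P223.H566
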