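import Vale.Agent.P223.H66.YDef

/-! Definitions for the statements: the injectivity radius of the universal covering. -/

namespace Vale.Agent.P223.J

open scoped ContDiff

/-- The curve `γ` satisfies the geodesic equation at the time `t` (in the chart at `γ t`). -/
def GdcAt {n : ℕ} {X : Type} [TopologicalSpace X] (c : X → Ch n X) (g : X → Mtx n) (γ : ℝ → X)
    (t : ℝ) : Prop :=
  ContDiffAt ℝ ∞ (fun s => c (γ t) (γ s)) t ∧ ∀ k,
    deriv (deriv fun s => c (γ t) (γ s) k) t = -∑ i, ∑ j, chr (g (γ t)) (c (γ t) (γ t)) k i j *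
      deriv (fun s => c (γ t) (γ s) i) t * deriv (fun s => c (γ t) (γ s) j) t

/-- The injectivity radius of `(X, g)` at `x` is at least `r`: the exponential map `e` at `x` is
defined, injective and a local diffeomorphism on the ball of radius `r` of the tangent space. -/
def InjAt {n : ℕ} {X : Type} [TopologicalSpace X] (c : X → Ch n X) (g : X → Mtx n) (x : X)
    (r : ℝ) : Prop :=
  ∃ e : E n → X, e 0 = x ∧ fderiv ℝ (fun w => c x (e w)) 0 = ContinuousLinearMap.id ℝ (E n) ∧
    ContinuousOn e {v | bil (g x (c x x)) v v < r ^ 2} ∧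
    Set.InjOn e {v | bil (g x (c x x)) v v < r ^ 2} ∧
    (∀ v, bil (g x (c x x)) v v < r ^ 2 → ContDiffAt ℝ ∞ (fun w => c (e v) (e w)) v ∧
      (fderiv ℝ (fun w => c (e v) (e w)) v).det ≠ 0) ∧
    ∀ (v : E n) (t : ℝ), bil (g x (c x x)) (t • v) (t • v) < r ^ 2 →
      GdcAt c g (fun s => e (s • v)) t

/-- The injectivity radius of the universal covering `X` of `(M, g)` is at least `r (f x)` at the
point `x` of `X`, `f : X → M` being the covering map. -/
def InjGe {n : ℕ} {M : Type} [TopologicalSpace M] (c : M → Ch n M) (g : M → Mtx n) (r : M → ℝ) :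
    Prop :=
  ∀ (X : Type) (_ : TopologicalSpace X) (f : X → M) (c' : X → Ch n X), SimplyConnectedSpace X →
    CovAtl c f c' → ∀ x, InjAt c' (fun q => g (f q)) x (r (f x))

/-- `u` is smooth and `|du| ≤ 1`. -/
def Lip1 {n : ℕ} {X : Type} [TopologicalSpace X] (c : X → Ch n X) (g : X → Mtx n) (u : X → ℝ) :
    Prop :=
  Sm c u ∧ ∀ q, gsq (g q) (fun x => u ((c q).symm x)) (c q q) ≤ 1

end Vale.Agent.P223.J
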