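import Vale.Agent.P223.MathlibUsed
import Mathlib.MeasureTheory.Covering.Vitali

/-! Growth of volume: the numerical part. -/

namespace Vale.Agent.P223.H566.Vit

open MeasureTheory Set
open scoped ENNReal NNReal

/-- one step: the growth condition at `s` implies it at `10 s` or at `2 s` -/
theorem step (k : ℕ) {C c₀ K θ : ℝ} (hC : 0 < C) (hc₀ : 0 < c₀) (hθ : 0 < θ) (hθ1 : θ ≤ 1)
    (hK : K = C * (10 ^ (k + 1)) ^ 2 * 2 ^ (k + 1)) (hθK : K * θ ≤ 1 / 4)
    (hcK : K * (c₀ * 2 ^ ((k + 1) * (k + 1))) ≤ 1 / 4) {h p : ℝ → ℝ} {m lam R : ℝ}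
    (hmono : Monotone h) (hm : ∀ s, h s ≤ m) (hlam : 0 < lam)
    (hlm : lam ^ (k + 1) * m = 1) (hp : ∀ s, 0 ≤ p s)
    (hloc : ∀ s, 0 < s → 10 * s ≤ R →
      h s ^ (k + 2) ≤ C * h (2 * s) ^ 2 * (p (2 * s) + (h (2 * s) - h s) / s) ^ (k + 1))
    (hpe : ∀ s, 0 < s → 5 * s ≤ R → p s ≤ θ / 10 ^ (k + 1) * lam * h (5 * s))
    {s : ℝ} (hs : 0 < s) (hsR : 10 * s ≤ R) (hS : c₀ * s ^ (k + 1) ≤ h s) :
    c₀ * (10 * s) ^ (k + 1) ≤ h (10 * s) ∨ c₀ * (2 * s) ^ (k + 1) ≤ h (2 * s) := by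
  by_cases h1 : 10 ^ (k + 1) * h s ≤ h (10 * s)
  · left
    rw [mul_pow]
    nlinarith [pow_pos (show (0 : ℝ) < 10 by norm_num) (k + 1)]
  right
  push Not at h1
  by_contra h2
  push Not at h2
  set H := h s with hH
  have hH0 : 0 < H := lt_of_lt_of_le (by positivity) hS
  have h10 : (0 : ℝ) < 10 ^ (k + 1) := by positivity
  have hA : p (2 * s) ≤ θ * lam * H := by
    have h3 := hpe (2 * s) (by linarith) (by linarith)
    rw [show 5 * (2 * s) = 10 * s by ring] at h3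
    refine h3.trans ?_
    have h4 : θ / 10 ^ (k + 1) * lam * h (10 * s) ≤ θ / 10 ^ (k + 1) * lam * (10 ^ (k + 1) * H) :=
      mul_le_mul_of_nonneg_left h1.le (by positivity)
    refine h4.trans (le_of_eq ?_)
    field_simp
  have hmon2 : H ≤ h (2 * s) := hmono (by linarith)
  have hlH : lam ^ (k + 1) * H ≤ 1 := by
    rw [← hlm]; exact mul_le_mul_of_nonneg_left (hm s) (by positivity)
  have hA' : p (2 * s) ^ (k + 1) ≤ θ * H ^ k := by
    calc p (2 * s) ^ (k + 1) ≤ (θ * lam * H) ^ (k + 1) := pow_le_pow_left₀ (hp _) hA _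
      _ = θ ^ (k + 1) * (lam ^ (k + 1) * H) * H ^ k := by rw [mul_pow, mul_pow]; ring
      _ ≤ θ * 1 * H ^ k := by
        gcongr
        calc θ ^ (k + 1) = θ ^ k * θ := pow_succ _ _
          _ ≤ 1 * θ := by gcongr; exact pow_le_one₀ hθ.le hθ1
          _ = θ := one_mul _
      _ = θ * H ^ k := by ring
  have hD0 : 0 ≤ (h (2 * s) - H) / s := div_nonneg (by linarith) hs.le
  have hD : ((h (2 * s) - H) / s) ^ (k + 1) ≤ c₀ * 2 ^ ((k + 1) * (k + 1)) * H ^ k := by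
    have h5 : (h (2 * s) - H) / s ≤ c₀ * 2 ^ (k + 1) * s ^ k := by
      rw [div_le_iff₀ hs]
      calc h (2 * s) - H ≤ c₀ * (2 * s) ^ (k + 1) := by linarith
        _ = c₀ * 2 ^ (k + 1) * s ^ k * s := by rw [mul_pow]; ring
    calc ((h (2 * s) - H) / s) ^ (k + 1) ≤ (c₀ * 2 ^ (k + 1) * s ^ k) ^ (k + 1) :=
          pow_le_pow_left₀ hD0 h5 _
      _ = c₀ * 2 ^ ((k + 1) * (k + 1)) * (c₀ * s ^ (k + 1)) ^ k := by
        rw [mul_pow, mul_pow, mul_pow, ← pow_mul, ← pow_mul, ← pow_mul, pow_succ c₀ k]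
        ring
      _ ≤ c₀ * 2 ^ ((k + 1) * (k + 1)) * H ^ k := by gcongr
  have h6 := hloc s hs hsR
  have h7 := add_pow_le (hp (2 * s)) hD0 (k + 1)
  have h8 : (2 : ℝ) ^ (k + 1 - 1) ≤ 2 ^ (k + 1) := pow_le_pow_right₀ (by norm_num) (by omega)
  have h9 : (p (2 * s) + (h (2 * s) - H) / s) ^ (k + 1) ≤
      2 ^ (k + 1) * ((θ + c₀ * 2 ^ ((k + 1) * (k + 1))) * H ^ k) := by
    refine h7.trans ?_
    have : p (2 * s) ^ (k + 1) + ((h (2 * s) - H) / s) ^ (k + 1) ≤
        (θ + c₀ * 2 ^ ((k + 1) * (k + 1))) * H ^ k := by rw [add_mul]; exact add_le_add hA' hD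
    exact mul_le_mul h8 this (add_nonneg (pow_nonneg (hp _) _) (pow_nonneg hD0 _)) (by positivity)
  have h11 : h (2 * s) ^ 2 ≤ (10 ^ (k + 1) * H) ^ 2 := by
    have h12 : h (2 * s) ≤ 10 ^ (k + 1) * H := (hmono (by linarith)).trans h1.le
    exact pow_le_pow_left₀ (by linarith) h12 2
  have h13 : H ^ (k + 2) ≤ K * (θ + c₀ * 2 ^ ((k + 1) * (k + 1))) * H ^ (k + 2) := by
    refine h6.trans ?_
    calc C * h (2 * s) ^ 2 * (p (2 * s) + (h (2 * s) - H) / s) ^ (k + 1)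
        ≤ C * (10 ^ (k + 1) * H) ^ 2 *
          (2 ^ (k + 1) * ((θ + c₀ * 2 ^ ((k + 1) * (k + 1))) * H ^ k)) := by
          gcongr
          exact pow_nonneg (add_nonneg (hp _) hD0) _
      _ = K * (θ + c₀ * 2 ^ ((k + 1) * (k + 1))) * H ^ (k + 2) := by rw [hK]; ring
  have h14 : 0 < H ^ (k + 2) := by positivity
  nlinarith

/-- The growth lemma. -/
theorem growth (n : ℕ) (hn : 1 ≤ n) {C c' : ℝ} (hC : 0 < C) (hc' : 0 < c') :
    ∃ e c : ℝ, 0 < e ∧ 0 < c ∧ ∀ (h p : ℝ → ℝ) (m lam R : ℝ), Monotone h →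
      (∀ s, h s ≤ m) → 0 < lam → lam ^ n * m = 1 → (∀ s, 0 ≤ p s) → 0 < R →
      (∀ s, 0 < s → 10 * s ≤ R →
        h s ^ (n + 1) ≤ C * h (2 * s) ^ 2 * (p (2 * s) + (h (2 * s) - h s) / s) ^ n) →
      (∀ s, 0 < s → 5 * s ≤ R → p s ≤ e * lam * h (5 * s)) →
      (∀ η, 0 < η → ∃ s, 0 < s ∧ s < η ∧ c' * s ^ n ≤ h s) →
      c * R ^ n ≤ m := by
  obtain ⟨k, rfl⟩ : ∃ k, n = k + 1 := ⟨n - 1, by omega⟩
  set K : ℝ := C * (10 ^ (k + 1)) ^ 2 * 2 ^ (k + 1) with hK
  have hK0 : 0 < K := by positivity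
  set θ : ℝ := min 1 (1 / (4 * K)) with hθ
  have hθ0 : 0 < θ := lt_min one_pos (by positivity)
  have hθK : K * θ ≤ 1 / 4 := by
    calc K * θ ≤ K * (1 / (4 * K)) := mul_le_mul_of_nonneg_left (min_le_right _ _) hK0.le
      _ = 1 / 4 := by field_simp
  set c₀ : ℝ := min c' (1 / (4 * K * 2 ^ ((k + 1) * (k + 1)))) with hc₀
  have hc₀0 : 0 < c₀ := lt_min hc' (by positivity)
  have hcK : K * (c₀ * 2 ^ ((k + 1) * (k + 1))) ≤ 1 / 4 := by
    calc K * (c₀ * 2 ^ ((k + 1) * (k + 1)))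
        ≤ K * (1 / (4 * K * 2 ^ ((k + 1) * (k + 1))) * 2 ^ ((k + 1) * (k + 1))) := by
          gcongr
          exact min_le_right _ _
      _ = 1 / 4 := by field_simp
  refine ⟨θ / 10 ^ (k + 1), c₀ / 10 ^ (k + 1), by positivity, by positivity, ?_⟩
  intro h p m lam R hmono hm hlam hlm hp hR hloc hpe hden
  -- the set of good scales reaches `(R / 10, R]`
  have key : ∀ j : ℕ, ∀ s, 0 < s → s ≤ R → R < 2 ^ j * s * 10 → c₀ * s ^ (k + 1) ≤ h s →
      ∃ s', R / 10 < s' ∧ s' ≤ R ∧ c₀ * s' ^ (k + 1) ≤ h s' := by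
    intro j
    induction j with
    | zero => intro s hs hsR h1 h2; exact ⟨s, by linarith, hsR, h2⟩
    | succ j ih =>
      intro s hs hsR h1 h2
      by_cases h3 : R / 10 < s
      · exact ⟨s, h3, hsR, h2⟩
      push Not at h3
      rcases step k hC hc₀0 hθ0 (min_le_left _ _) hK hθK hcK hmono hm hlam hlm hp hloc hpe hs
        (by linarith) h2 with h4 | h4
      · refine ih (10 * s) (by linarith) (by linarith) ?_ h4
        rw [pow_succ] at h1
        nlinarith [pow_pos (show (0 : ℝ) < 2 by norm_num) j]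
      · refine ih (2 * s) (by linarith) (by linarith) ?_ h4
        rw [pow_succ] at h1
        nlinarith
  obtain ⟨s, hs, hsR, h1⟩ := hden R hR
  obtain ⟨j, hj⟩ := pow_unbounded_of_one_lt (R / s) (show (1 : ℝ) < 2 by norm_num)
  obtain ⟨s', h2, h3, h4⟩ := key j s hs hsR.le (by
    rw [div_lt_iff₀ hs] at hj; nlinarith)
    ((mul_le_mul_of_nonneg_right (min_le_left _ _) (by positivity)).trans h1)
  refine le_trans ?_ (h4.trans (hm s'))
  calc c₀ / 10 ^ (k + 1) * R ^ (k + 1) = c₀ * (R / 10) ^ (k + 1) := by rw [div_pow]; ring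
    _ ≤ c₀ * s' ^ (k + 1) := by gcongr

/-- Local isoperimetric inequalities imply a global one. -/
theorem iso (n : ℕ) (hn : 2 ≤ n) {C c' κ : ℝ} (hC : 0 < C) (hc' : 0 < c') (hκ : 0 < κ) :
    ∃ C' : ℝ≥0, ∀ (X : Type) [MeasurableSpace X] (μ : Measure X) (d : X → X → ℝ≥0∞) (r : X → ℝ)
      (Ω : Set X) (P : Set X → ℝ≥0∞) (Rb : ℝ), MeasurableSet Ω → μ Ω ≠ ∞ → (∀ x, d x x = 0) →
      (∀ x y, d x y = d y x) → (∀ x y z, d x z ≤ d x y + d y z) →
      (∀ x s, MeasurableSet {z | d x z < s}) → Measurable r → (∀ x ∈ Ω, 0 < r x ∧ r x ≤ Rb) →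
      (∀ (u : Finset X) (B : X → Set X), (∀ y ∈ u, MeasurableSet (B y)) →
        (u : Set X).PairwiseDisjoint B → ∑ y ∈ u, P (B y) ≤ P univ) →
      (∀ x ∈ Ω, ∀ s, 0 < s → 2 * s ≤ κ * r x →
        μ (Ω ∩ {z | d x z < ENNReal.ofReal s}) ^ (n + 1) ≤
          ENNReal.ofReal C * μ (Ω ∩ {z | d x z < ENNReal.ofReal (2 * s)}) ^ 2 *
          (P {z | d x z < ENNReal.ofReal (2 * s)} +
            μ (Ω ∩ ({z | d x z < ENNReal.ofReal (2 * s)} \ {z | d x z < ENNReal.ofReal s})) /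
              ENNReal.ofReal s) ^ n) →
      (∀ x ∈ Ω, ∀ η : ℝ, 0 < η → ∃ s, 0 < s ∧ s < η ∧
        ENNReal.ofReal (c' * s ^ n) ≤ μ (Ω ∩ {z | d x z < ENNReal.ofReal s})) →
      μ Ω ^ (n - 1) ≤ C' * (P univ + ∫⁻ x in Ω, ENNReal.ofReal (1 / r x) ∂μ) ^ n := by
  obtain ⟨e, c, he, hc, hG⟩ := growth n (by omega) hC hc'
  set c₁ : ℝ := min 1 (c * κ ^ n) with hc₁
  have hc₁0 : 0 < c₁ := lt_min one_pos (by positivity)
  have hc₁n : c₁ ^ n ≤ c * κ ^ n := by
    calc c₁ ^ n ≤ c₁ ^ 1 := pow_le_pow_of_le_one hc₁0.le (min_le_left _ _) (by omega)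
      _ = c₁ := pow_one _
      _ ≤ _ := min_le_right _ _
  set ε₁ : ℝ := min e c₁ with hε₁
  have hε₁0 : 0 < ε₁ := lt_min he hc₁0
  refine ⟨(Real.toNNReal (ε₁ ^ n))⁻¹, ?_⟩
  intro X _ μ d r Ω P Rb hΩ hμΩ hd0 hds hdt hBm hrm hr hsup hloc hden
  rcases eq_or_ne (μ Ω) 0 with h0 | h0
  · rw [h0, zero_pow (by omega)]; exact zero_le
  set m : ℝ := (μ Ω).toReal with hm
  have hm0 : 0 < m := ENNReal.toReal_pos h0 hμΩ
  have hmo : ENNReal.ofReal m = μ Ω := ENNReal.ofReal_toReal hμΩ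
  set lam : ℝ := m ^ (-(1 / n : ℝ)) with hlam
  have hlam0 : 0 < lam := Real.rpow_pos_of_pos hm0 _
  have hn0 : (n : ℝ) ≠ 0 := by positivity
  have hlm : lam ^ n * m = 1 := by
    rw [hlam, ← Real.rpow_natCast, ← Real.rpow_mul hm0.le, neg_mul, one_div,
      inv_mul_cancel₀ hn0, Real.rpow_neg hm0.le, Real.rpow_one, inv_mul_cancel₀ hm0.ne']
  -- the set where `1 / r` is large
  set Ω₂ : Set X := Ω ∩ {x | c₁ * lam ≤ 1 / r x} with hΩ₂
  have hΩ₂m : MeasurableSet Ω₂ := hΩ.inter (measurableSet_le measurable_const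
    (measurable_const.div hrm))
  have h2 : ENNReal.ofReal (c₁ * lam) * μ Ω₂ ≤ ∫⁻ x in Ω, ENNReal.ofReal (1 / r x) ∂μ := by
    calc ENNReal.ofReal (c₁ * lam) * μ Ω₂ = ∫⁻ _ in Ω₂, ENNReal.ofReal (c₁ * lam) ∂μ := by
          rw [setLIntegral_const]
      _ ≤ ∫⁻ x in Ω₂, ENNReal.ofReal (1 / r x) ∂μ :=
          setLIntegral_mono' hΩ₂m fun x hx => ENNReal.ofReal_le_ofReal hx.2
      _ ≤ _ := lintegral_mono_set inter_subset_left
  -- the other points
  have hfin : ∀ A : Set X, μ (Ω ∩ A) ≠ ∞ := fun A =>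
    ne_top_of_le_ne_top hμΩ (measure_mono inter_subset_left)
  have h1 : ∀ x ∈ Ω \ Ω₂, ∃ s, 0 < s ∧ 5 * s ≤ κ * r x ∧
      ENNReal.ofReal (e * lam) * μ (Ω ∩ {z | d x z < ENNReal.ofReal (5 * s)}) ≤
        P {z | d x z < ENNReal.ofReal s} := by
    intro x hx
    by_contra hcon
    push Not at hcon
    have hrx := hr x hx.1
    have hR : 0 < κ * r x := mul_pos hκ hrx.1
    -- all the values are finite
    have hP : ∀ s, 0 < s → 5 * s ≤ κ * r x → P {z | d x z < ENNReal.ofReal s} ≠ ∞ :=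
      fun s hs hs2 => ne_top_of_lt (hcon s hs hs2)
    have hcR := hG (fun s => (μ (Ω ∩ {z | d x z < ENNReal.ofReal s})).toReal)
      (fun s => (P {z | d x z < ENNReal.ofReal s}).toReal) m lam (κ * r x)
      (fun s t hst => ENNReal.toReal_mono (hfin _) (measure_mono (inter_subset_inter_right _
        fun z (hz : d x z < _) => lt_of_lt_of_le hz (ENNReal.ofReal_le_ofReal hst))))
      (fun s => ENNReal.toReal_mono hμΩ (measure_mono inter_subset_left)) hlam0 hlm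
      (fun s => ENNReal.toReal_nonneg) hR
      (fun s hs hs2 => by
        have h3 := hloc x hx.1 s hs (by linarith)
        have hPs := hP (2 * s) (by linarith) (by linarith)
        have hsub : {z | d x z < ENNReal.ofReal s} ⊆ {z | d x z < ENNReal.ofReal (2 * s)} :=
          fun z (hz : d x z < _) => lt_of_lt_of_le hz (ENNReal.ofReal_le_ofReal (by linarith))
        have h4 : μ (Ω ∩ ({z | d x z < ENNReal.ofReal (2 * s)} \
            {z | d x z < ENNReal.ofReal s})) =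
            μ (Ω ∩ {z | d x z < ENNReal.ofReal (2 * s)}) -
              μ (Ω ∩ {z | d x z < ENNReal.ofReal s}) := by
          rw [← measure_sdiff (inter_subset_inter_right _ hsub)
            (hΩ.inter (hBm _ _)).nullMeasurableSet (hfin _)]
          congr 1
          ext z
          simp only [mem_inter_iff, mem_sdiff]
          tauto
        rw [h4] at h3
        have hle : μ (Ω ∩ {z | d x z < ENNReal.ofReal s}) ≤
            μ (Ω ∩ {z | d x z < ENNReal.ofReal (2 * s)}) :=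
          measure_mono (inter_subset_inter_right _ hsub)
        have hs0 : ENNReal.ofReal s ≠ 0 := (ENNReal.ofReal_pos.2 hs).ne'
        have hne : P {z | d x z < ENNReal.ofReal (2 * s)} +
            (μ (Ω ∩ {z | d x z < ENNReal.ofReal (2 * s)}) -
              μ (Ω ∩ {z | d x z < ENNReal.ofReal s})) / ENNReal.ofReal s ≠ ∞ :=
          ENNReal.add_ne_top.2 ⟨hPs, ENNReal.div_ne_top
            (ne_top_of_le_ne_top (hfin _) tsub_le_self) hs0⟩
        have h5 := ENNReal.toReal_mono (ENNReal.mul_ne_top (ENNReal.mul_ne_top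
          ENNReal.ofReal_ne_top (ENNReal.pow_ne_top (hfin _))) (ENNReal.pow_ne_top hne)) h3
        rw [ENNReal.toReal_pow, ENNReal.toReal_mul, ENNReal.toReal_mul, ENNReal.toReal_pow,
          ENNReal.toReal_pow, ENNReal.toReal_ofReal hC.le, ENNReal.toReal_add hPs
            (ENNReal.div_ne_top (ne_top_of_le_ne_top (hfin _) tsub_le_self) hs0),
          ENNReal.toReal_div, ENNReal.toReal_ofReal hs.le,
          ENNReal.toReal_sub_of_le hle (hfin _)] at h5
        exact h5)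
      (fun s hs hs2 => by
        have h3 := ENNReal.toReal_mono (ENNReal.mul_ne_top ENNReal.ofReal_ne_top (hfin _))
          (hcon s hs hs2).le
        rw [ENNReal.toReal_mul, ENNReal.toReal_ofReal (by positivity)] at h3
        exact h3)
      (fun η hη => by
        obtain ⟨s, hs, hsη, h3⟩ := hden x hx.1 η hη
        refine ⟨s, hs, hsη, ?_⟩
        exact (ENNReal.ofReal_le_iff_le_toReal (hfin _)).1 h3)
    refine hx.2 ⟨hx.1, ?_⟩
    have h3 : (c₁ * lam * r x) ^ n ≤ 1 := by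
      calc (c₁ * lam * r x) ^ n = c₁ ^ n * (lam ^ n * r x ^ n) := by
            rw [mul_pow, mul_pow]; ring
        _ ≤ (c * κ ^ n) * (lam ^ n * r x ^ n) := by
            have := hrx.1
            gcongr
        _ = lam ^ n * (c * (κ * r x) ^ n) := by rw [mul_pow]; ring
        _ ≤ lam ^ n * m := by gcongr
        _ = 1 := hlm
    have h4 : c₁ * lam * r x ≤ 1 := by
      by_contra h5
      push Not at h5
      have := one_lt_pow₀ h5 (show n ≠ 0 by omega)
      linarith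
    exact (le_div_iff₀ hrx.1).2 h4
  choose! s hs0 hs1 hs2 using h1
  -- Vitali
  obtain ⟨u, hu, hdis, hcov⟩ := Vitali.exists_disjoint_subfamily_covering_enlargement
    (fun x => {z | d x z < ENNReal.ofReal (s x)}) (Ω \ Ω₂) s 2 one_lt_two
    (fun a ha => (hs0 a ha).le) (κ * Rb / 5)
    (fun a ha => by
      have h3 := hs1 a ha
      have h4 := mul_le_mul_of_nonneg_left (hr a ha.1).2 hκ.le
      linarith)
    (fun a ha => ⟨a, by
      simp only [mem_setOf_eq, hd0]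
      exact ENNReal.ofReal_pos.2 (hs0 a ha)⟩)
  have hcu : u.Countable := by
    have hpos : ∀ i : u, 0 < μ (Ω ∩ {z | d i z < ENNReal.ofReal (s i)}) := by
      intro i
      obtain ⟨t, ht0, ht1, ht2⟩ := hden i (hu i.2).1 (s i) (hs0 _ (hu i.2))
      refine lt_of_lt_of_le (ENNReal.ofReal_pos.2 (by positivity)) (ht2.trans (measure_mono
        (inter_subset_inter_right _ fun z (hz : d i z < _) => lt_of_lt_of_le hz
          (ENNReal.ofReal_le_ofReal ht1.le))))
    have h3 := Measure.countable_meas_pos_of_disjoint_of_meas_iUnion_ne_top μ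
      (As := fun i : u => Ω ∩ {z | d i z < ENNReal.ofReal (s i)})
      (fun i => hΩ.inter (hBm _ _))
      (fun i j hij => (hdis i.2 j.2 (fun h => hij (Subtype.ext h))).mono
        inter_subset_right inter_subset_right)
      (ne_top_of_le_ne_top hμΩ (measure_mono (iUnion_subset fun i => inter_subset_left)))
    have h4 : {i : u | 0 < μ (Ω ∩ {z | d i z < ENNReal.ofReal (s i)})} = univ :=
      eq_univ_of_forall hpos
    rw [h4] at h3
    exact countable_coe_iff.1 (countable_univ_iff.1 h3)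
  have h3 : ENNReal.ofReal (e * lam) * μ (Ω \ Ω₂) ≤ P univ := by
    have hsubset : Ω \ Ω₂ ⊆ ⋃ b ∈ u, Ω ∩ {z | d b z < ENNReal.ofReal (5 * s b)} := by
      intro a ha
      obtain ⟨b, hb, ⟨z, hz1, hz2⟩, hab⟩ := hcov a ha
      refine mem_iUnion₂.2 ⟨b, hb, ha.1, ?_⟩
      have hb0 := hs0 b (hu hb)
      calc d b a ≤ d b z + d z a := hdt _ _ _
        _ = d b z + d a z := by rw [hds z a]
        _ < ENNReal.ofReal (s b) + ENNReal.ofReal (s a) :=
            ENNReal.add_lt_add hz2 hz1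
        _ = ENNReal.ofReal (s b + s a) := (ENNReal.ofReal_add hb0.le (hs0 a ha).le).symm
        _ ≤ ENNReal.ofReal (5 * s b) := ENNReal.ofReal_le_ofReal (by linarith)
    have := hcu.to_subtype
    calc ENNReal.ofReal (e * lam) * μ (Ω \ Ω₂)
        ≤ ENNReal.ofReal (e * lam) *
          ∑' b : u, μ (Ω ∩ {z | d b z < ENNReal.ofReal (5 * s b)}) := by
          gcongr
          refine (measure_mono hsubset).trans ?_
          rw [biUnion_eq_iUnion]
          exact measure_iUnion_le _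
      _ = ∑' b : u, ENNReal.ofReal (e * lam) *
          μ (Ω ∩ {z | d b z < ENNReal.ofReal (5 * s b)}) := ENNReal.tsum_mul_left.symm
      _ ≤ ∑' b : u, P {z | d b z < ENNReal.ofReal (s b)} :=
          ENNReal.tsum_le_tsum fun b => hs2 b (hu b.2)
      _ ≤ P univ := by
          rw [ENNReal.tsum_eq_iSup_sum]
          refine iSup_le fun v => ?_
          have h5 := hsup (v.map (Function.Embedding.subtype _))
            (fun x => {z | d x z < ENNReal.ofReal (s x)}) (fun y _ => hBm _ _)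
            (fun a ha b hb hab => by
              simp only [Finset.coe_map, Function.Embedding.subtype_apply, mem_image,
                Finset.mem_coe] at ha hb
              obtain ⟨a', -, rfl⟩ := ha
              obtain ⟨b', -, rfl⟩ := hb
              exact hdis a'.2 b'.2 hab)
          rw [Finset.sum_map] at h5
          exact h5
  -- the end
  have h4 : ENNReal.ofReal (ε₁ * lam) * μ Ω ≤
      P univ + ∫⁻ x in Ω, ENNReal.ofReal (1 / r x) ∂μ := by
    calc ENNReal.ofReal (ε₁ * lam) * μ Ω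
        ≤ ENNReal.ofReal (ε₁ * lam) * (μ (Ω \ Ω₂) + μ Ω₂) := by
          gcongr
          calc μ Ω ≤ μ ((Ω \ Ω₂) ∪ Ω₂) := measure_mono (by
                intro x hx
                by_cases h : x ∈ Ω₂
                · exact Or.inr h
                · exact Or.inl ⟨hx, h⟩)
            _ ≤ _ := measure_union_le _ _
      _ = ENNReal.ofReal (ε₁ * lam) * μ (Ω \ Ω₂) + ENNReal.ofReal (ε₁ * lam) * μ Ω₂ :=
          mul_add _ _ _
      _ ≤ ENNReal.ofReal (e * lam) * μ (Ω \ Ω₂) + ENNReal.ofReal (c₁ * lam) * μ Ω₂ := by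
          gcongr
          · exact min_le_left _ _
          · exact min_le_right _ _
      _ ≤ _ := add_le_add h3 h2
  have h5 : (ENNReal.ofReal (ε₁ * lam) * μ Ω) ^ n = ENNReal.ofReal (ε₁ ^ n) * μ Ω ^ (n - 1) := by
    have h6 : μ Ω ^ n = μ Ω * μ Ω ^ (n - 1) := by
      rw [← pow_succ']; congr 1; omega
    rw [mul_pow, h6, ENNReal.ofReal_mul hε₁0.le, mul_pow, ← ENNReal.ofReal_pow hε₁0.le,
      ← ENNReal.ofReal_pow hlam0.le]
    have h7 : ENNReal.ofReal (lam ^ n) * μ Ω = 1 := by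
      rw [← hmo, ← ENNReal.ofReal_mul (by positivity), hlm, ENNReal.ofReal_one]
    calc ENNReal.ofReal (ε₁ ^ n) * ENNReal.ofReal (lam ^ n) * (μ Ω * μ Ω ^ (n - 1))
        = ENNReal.ofReal (ε₁ ^ n) * (ENNReal.ofReal (lam ^ n) * μ Ω) * μ Ω ^ (n - 1) := by ring
      _ = _ := by rw [h7, mul_one]
  have h6 := pow_le_pow_left' h4 n
  rw [h5] at h6
  have hε : (0 : ℝ) < ε₁ ^ n := by positivity
  have hε' : Real.toNNReal (ε₁ ^ n) ≠ 0 := (Real.toNNReal_pos.2 hε).ne'
  rw [ENNReal.coe_inv hε']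
  change ENNReal.ofReal (ε₁ ^ n) * _ ≤ _ at h6
  calc μ Ω ^ (n - 1) = (ENNReal.ofReal (ε₁ ^ n))⁻¹ *
        (ENNReal.ofReal (ε₁ ^ n) * μ Ω ^ (n - 1)) := by
        rw [← mul_assoc, ENNReal.inv_mul_cancel (ENNReal.ofReal_pos.2 hε).ne'
          ENNReal.ofReal_ne_top, one_mul]
    _ ≤ (ENNReal.ofReal (ε₁ ^ n))⁻¹ *
        (P univ + ∫⁻ x in Ω, ENNReal.ofReal (1 / r x) ∂μ) ^ n := by gcongr
    _ = _ := rfl

end Vale.Agent.P223.H566.Vit
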