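import Vale.Agent.P223.H566.JB
import Vale.Agent.P223.H566.Vit

/-! Block V6b: the global isoperimetric inequality. -/

namespace Vale.Agent.P223.H566.Iso

open scoped ContDiff ENNReal NNReal Topology
open MeasureTheory Set
open Vale.Agent.P223.H566.NV

variable {n : ℕ} {X : Type} [TopologicalSpace X] {c : X → J.Ch n X} {g : X → J.Mtx n}

theorem dst_self (x : X) : dst c g x x = 0 := by
  unfold dst
  simp

theorem dst_comm (x y : X) : dst c g x y = dst c g y x := by
  unfold dst
  refine iSup_congr fun u => iSup_congr fun _ => ?_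
  rw [abs_sub_comm]

theorem dst_tri (x y z : X) : dst c g x z ≤ dst c g x y + dst c g y z := by
  unfold dst
  refine iSup₂_le fun u hu => ?_
  calc ENNReal.ofReal |u x - u z| ≤ ENNReal.ofReal (|u x - u y| + |u y - u z|) :=
        ENNReal.ofReal_le_ofReal (abs_sub_le _ _ _)
    _ = ENNReal.ofReal |u x - u y| + ENNReal.ofReal |u y - u z| :=
        ENNReal.ofReal_add (abs_nonneg _) (abs_nonneg _)
    _ ≤ _ := add_le_add
        (le_iSup₂ (f := fun (u : X → ℝ) (_ : J.Lip1 c g u) => ENNReal.ofReal |u x - u y|) u hu)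
        (le_iSup₂ (f := fun (u : X → ℝ) (_ : J.Lip1 c g u) => ENNReal.ofReal |u y - u z|) u hu)

theorem lip_le {u : X → ℝ} (hu : J.Lip1 c g u) (x y : X) :
    ENNReal.ofReal |u x - u y| ≤ dst c g x y :=
  le_iSup₂ (f := fun (u : X → ℝ) (_ : J.Lip1 c g u) => ENNReal.ofReal |u x - u y|) u hu

/-- the distance is lower semicontinuous -/
theorem dst_lsc (hc : J.Atl c) (x : X) : LowerSemicontinuous (dst c g x) := by
  unfold dst
  refine lowerSemicontinuous_iSup fun u => lowerSemicontinuous_iSup fun hu => ?_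
  refine Continuous.lowerSemicontinuous ?_
  exact ENNReal.continuous_ofReal.comp (continuous_const.sub (JB.sm_cont hc hu.1)).abs

theorem meas_ball [MeasurableSpace X] [BorelSpace X] (hc : J.Atl c) (x : X) (s : ℝ≥0∞) :
    MeasurableSet {z | dst c g x z < s} :=
  measurableSet_lt (dst_lsc hc x).measurable measurable_const

theorem liminf_add {f g : ℝ → ℝ≥0∞} {F : Filter ℝ} :
    Filter.liminf f F + Filter.liminf g F ≤ Filter.liminf (fun ε => f ε + g ε) F := by
  refine le_of_forall_lt fun a ha => ?_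
  rcases eq_or_ne (Filter.liminf f F) 0 with h0 | h0
  · rw [h0, zero_add] at ha
    exact lt_of_lt_of_le ha (Filter.liminf_le_liminf
      (Filter.Eventually.of_forall fun ε => le_add_self))
  rcases eq_or_ne (Filter.liminf g F) 0 with h1 | h1
  · rw [h1, add_zero] at ha
    exact lt_of_lt_of_le ha (Filter.liminf_le_liminf
      (Filter.Eventually.of_forall fun ε => le_self_add))
  obtain ⟨b, hb, d, hd, hbd⟩ := ENNReal.exists_lt_add_of_lt_add ha h0 h1
  refine lt_of_lt_of_le hbd ?_
  refine Filter.le_liminf_of_le (by isBoundedDefault) ?_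
  filter_upwards [Filter.eventually_lt_of_lt_liminf hb, Filter.eventually_lt_of_lt_liminf hd]
    with ε h2 h3
  exact add_le_add h2.le h3.le

theorem liminf_sum {ι : Type*} (s : Finset ι) (f : ι → ℝ → ℝ≥0∞) {F : Filter ℝ} :
    ∑ i ∈ s, Filter.liminf (f i) F ≤ Filter.liminf (fun ε => ∑ i ∈ s, f i ε) F := by
  classical
  induction s using Finset.induction_on with
  | empty => simp
  | insert a s ha ih =>
    simp only [Finset.sum_insert ha]
    exact (add_le_add le_rfl ih).trans liminf_add

/-- the perimeter is superadditive -/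
theorem per_sup [MeasurableSpace X] [BorelSpace X] {μ : Measure X} (u : X → ℝ) (t : ℝ)
    (v : Finset X) (B : X → Set X) (hB : ∀ y ∈ v, MeasurableSet (B y))
    (hd : (v : Set X).PairwiseDisjoint B) :
    ∑ y ∈ v, per c g μ u t (B y) ≤ per c g μ u t univ := by
  unfold per
  refine (liminf_sum v _).trans (Filter.liminf_le_liminf (Filter.Eventually.of_forall
    fun ε => ?_))
  have h1 : ∀ y ∈ v, ∫⁻ q in B y ∩ {q | t < |u q| ∧ |u q| ≤ t + ε},
      ENNReal.ofReal (grd c g u q / ε) ∂μ = ∫⁻ q in B y, ENNReal.ofReal (grd c g u q / ε)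
        ∂(μ.restrict {q | t < |u q| ∧ |u q| ≤ t + ε}) := fun y hy => by
    rw [Measure.restrict_restrict (hB y hy)]
  rw [Finset.sum_congr rfl h1, ← lintegral_biUnion_finset hd hB, univ_inter]
  exact setLIntegral_le_lintegral _ _

/-- Block V6b. -/
theorem specIso (hL : SpecLoc) (hDen : SpecDen) : SpecIso := by
  intro n hn
  obtain ⟨C, hC, hL⟩ := hL n (by omega)
  obtain ⟨c', hc', hDen⟩ := hDen n (by omega)
  obtain ⟨C', hV⟩ := Vit.iso n hn hC hc' (show (0 : ℝ) < 1 / 20 by norm_num)
  refine ⟨C', ?_⟩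
  intro X _ _ _ _ μ c g r hc hg hμ hr hinj u hu huc t ht
  have hlf := JB.locFin hc hg hμ
  have hucont := JB.sm_cont hc hu
  have hrcont := JB.sm_cont hc hr.1
  set Ω : Set X := {q | t < |u q|} with hΩ
  have hΩo : IsOpen Ω := isOpen_lt continuous_const hucont.abs
  have hΩs : Ω ⊆ tsupport u := fun q hq => subset_tsupport u (by
    intro h
    have h1 : t < |u q| := hq
    rw [h, abs_zero] at h1
    linarith)
  have hμΩ : μ Ω ≠ ⊤ := ne_top_of_le_ne_top (huc : IsCompact (tsupport u)).measure_lt_top.ne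
    (measure_mono hΩs)
  obtain ⟨Rb, hRb⟩ := (huc : IsCompact (tsupport u)).exists_bound_of_continuousOn
    (f := r) hrcont.continuousOn
  have := hV X μ (dst c g) r Ω (per c g μ u t) Rb hΩo.measurableSet hμΩ dst_self dst_comm
    dst_tri (meas_ball hc) hrcont.measurable
    (fun x hx => ⟨(hinj x).1, (le_abs_self _).trans (hRb x (hΩs hx))⟩)
    (per_sup u t)
    (fun x _ s hs hs2 => hL X μ c g r hc hg hμ hr hinj x u hu huc t s ht hs hs2)
    (fun x hx η hη => by
      obtain ⟨e, he⟩ := (injAt_iff c g x (r x)).1 (hinj x).2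
      exact hDen X μ c g x (r x) e hc hg hμ (hinj x).1 he Ω hΩo hx η hη)
  exact this

end Vale.Agent.P223.H566.Iso
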