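import Vale.Agent.P223.X.RicU
import Vale.Agent.P223.X.Basic2
import Vale.Agent.P223.H566.NV

/-! Basic facts on manifolds given by an atlas `c : X → J.Ch n X`. -/

namespace Vale.Agent.P223.H566.JB

open scoped ContDiff ENNReal NNReal Topology
open MeasureTheory Set Vale.Agent.P223.X
open Vale.Agent.P223.H hiding grd
open Vale.Agent.P223.H566.NV (grd)

variable {n : ℕ} {X : Type} [TopologicalSpace X] {c : X → J.Ch n X} {g : X → J.Mtx n}
  {u v : X → ℝ}

theorem sm_at (hu : J.Sm c u) (a : X) {x : E n} (hx : x ∈ (c a).target) :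
    ContDiffAt ℝ ∞ (fun x => u ((c a).symm x)) x :=
  (hu a x hx).contDiffAt ((c a).open_target.mem_nhds hx)

theorem mem_tgt (hc : J.Atl c) (q : X) : c q q ∈ (c q).target := (c q).map_source (hc q).1

theorem sm_diff (hc : J.Atl c) (hu : J.Sm c u) (q : X) :
    DifferentiableAt ℝ (fun x => u ((c q).symm x)) (c q q) :=
  (sm_at hu q (mem_tgt hc q)).differentiableAt (by simp)

/-- smooth functions are continuous -/
theorem sm_cont (hc : J.Atl c) (hu : J.Sm c u) : Continuous u := by
  refine continuous_iff_continuousAt.2 fun q => ?_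
  have h1 : ContinuousAt (fun x => u ((c q).symm x)) (c q q) :=
    (sm_at hu q (mem_tgt hc q)).continuousAt
  have h2 : ContinuousAt (c q) q := (c q).continuousAt (hc q).1
  refine (ContinuousAt.comp (g := fun x => u ((c q).symm x)) h1 h2).congr ?_
  filter_upwards [(c q).open_source.mem_nhds (hc q).1] with p hp
  simp only [Function.comp_apply, (c q).left_inv hp]

theorem posDef (hc : J.Atl c) (hg : J.Met c g) (q : X) : (g q (c q q)).PosDef :=
  (hg q q (hc q).1).2.1

theorem posDef_chart (hg : J.Met c g) {a : X} {x : E n} (hx : x ∈ (c a).target) :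
    (g a x).PosDef := by
  have h := (hg a _ ((c a).map_target hx)).2.1
  rwa [(c a).right_inv hx] at h

theorem smooth_chart (hg : J.Met c g) {a : X} {x : E n} (hx : x ∈ (c a).target) (i j : Fin n) :
    ContDiffAt ℝ ∞ (fun x => g a x i j) x := by
  have h := (hg a _ ((c a).map_target hx)).1 i j
  rwa [(c a).right_inv hx] at h

theorem grd_nonneg (q : X) : 0 ≤ grd c g u q := Real.sqrt_nonneg _

/-- the gradient of a function of `u` -/
theorem grd_comp (hc : J.Atl c) (hu : J.Sm c u) {ψ : ℝ → ℝ} {q : X} {ψ' : ℝ}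
    (hψ : HasDerivAt ψ ψ' (u q)) : grd c g (fun p => ψ (u p)) q = |ψ'| * grd c g u q := by
  have h1 : (c q).symm (c q q) = q := (c q).left_inv (hc q).1
  have h2 := Grad.gradSq_comp_real (G := g q) (φ := ψ) (φ' := ψ')
    (f := fun x => u ((c q).symm x)) (x := c q q) (by simp only [h1]; exact hψ) (sm_diff hc hu q)
  unfold grd
  have h3 : J.gsq (g q) (fun x => ψ (u ((c q).symm x))) (c q q) =
      ψ' ^ 2 * J.gsq (g q) (fun x => u ((c q).symm x)) (c q q) := h2
  rw [h3, Real.sqrt_mul (sq_nonneg _), Real.sqrt_sq_eq_abs]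

theorem grd_mul_le (hc : J.Atl c) (hg : J.Met c g) (hu : J.Sm c u) (hv : J.Sm c v) (q : X) :
    grd c g (fun p => u p * v p) q ≤ |u q| * grd c g v q + |v q| * grd c g u q := by
  have h1 : (c q).symm (c q q) = q := (c q).left_inv (hc q).1
  have h2 := Grad.sqrt_gradSq_mul_le (G := g q) (x := c q q) (f := fun x => u ((c q).symm x))
    (k := fun x => v ((c q).symm x)) (posDef hc hg q) (sm_diff hc hu q) (sm_diff hc hv q)
  simp only [h1] at h2
  exact h2

theorem grd_add_le (hc : J.Atl c) (hg : J.Met c g) (hu : J.Sm c u) (hv : J.Sm c v) (q : X) :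
    grd c g (fun p => u p + v p) q ≤ grd c g u q + grd c g v q :=
  Grad.sqrt_gradSq_add_le (G := g q) (x := c q q) (f := fun x => u ((c q).symm x))
    (k := fun x => v ((c q).symm x)) (posDef hc hg q) (sm_diff hc hu q) (sm_diff hc hv q)

/-- the gradient is zero where the differential is zero -/
theorem grd_eq_zero {q : X} (h : fderiv ℝ (fun x => u ((c q).symm x)) (c q q) = 0) :
    grd c g u q = 0 := by
  unfold grd J.gsq J.pd
  simp [h]

theorem grd_congr (hc : J.Atl c) {q : X} (h : u =ᶠ[𝓝 q] v) : grd c g u q = grd c g v q := by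
  unfold grd
  have h1 : (c q).symm (c q q) = q := (c q).left_inv (hc q).1
  have h2 : ContinuousAt (c q).symm (c q q) := (c q).continuousAt_symm (mem_tgt hc q)
  have h3 : (fun x => u ((c q).symm x)) =ᶠ[𝓝 (c q q)] fun x => v ((c q).symm x) := by
    have h4 : Filter.Tendsto (c q).symm (𝓝 (c q q)) (𝓝 q) := by
      have := h2.tendsto
      rwa [h1] at this
    exact h4.eventually h
  have h5 : J.gsq (g q) (fun x => u ((c q).symm x)) (c q q) =
      J.gsq (g q) (fun x => v ((c q).symm x)) (c q q) := Grad.gradSq_congr h3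
  rw [h5]

/-- the gradient vanishes at a local maximum -/
theorem grd_max (hc : J.Atl c) {q : X} (h : ∀ p, u p ≤ u q) : grd c g u q = 0 := by
  refine grd_eq_zero ?_
  have h1 : (c q).symm (c q q) = q := (c q).left_inv (hc q).1
  refine IsLocalMax.fderiv_eq_zero (Filter.Eventually.of_forall fun x => ?_)
  simp only [h1]
  exact h _

/-- the gradient vanishes at a local minimum -/
theorem grd_min (hc : J.Atl c) {q : X} (h : ∀ p, u q ≤ u p) : grd c g u q = 0 := by
  refine grd_eq_zero ?_
  have h1 : (c q).symm (c q q) = q := (c q).left_inv (hc q).1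
  refine IsLocalMin.fderiv_eq_zero (Filter.Eventually.of_forall fun x => ?_)
  simp only [h1]
  exact h _

/-- the gradient in an arbitrary chart -/
theorem gsq_chart (hc : J.Atl c) (hg : J.Met c g) (hu : J.Sm c u) {a b q : X}
    (ha : q ∈ (c a).source) (hb : q ∈ (c b).source) :
    J.gsq (g a) (fun x => u ((c a).symm x)) (c a q) =
      J.gsq (g b) (fun x => u ((c b).symm x)) (c b q) := by
  have hx : c a q ∈ RicU.cd c a b := ⟨(c a).map_source ha, by
    simp only [Set.mem_preimage]; rwa [(c a).left_inv ha]⟩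
  have hC := RicU.chg hc hg a b
  have h1 := hC.smooth _ hx
  have h2 := hC.compat _ hx
  have h3 : (jac (J.cm (c a) (c b)) (c a q)).det ≠ 0 := by
    rw [Bas2.det_jac h1]
    exact (((hc a).2 b q ha hb).2).ne'
  have h4 : J.cm (c a) (c b) (c a q) = c b q := by
    unfold J.cm
    rw [(c a).left_inv ha]
  have h5 : DifferentiableAt ℝ (fun x => u ((c b).symm x)) (J.cm (c a) (c b) (c a q)) := by
    rw [h4]
    exact (sm_at hu b ((c b).map_source hb)).differentiableAt (by simp)
  have h6 := Bas2.gradSq_comp (G := g a) (G' := g b) h1 h3 h2 h5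
  rw [h4] at h6
  have h7 : (fun x => u ((c a).symm x)) =ᶠ[𝓝 (c a q)]
      fun x => u ((c b).symm (J.cm (c a) (c b) x)) := by
    filter_upwards [(RicU.isOpen_cd a b).mem_nhds hx] with x hx'
    unfold J.cm
    rw [(c b).left_inv hx'.2]
  exact (Grad.gradSq_congr h7).trans h6

theorem grd_chart (hc : J.Atl c) (hg : J.Met c g) (hu : J.Sm c u) {a q : X}
    (ha : q ∈ (c a).source) :
    grd c g u q = √(J.gsq (g a) (fun x => u ((c a).symm x)) (c a q)) := by
  unfold grd
  rw [gsq_chart hc hg hu (hc q).1 ha]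

/-- the gradient is continuous -/
theorem cont_grd (hc : J.Atl c) (hg : J.Met c g) (hu : J.Sm c u) : Continuous (grd c g u) := by
  refine continuous_iff_continuousAt.2 fun q => ?_
  have h1 : ∀ i, ContinuousAt (fun x => J.pd i (fun x => u ((c q).symm x)) x) (c q q) := by
    intro i
    have h2 := ((sm_at hu q (mem_tgt hc q)).fderiv_right (m := ∞) (by simp)).continuousAt
    exact h2.clm_apply continuousAt_const
  have h3 : ∀ i j, ContinuousAt (fun x => (g q x)⁻¹ i j) (c q q) := by
    intro i j
    have h4 : ContinuousAt (fun x => g q x) (c q q) := by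
      refine continuousAt_pi.2 fun i => continuousAt_pi.2 fun j => ?_
      exact (smooth_chart hg (mem_tgt hc q) i j).continuousAt
    have h5 : ContinuousAt (fun A : Matrix (Fin n) (Fin n) ℝ => A⁻¹) (g q (c q q)) := by
      have h6 : (g q (c q q)).det ≠ 0 := (posDef hc hg q).det_pos.ne'
      have h7 : ContinuousAt (fun A : Matrix (Fin n) (Fin n) ℝ => A.det⁻¹ • A.adjugate)
          (g q (c q q)) :=
        ((Continuous.matrix_det continuous_id).continuousAt.inv₀ h6).smul
          (Continuous.matrix_adjugate continuous_id).continuousAt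
      refine h7.congr (Filter.Eventually.of_forall fun A => ?_)
      simp only [Matrix.inv_def, Ring.inverse_eq_inv']
    have h8 : ContinuousAt (fun x => (g q x)⁻¹) (c q q) := h5.comp h4
    exact (continuousAt_pi.1 (continuousAt_pi.1 h8 i)) j
  have h4 : ContinuousAt (fun x => √(J.gsq (g q) (fun x => u ((c q).symm x)) x)) (c q q) := by
    refine ContinuousAt.sqrt ?_
    unfold J.gsq
    refine tendsto_finsetSum _ fun i _ => tendsto_finsetSum _ fun j _ => ?_
    exact (((h3 i j).mul (h1 i)).mul (h1 j))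
  have h2 : ContinuousAt (c q) q := (c q).continuousAt (hc q).1
  refine (ContinuousAt.comp (g := fun x => √(J.gsq (g q) (fun x => u ((c q).symm x)) x))
    h4 h2).congr ?_
  filter_upwards [(c q).open_source.mem_nhds (hc q).1] with p hp
  exact (grd_chart hc hg hu hp).symm

/-- the Riemannian measure is locally finite -/
theorem locFin [MeasurableSpace X] {μ : Measure X} (hc : J.Atl c) (hg : J.Met c g)
    (hμ : J.Vol c g μ) : IsLocallyFiniteMeasure μ := by
  refine ⟨fun q => ?_⟩
  have hx := mem_tgt hc q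
  have h1 : ContinuousAt (fun x => √(g q x).det) (c q q) := by
    have h4 : ContinuousAt (fun x => g q x) (c q q) := by
      refine continuousAt_pi.2 fun i => continuousAt_pi.2 fun j => ?_
      exact (smooth_chart hg hx i j).continuousAt
    exact ((Continuous.matrix_det continuous_id).continuousAt.comp h4).sqrt
  have h2 : ∀ᶠ x in 𝓝 (c q q), √(g q x).det < √(g q (c q q)).det + 1 :=
    h1.eventually_lt continuousAt_const (lt_add_one _)
  obtain ⟨K, hK, hKs⟩ : ∃ K : Set (E n), IsCompact K ∧ K ∈ 𝓝 (c q q) ∧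
      K ⊆ (c q).target ∩ {x | √(g q x).det < √(g q (c q q)).det + 1} := by
    obtain ⟨K, hK1, hK2, hK3⟩ := local_compact_nhds
      (Filter.inter_mem ((c q).open_target.mem_nhds hx) h2)
    exact ⟨K, hK3, hK1, hK2⟩
  set V : Set (E n) := interior K with hV
  have hVo : IsOpen V := isOpen_interior
  have hVx : c q q ∈ V := mem_interior_iff_mem_nhds.2 hKs.1
  have hVK : V ⊆ K := interior_subset
  have hVt : V ⊆ (c q).target := fun x hx => (hKs.2 (hVK hx)).1
  refine ⟨(c q).symm '' V, ?_, ?_⟩
  · have h5 : IsOpen ((c q).symm '' V) :=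
      (c q).symm.isOpen_image_of_subset_source hVo hVt
    exact h5.mem_nhds ⟨c q q, hVx, (c q).left_inv (hc q).1⟩
  · rw [hμ q V hVt hVo.measurableSet]
    calc ∫⁻ x in V, ENNReal.ofReal √(g q x).det
        ≤ ∫⁻ _ in V, ENNReal.ofReal (√(g q (c q q)).det + 1) :=
          setLIntegral_mono' hVo.measurableSet fun x hx =>
            ENNReal.ofReal_le_ofReal (hKs.2 (hVK hx)).2.le
      _ = ENNReal.ofReal (√(g q (c q q)).det + 1) * volume V := setLIntegral_const _ _
      _ < ⊤ := ENNReal.mul_lt_top ENNReal.ofReal_lt_top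
          ((measure_mono hVK).trans_lt hK.measure_lt_top)

end Vale.Agent.P223.H566.JB
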