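import Vale.Agent.P223.H566.Def
import Vale.Agent.P223.X.Basic

/-! Local calculus for the Dirac operator: covariance, Leibniz rule, smoothness. -/

namespace Vale.Agent.P223.H566

open scoped ContDiff InnerProductSpace Topology
open MeasureTheory Vale.Agent.P223.H Vale.Agent.P223.X

section
variable {n : ℕ} {V : Type} [NormedAddCommGroup V] [InnerProductSpace ℂ V]
  (K : Cliff n V) {G β : E n → Matrix (Fin n) (Fin n) ℝ}

theorem rs_apply (r : ℝ) (A : V →L[ℂ] V) (v : V) : rs r A v = (r : ℂ) • A v := rfl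

theorem rs_eq (r : ℝ) (A : V →L[ℂ] V) : rs r A = r • A := by
  ext v; rw [rs_apply]; exact (Complex.coe_smul r (A v))

theorem cl_apply (y : E n) (k : Fin n) (v : V) :
    cl K β y k v = ∑ a, (β y a k : ℂ) • K.c a v := by
  simp only [cl, sum_apply, rs_apply]

theorem contDiff_cl {m : WithTop ℕ∞} (hβ : ∀ a k, ContDiff ℝ m (fun y => β y a k)) (k : Fin n) :
    ContDiff ℝ m (fun y => cl K β y k) := by
  simp only [cl, rs_eq]
  exact ContDiff.sum fun a _ => (hβ a k).smul contDiff_const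

theorem contDiff_om (hG : ∀ i j, ContDiff ℝ ∞ (fun x => G x i j)) (hp : ∀ x, (G x).PosDef)
    (hβ : ∀ a k, ContDiff ℝ ∞ (fun y => β y a k)) (k a b : Fin n) :
    ContDiff ℝ ∞ (fun y => om G β y k a b) := by
  unfold om
  refine ContDiff.sum fun m _ => ?_
  refine (ContDiff.sum fun p _ => (hβ a p).mul (hG p m)).mul ?_
  refine ContDiff.add ?_ (ContDiff.sum fun l _ => (Bas2.sm_chr hG hp m k l).mul (hβ b l))
  exact Bridge.contDiff_pd (hβ b m) (by simp) k

theorem contDiff_spc (hG : ∀ i j, ContDiff ℝ ∞ (fun x => G x i j)) (hp : ∀ x, (G x).PosDef)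
    (hβ : ∀ a k, ContDiff ℝ ∞ (fun y => β y a k)) (k : Fin n) :
    ContDiff ℝ ∞ (fun y => spc K G β y k) := by
  simp only [spc, rs_eq]
  refine ContDiff.sum fun a _ => ContDiff.sum fun b _ => ?_
  exact ((contDiff_om hG hp hβ k a b).div_const 4).smul contDiff_const

/-- evaluation of operator valued functions -/
theorem contDiff_clm_apply' {m : WithTop ℕ∞} {A : E n → V →L[ℂ] V} {f : E n → V}
    (hA : ContDiff ℝ m A) (hf : ContDiff ℝ m f) : ContDiff ℝ m (fun y => A y (f y)) := by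
  have hb : IsBoundedBilinearMap ℝ (fun p : (V →L[ℂ] V) × V => p.1 p.2) := by
    have := (isBoundedBilinearMap_apply (𝕜 := ℂ) (E := V) (F := V))
    exact ⟨fun x y z => rfl, fun c x y => rfl, fun x y z => map_add _ _ _,
      fun c x y => (x.restrictScalars ℝ).map_smul c y, this.bound⟩
  exact hb.contDiff.comp (hA.prodMk hf)

theorem contDiff_nab (hG : ∀ i j, ContDiff ℝ ∞ (fun x => G x i j)) (hp : ∀ x, (G x).PosDef)
    (hβ : ∀ a k, ContDiff ℝ ∞ (fun y => β y a k)) (k : Fin n) {φ : E n → V}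
    (hφ : ContDiff ℝ ∞ φ) : ContDiff ℝ ∞ (nab K G β k φ) := by
  unfold nab
  refine ContDiff.add ?_ (contDiff_clm_apply' (contDiff_spc K hG hp hβ k) hφ)
  exact ((hφ.fderiv_right (m := ∞) (by simp)).clm_apply contDiff_const)

theorem contDiff_dir (hG : ∀ i j, ContDiff ℝ ∞ (fun x => G x i j)) (hp : ∀ x, (G x).PosDef)
    (hβ : ∀ a k, ContDiff ℝ ∞ (fun y => β y a k)) {φ : E n → V}
    (hφ : ContDiff ℝ ∞ φ) : ContDiff ℝ ∞ (dir K G β φ) := by
  unfold dir
  exact ContDiff.sum fun k _ => contDiff_clm_apply' (contDiff_cl K hβ k)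
    (contDiff_nab K hG hp hβ k hφ)

theorem nab_congr {k : Fin n} {φ φ' : E n → V} {y : E n} (h : φ =ᶠ[𝓝 y] φ') :
    nab K G β k φ y = nab K G β k φ' y := by
  unfold nab; rw [h.fderiv_eq, h.self_of_nhds]

theorem dir_congr {φ φ' : E n → V} {y : E n} (h : φ =ᶠ[𝓝 y] φ') :
    dir K G β φ y = dir K G β φ' y := by
  unfold dir; simp only [nab_congr K h]

theorem nab_add {k : Fin n} {φ φ' : E n → V} {y : E n} (h : DifferentiableAt ℝ φ y)
    (h' : DifferentiableAt ℝ φ' y) :
    nab K G β k (fun z => φ z + φ' z) y = nab K G β k φ y + nab K G β k φ' y := by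
  unfold nab
  rw [fderiv_fun_add h h', add_apply, map_add]; abel

theorem nab_smul {k : Fin n} {φ : E n → V} {y : E n} (h : DifferentiableAt ℝ φ y) (c : ℂ) :
    nab K G β k (fun z => c • φ z) y = c • nab K G β k φ y := by
  unfold nab
  rw [fderiv_fun_const_smul h, smul_apply, map_smul, smul_add]

theorem dir_add {φ φ' : E n → V} {y : E n} (h : DifferentiableAt ℝ φ y)
    (h' : DifferentiableAt ℝ φ' y) :
    dir K G β (fun z => φ z + φ' z) y = dir K G β φ y + dir K G β φ' y := by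
  unfold dir
  simp only [nab_add K h h', map_add, Finset.sum_add_distrib]

theorem dir_smul {φ : E n → V} {y : E n} (h : DifferentiableAt ℝ φ y) (c : ℂ) :
    dir K G β (fun z => c • φ z) y = c • dir K G β φ y := by
  unfold dir
  simp only [nab_smul K h, map_smul, Finset.smul_sum]

/-- Leibniz rule, complex valued functions -/
theorem nab_mul {k : Fin n} {f : E n → ℂ} {φ : E n → V} {y : E n} (hf : DifferentiableAt ℝ f y)
    (h : DifferentiableAt ℝ φ y) : nab K G β k (fun z => f z • φ z) y =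
      f y • nab K G β k φ y + (fderiv ℝ f y (Pi.single k 1)) • φ y := by
  unfold nab
  rw [fderiv_fun_smul hf h, map_smul]
  simp only [add_apply, smul_apply,
    ContinuousLinearMap.smulRight_apply, smul_add]
  abel

theorem dir_mul {f : E n → ℂ} {φ : E n → V} {y : E n} (hf : DifferentiableAt ℝ f y)
    (h : DifferentiableAt ℝ φ y) : dir K G β (fun z => f z • φ z) y =
      f y • dir K G β φ y + ∑ k, (fderiv ℝ f y (Pi.single k 1)) • cl K β y k (φ y) := by
  unfold dir
  simp only [nab_mul K hf h, map_add, map_smul, Finset.sum_add_distrib, Finset.smul_sum]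

/-- Leibniz rule, real valued functions -/
theorem dir_mul_real {f : E n → ℝ} {φ : E n → V} {y : E n} (hf : DifferentiableAt ℝ f y)
    (h : DifferentiableAt ℝ φ y) : dir K G β (fun z => (f z : ℂ) • φ z) y =
      (f y : ℂ) • dir K G β φ y + cdf K β f y (φ y) := by
  have h1 : DifferentiableAt ℝ (fun z => (f z : ℂ)) y :=
    Complex.ofRealCLM.differentiableAt.comp y hf
  rw [dir_mul K h1 h]
  congr 1
  simp only [cdf, sum_apply, rs_apply]
  refine Finset.sum_congr rfl fun k _ => ?_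
  congr 1
  have : HasFDerivAt (fun z => (f z : ℂ)) (Complex.ofRealCLM.comp (fderiv ℝ f y)) y :=
    Complex.ofRealCLM.hasFDerivAt.comp y hf.hasFDerivAt
  rw [this.fderiv]; rfl

end

/-! covariance -/
section
variable {n : ℕ} {V : Type} [NormedAddCommGroup V] [InnerProductSpace ℂ V]
  (K : Cliff n V) {G β G' β' : E n → Matrix (Fin n) (Fin n) ℝ}

theorem cov_nab {T : E n → E n} {U : E n → V →L[ℂ] V} {φ φ' : E n → V} {y : E n}
    (hT : DifferentiableAt ℝ T y) (hU : DifferentiableAt ℝ U y) (hφ : DifferentiableAt ℝ φ y)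
    (hφ' : DifferentiableAt ℝ φ' (T y))
    (conn : ∀ k, fderiv ℝ U y (Pi.single k 1) = U y * spc K G β y k -
      (∑ l, rs (fderiv ℝ T y (Pi.single k 1) l) (spc K G' β' (T y) l)) * U y)
    (h : (fun z => φ' (T z)) =ᶠ[𝓝 y] fun z => U z (φ z)) (k : Fin n) :
    ∑ l, ((fderiv ℝ T y (Pi.single k 1) l : ℝ) : ℂ) • nab K G' β' l φ' (T y) =
      U y (nab K G β k φ y) := by
  have hy : φ' (T y) = U y (φ y) := h.self_of_nhds
  have e1 : HasFDerivAt (fun z => φ' (T z)) ((fderiv ℝ φ' (T y)).comp (fderiv ℝ T y)) y :=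
    hφ'.hasFDerivAt.comp y hT.hasFDerivAt
  have hb : IsBoundedBilinearMap ℝ (fun p : (V →L[ℂ] V) × V => p.1 p.2) := by
    have := (isBoundedBilinearMap_apply (𝕜 := ℂ) (E := V) (F := V))
    exact ⟨fun x y z => rfl, fun c x y => rfl, fun x y z => map_add _ _ _,
      fun c x y => (x.restrictScalars ℝ).map_smul c y, this.bound⟩
  have e2 := (hb.hasFDerivAt (U y, φ y)).comp y (hU.hasFDerivAt.prodMk hφ.hasFDerivAt)
  have e3 : (fderiv ℝ φ' (T y)).comp (fderiv ℝ T y) =
      (hb.deriv (U y, φ y)).comp ((fderiv ℝ U y).prod (fderiv ℝ φ y)) := by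
    rw [← e1.fderiv, h.fderiv_eq]; exact e2.fderiv
  have e4 := congrArg (fun L => L (Pi.single k (1 : ℝ))) e3
  simp only [ContinuousLinearMap.comp_apply, ContinuousLinearMap.prod_apply] at e4
  have e5 : fderiv ℝ φ' (T y) (fderiv ℝ T y (Pi.single k 1)) =
      ∑ l, ((fderiv ℝ T y (Pi.single k 1) l : ℝ) : ℂ) • fderiv ℝ φ' (T y) (Pi.single l 1) := by
    have h2 : fderiv ℝ T y (Pi.single k 1) =
        ∑ l, (fderiv ℝ T y (Pi.single k 1) l) • (Pi.single l (1 : ℝ) : E n) := by
      ext k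
      simp [Finset.sum_apply, Pi.single_apply]
    conv_lhs => rw [h2, map_sum]
    refine Finset.sum_congr rfl fun l _ => ?_
    rw [map_smul]; exact (Complex.coe_smul _ _).symm
  have e6 : hb.deriv (U y, φ y) (fderiv ℝ U y (Pi.single k 1), fderiv ℝ φ y (Pi.single k 1)) =
      U y (fderiv ℝ φ y (Pi.single k 1)) + fderiv ℝ U y (Pi.single k 1) (φ y) := rfl
  rw [e5, e6] at e4
  unfold nab
  simp only [smul_add, Finset.sum_add_distrib]
  rw [e4, conn k, hy, map_add]
  simp only [sub_apply, mul_apply_eq_comp,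
    sum_apply, rs_apply]
  abel

theorem cov_dir {T : E n → E n} {U : E n → V →L[ℂ] V} {φ φ' : E n → V} {y : E n}
    (hT : DifferentiableAt ℝ T y) (hU : DifferentiableAt ℝ U y) (hφ : DifferentiableAt ℝ φ y)
    (hφ' : DifferentiableAt ℝ φ' (T y)) (hs : ∃ W : V →L[ℂ] V, U y * W = 1 ∧ W * U y = 1)
    (conn : ∀ k, fderiv ℝ U y (Pi.single k 1) = U y * spc K G β y k -
      (∑ l, rs (fderiv ℝ T y (Pi.single k 1) l) (spc K G' β' (T y) l)) * U y)
    (cliff : ∀ l, U y * ∑ k, rs (fderiv ℝ T y (Pi.single k 1) l) (cl K β y k) =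
      cl K β' (T y) l * U y)
    (h : (fun z => φ' (T z)) =ᶠ[𝓝 y] fun z => U z (φ z)) :
    dir K G' β' φ' (T y) = U y (dir K G β φ y) := by
  obtain ⟨W, hW1, hW2⟩ := hs
  have hk := cov_nab K hT hU hφ hφ' conn h
  have hc : ∀ l, cl K β' (T y) l =
      U y * (∑ k, rs (fderiv ℝ T y (Pi.single k 1) l) (cl K β y k)) * W := fun l => by
    rw [cliff l, mul_assoc, hW1, mul_one]
  unfold dir
  simp only [hc, mul_apply_eq_comp, sum_apply, rs_apply, map_sum,
    map_smul]
  rw [Finset.sum_comm]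
  refine Finset.sum_congr rfl fun k _ => ?_
  have : cl K β y k (W (∑ l, ((fderiv ℝ T y (Pi.single k 1) l : ℝ) : ℂ) •
      nab K G' β' l φ' (T y))) = cl K β y k (nab K G β k φ y) := by
    rw [hk k, ← mul_apply_eq_comp W, hW2]; rfl
  rw [← this]
  simp only [map_sum, map_smul]

end

end Vale.Agent.P223.H566
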