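import Vale.Agent.P223.H367.Pol
import Vale.Agent.P223.H566.ChdG
import Vale.Agent.P223.H566.NV

/-! Block V2c: polar coordinates, local version. -/

namespace Vale.Agent.P223.H566.PolL

open scoped ContDiff ENNReal NNReal
open MeasureTheory Set
open Vale.Agent.P223.H765.NC (ham hv vol shl bb len SpecFlow)
open Vale.Agent.P223.H566.NV
open Vale.Agent.P223.H367 (det_smul_clm diff_of_det cont_dens ham_smul ham_pos cont_ham_p polar)

variable {n : ℕ}

/-- The integral over one fibre. -/
theorem pol_fibre (hF : SpecFlow) (hL : SpecLiouL) {Ω₀ : Set (J.E n)} {G : J.Mtx n} {Φ : ℝ → J.E n × J.E n → J.E n × J.E n}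
    (hn : 1 ≤ n) (hg : GeoL G Φ Ω₀) {Ω : Set (J.E n)} (hΩ : IsOpen Ω) (hΩ₀ : Ω ⊆ Ω₀)
    (q : J.E n) :
    ∫⁻ p, (shl G).indicator (fun z => ∫⁻ T in Ioi (0 : ℝ),
      {T : ℝ | ∀ t ∈ Icc 0 T, (Φ t z).1 ∈ Ω}.indicator
        (fun T => ENNReal.ofReal (bb G Φ T z / T)) T) (q, p) ≤
      Ω.indicator (fun q => ENNReal.ofReal (Real.log 2) * (ENNReal.ofReal √(G q).det * vol G Ω))
        q := by
  obtain ⟨-, -, hsc, -⟩ := hL n G Φ hg.toFlo
  by_cases hq : q ∈ Ω
  swap
  · rw [indicator_of_notMem hq, nonpos_iff_eq_zero]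
    rw [← lintegral_zero (μ := (volume : Measure (J.E n)))]
    apply lintegral_congr
    intro p
    by_cases hp : (q, p) ∈ shl G
    · rw [indicator_of_mem hp, ← lintegral_zero (μ := volume.restrict (Ioi (0 : ℝ)))]
      apply setLIntegral_congr_fun measurableSet_Ioi
      intro T hT
      have hT' : 0 < T := hT
      apply indicator_of_notMem
      intro h
      have := h 0 ⟨le_rfl, hT'.le⟩
      rw [hg.zero] at this
      exact hq this
    · rw [indicator_of_notMem hp]
  rw [indicator_of_mem hq]
  set ψ : J.E n → J.E n := fun p => (Φ 1 (q, p)).1 with hψ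
  have hψT : ∀ T p, (Φ T (q, p)).1 = ψ (T • p) := by
    intro T p
    have h1 := hsc 1 T q p
    rw [mul_one] at h1
    rw [hψ]
    simp only
    rw [h1]
  have hcf := (hF _ (hv G) Φ (H566.ChdG.cd_hv hg.smooth hg.pos) hg.zero hg.flow).1
  have hd : Differentiable ℝ ψ := by
    have h0 : ContDiff ℝ 1 fun p : J.E n => ((1 : ℝ), (q, p)) :=
      contDiff_const.prodMk (contDiff_const.prodMk contDiff_id)
    have h1 : ContDiff ℝ 1 fun p : J.E n => Φ 1 (q, p) := hcf.comp h0
    exact (contDiff_fst.comp h1).differentiable (by norm_num)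
  -- the domain
  set D : Set (J.E n) := {p | Seg Φ Ω 1 (q, p)} with hD
  have hDo : IsOpen D := by
    have h1 : IsOpen {x : ℝ × J.E n | (Φ x.1 (q, x.2)).1 ∈ Ω} := by
      have h0 : Continuous fun x : ℝ × J.E n => (x.1, (q, x.2)) :=
        continuous_fst.prodMk (continuous_const.prodMk continuous_snd)
      have h0' : Continuous fun x : ℝ × J.E n => Φ x.1 (q, x.2) := hcf.continuous.comp h0
      exact hΩ.preimage (continuous_fst.comp h0')
    have h2 : D = {p | ∀ t ∈ Icc (0 : ℝ) 1, (t, p) ∈ {x : ℝ × J.E n | (Φ x.1 (q, x.2)).1 ∈ Ω}} :=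
      rfl
    rw [h2]
    refine isOpen_iff_mem_nhds.2 fun p hp => ?_
    obtain ⟨U, V, hU, hV, hUK, hVp, hUV⟩ := generalized_tube_lemma (isCompact_Icc (a := (0 : ℝ))
      (b := 1)) (isCompact_singleton (x := p)) h1 (fun x hx => by
        obtain ⟨hx1, hx2⟩ := hx
        rw [mem_singleton_iff] at hx2
        have := hp x.1 hx1
        rw [← hx2] at this
        exact this)
    filter_upwards [hV.mem_nhds (singleton_subset_iff.1 hVp)] with p' hp' t ht
    exact hUV (show ((t, p') : ℝ × J.E n) ∈ U ×ˢ V from ⟨hUK ht, hp'⟩)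
  have hDT : ∀ T : ℝ, 0 < T → ∀ p, (∀ t ∈ Icc 0 T, (Φ t (q, p)).1 ∈ Ω) → T • p ∈ D := by
    intro T hT p h t ht
    rw [hψT, smul_smul, ← hψT]
    exact h _ ⟨mul_nonneg ht.1 hT.le, mul_le_of_le_one_left hT.le ht.2⟩
  have hDi : InjOn ψ D := fun p hp p' hp' h =>
    hg.inj q p p' (fun t ht => hΩ₀ (hp t ht)) (fun t ht => hΩ₀ (hp' t ht)) h
  have hDΩ : ∀ p ∈ D, ψ p ∈ Ω := fun p hp => hp 1 ⟨zero_le_one, le_rfl⟩
  have hdens := cont_dens hg.smooth
  set F : J.E n → ℝ≥0∞ := fun p => D.indicator 1 p *
    ENNReal.ofReal (|(fderiv ℝ ψ p).det| * (√(G (ψ p)).det * √(G q).det)) with hFF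
  have hFm : Measurable F := by
    apply Measurable.mul
    · exact measurable_one.indicator hDo.measurableSet
    · apply ENNReal.measurable_ofReal.comp
      apply Measurable.mul
      · have h2 : Measurable fun p => (fderiv ℝ ψ p).det :=
          (ContinuousLinearMap.continuous_det.measurable).comp (measurable_fderiv ℝ ψ)
        exact measurable_norm.comp h2
      · exact ((hdens.comp hd.continuous).mul continuous_const).measurable
  have hset : ∀ p, ((q, p) ∈ shl G) ↔ p ∈ {p | 1 / 4 < 2 * ham G (q, p) ∧ 2 * ham G (q, p) ≤ 1} :=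
    fun p => Iff.rfl
  have hNm : Measurable fun p => 2 * ham G (q, p) :=
    (continuous_const.mul (cont_ham_p G q)).measurable
  have hSm : MeasurableSet {p : J.E n | 1 / 4 < 2 * ham G (q, p) ∧ 2 * ham G (q, p) ≤ 1} :=
    (measurableSet_lt measurable_const hNm).inter (measurableSet_le hNm measurable_const)
  calc ∫⁻ p, (shl G).indicator (fun z => ∫⁻ T in Ioi (0 : ℝ),
        {T : ℝ | ∀ t ∈ Icc 0 T, (Φ t z).1 ∈ Ω}.indicator
          (fun T => ENNReal.ofReal (bb G Φ T z / T)) T) (q, p)
      ≤ ∫⁻ p, {p | 1 / 4 < 2 * ham G (q, p) ∧ 2 * ham G (q, p) ≤ 1}.indicator (fun p =>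
          ∫⁻ T in Ioi (0 : ℝ), F (T • p) * ENNReal.ofReal (T ^ n / T)) p := by
        apply lintegral_mono
        intro p
        beta_reduce
        by_cases hp : (q, p) ∈ shl G
        · rw [indicator_of_mem hp, indicator_of_mem ((hset p).1 hp)]
          apply setLIntegral_mono' measurableSet_Ioi
          intro T hT
          have hT' : 0 < T := hT
          by_cases hm : T ∈ {T : ℝ | ∀ t ∈ Icc 0 T, (Φ t (q, p)).1 ∈ Ω}
          · rw [indicator_of_mem hm]
            have h3 : T • p ∈ D := hDT T hT' p hm
            rw [hFF]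
            simp only
            rw [indicator_of_mem h3, Pi.one_apply, one_mul, ← ENNReal.ofReal_mul (by positivity)]
            apply ENNReal.ofReal_le_ofReal
            apply le_of_eq
            rw [bb]
            simp only [hψT]
            have h4 : fderiv ℝ (fun p => ψ (T • p)) p = T • fderiv ℝ ψ (T • p) :=
              fderiv_comp_smul (f := ψ) (x := p) T
            rw [h4, det_smul_clm, abs_mul, abs_of_pos (show (0 : ℝ) < T ^ n by positivity)]
            ring
          · rw [indicator_of_notMem hm]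
            exact zero_le
        · rw [indicator_of_notMem hp]
          exact zero_le
    _ = ENNReal.ofReal (Real.log 2) * ∫⁻ p, F p := by
        rw [lintegral_indicator hSm]
        refine polar hn hNm ?_ ?_ hFm
        · intro c p
          rw [ham_smul]
          ring
        · intro p hp
          have := ham_pos (G := G) (hg.pos q) hp
          positivity
    _ ≤ ENNReal.ofReal (Real.log 2) * (ENNReal.ofReal √(G q).det * vol G Ω) := by
        gcongr
        have h6 := lintegral_image_eq_lintegral_abs_det_fderiv_mul (volume : Measure (J.E n))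
          hDo.measurableSet (f := ψ) (f' := fderiv ℝ ψ)
          (fun x _ => (hd x).hasFDerivAt.hasFDerivWithinAt) hDi
          (fun y => ENNReal.ofReal √(G y).det * ENNReal.ofReal √(G q).det)
        have h5 : ∫⁻ p, F p = ∫⁻ p in D, ENNReal.ofReal |(fderiv ℝ ψ p).det| *
            (ENNReal.ofReal √(G (ψ p)).det * ENNReal.ofReal √(G q).det) := by
          rw [← lintegral_indicator hDo.measurableSet]
          refine lintegral_congr fun p => ?_
          rw [hFF]
          simp only
          by_cases hp : p ∈ D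
          · rw [indicator_of_mem hp, indicator_of_mem hp, Pi.one_apply, one_mul,
              ENNReal.ofReal_mul (abs_nonneg _), ENNReal.ofReal_mul (Real.sqrt_nonneg _)]
          · rw [indicator_of_notMem hp, indicator_of_notMem hp, zero_mul]
        rw [h5, ← h6]
        have h8 : Measurable fun y => ENNReal.ofReal √(G y).det :=
          ENNReal.measurable_ofReal.comp hdens.measurable
        calc ∫⁻ y in ψ '' D, ENNReal.ofReal √(G y).det * ENNReal.ofReal √(G q).det
            ≤ ∫⁻ y in Ω, ENNReal.ofReal √(G y).det * ENNReal.ofReal √(G q).det :=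
              lintegral_mono_set (image_subset_iff.2 fun p hp => hDΩ p hp)
          _ = ENNReal.ofReal √(G q).det * vol G Ω := by
              rw [lintegral_mul_const _ h8, mul_comm]
              rfl

/-- BLOCK V2c. -/
theorem specPolL (hF : SpecFlow) (hL : SpecLiouL) : SpecPolL := by
  intro n G Φ Ω₀ hn hg Ω hΩ hΩ₀
  have hdens := cont_dens hg.smooth
  have hGi : Continuous fun x => (G x)⁻¹ := by
    have h1 : Continuous G := continuous_matrix fun i j => (hg.smooth i j).continuous
    have h2 : (fun x => (G x)⁻¹) = fun x => (G x).det⁻¹ • (G x).adjugate := by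
      funext x
      rw [Matrix.inv_def, Ring.inverse_eq_inv']
    rw [h2]
    exact (h1.matrix_det.inv₀ fun x => (hg.pos x).det_pos.ne').smul h1.matrix_adjugate
  have hham : Continuous (ham G) := by
    have h1 : ∀ i j, Continuous fun z : J.E n × J.E n => (G z.1)⁻¹ i j := fun i j =>
      (hGi.comp continuous_fst).matrix_elem i j
    have h2 : ham G = fun z => 1 / 2 * ∑ i, ∑ j, (G z.1)⁻¹ i j * z.2 i * z.2 j := rfl
    rw [h2]
    refine continuous_const.mul (continuous_finsetSum _ fun i _ => continuous_finsetSum _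
      fun j _ => ((h1 i j).mul ?_).mul ?_)
    · exact (continuous_apply i).comp continuous_snd
    · exact (continuous_apply j).comp continuous_snd
  have hshl : MeasurableSet (shl G) := by
    have h1 : Measurable fun z => 2 * ham G z := (continuous_const.mul hham).measurable
    exact (measurableSet_lt measurable_const h1).inter (measurableSet_le h1 measurable_const)
  rw [← lintegral_indicator hshl, Measure.volume_eq_prod]
  refine (lintegral_prod_le _).trans ?_
  calc _ ≤ ∫⁻ q, Ω.indicator (fun q => ENNReal.ofReal (Real.log 2) *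
        (ENNReal.ofReal √(G q).det * vol G Ω)) q :=
        lintegral_mono fun q => pol_fibre hF hL hn hg hΩ hΩ₀ q
    _ = ENNReal.ofReal (Real.log 2) * vol G Ω ^ 2 := by
        have hm : Measurable fun q => ENNReal.ofReal √(G q).det :=
          ENNReal.measurable_ofReal.comp hdens.measurable
        rw [lintegral_indicator hΩ.measurableSet, lintegral_const_mul _ (hm.mul_const _),
          lintegral_mul_const _ hm, sq]
        rfl
    _ ≤ _ := le_rfl

end Vale.Agent.P223.H566.PolL
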