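import Mathlib.MeasureTheory.Integral.MeanInequalities
import Mathlib.MeasureTheory.Integral.Lebesgue.Countable
import Mathlib.Analysis.SpecificLimits.Basic

/-! From the truncation inequality to the Sobolev inequality (abstract measure spaces). -/

namespace Vale.Agent.P223.H566.SobR

open MeasureTheory Set
open scoped ENNReal NNReal

theorem two_ne_zero' : (2 : ℝ≥0∞) ≠ 0 := two_ne_zero
theorem two_ne_top' : (2 : ℝ≥0∞) ≠ ⊤ := ENNReal.ofNat_ne_top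

theorem ofReal_zpow (k : ℤ) : ENNReal.ofReal ((2 : ℝ) ^ k) = (2 : ℝ≥0∞) ^ (k : ℝ) := by
  rw [← Real.rpow_intCast, ← ENNReal.ofReal_rpow_of_pos two_pos]
  simp

/-- abstract recursion -/
theorem rec_bound {N : ℝ} (hN : 3 ≤ N) {C E : ℝ≥0∞} {V e : ℤ → ℝ≥0∞}
    (he : ∑' k, e k ≤ E)
    (hfin : ∑' k : ℤ, (2 : ℝ≥0∞) ^ ((k : ℝ) * (2 * N / (N - 2))) * V k ≠ ⊤)
    (h : ∀ k : ℤ, V (k + 1) ≤ C * ((2 : ℝ≥0∞) ^ (-((k : ℝ) * (N / (N + 1)))) *
      V k ^ ((2 + N / 2) / (N + 1)) * e k ^ ((N / 2) / (N + 1)))) :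
    (∑' k : ℤ, (2 : ℝ≥0∞) ^ ((k : ℝ) * (2 * N / (N - 2))) * V k) ^ ((N - 2) / N) ≤
      (C * (2 : ℝ≥0∞) ^ (2 * N / (N - 2))) ^ (2 * (N + 1) / N) * E := by
  set p : ℝ := 2 * N / (N - 2) with hp
  set α : ℝ := (2 + N / 2) / (N + 1) with hα
  set β : ℝ := (N / 2) / (N + 1) with hβ
  set γ : ℝ := (N / 2 - 1) / (N + 1) with hγ
  have hN2 : 0 < N - 2 := by linarith
  have hN1 : 0 < N + 1 := by linarith
  have hN0 : 0 < N := by linarith
  have hγ0 : 0 < γ := div_pos (by linarith) hN1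
  have hβ0 : 0 < β := div_pos (by linarith) hN1
  have hβγ : 0 ≤ β - γ := by
    rw [hβ, hγ, ← sub_div]; exact div_nonneg (by linarith) hN1.le
  have hαγ : α = 1 - γ := by rw [hα, hγ]; field_simp; ring
  have hγ1 : γ ≤ 1 := by rw [hγ, div_le_one hN1]; linarith
  set v : ℤ → ℝ≥0∞ := fun k => (2 : ℝ≥0∞) ^ ((k : ℝ) * p) * V k with hv
  set S : ℝ≥0∞ := ∑' k, v k with hS
  have hstep : ∀ k : ℤ, v (k + 1) ≤ C * 2 ^ p * E ^ (β - γ) * (v k ^ (1 - γ) * e k ^ γ) := by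
    intro k
    have h1 : v (k + 1) ≤ (2 : ℝ≥0∞) ^ (((k : ℝ) + 1) * p) *
        (C * ((2 : ℝ≥0∞) ^ (-((k : ℝ) * (N / (N + 1)))) * V k ^ α * e k ^ β)) := by
      rw [hv]
      simp only [Int.cast_add, Int.cast_one]
      exact mul_le_mul_right (h k) _
    have h2 : e k ^ β ≤ E ^ (β - γ) * e k ^ γ := by
      have h3 : e k ^ β = e k ^ (β - γ) * e k ^ γ := by
        rw [← ENNReal.rpow_add_of_nonneg _ _ hβγ hγ0.le]; congr 1; ring
      rw [h3]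
      have h4 : e k ≤ E := (ENNReal.le_tsum k).trans he
      exact mul_le_mul_left (ENNReal.rpow_le_rpow h4 hβγ) _
    have h3 : v k ^ (1 - γ) = (2 : ℝ≥0∞) ^ ((k : ℝ) * p * (1 - γ)) * V k ^ α := by
      rw [hv, hαγ]
      simp only
      rw [ENNReal.mul_rpow_of_nonneg _ _ (by linarith), ← ENNReal.rpow_mul]
    have h4 : (2 : ℝ≥0∞) ^ (((k : ℝ) + 1) * p) * (2 : ℝ≥0∞) ^ (-((k : ℝ) * (N / (N + 1)))) =
        2 ^ p * (2 : ℝ≥0∞) ^ ((k : ℝ) * p * (1 - γ)) := by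
      rw [← ENNReal.rpow_add _ _ two_ne_zero' two_ne_top',
        ← ENNReal.rpow_add _ _ two_ne_zero' two_ne_top']
      congr 1
      rw [hp, hγ]
      field_simp
      ring
    calc v (k + 1) ≤ (2 : ℝ≥0∞) ^ (((k : ℝ) + 1) * p) *
        (C * ((2 : ℝ≥0∞) ^ (-((k : ℝ) * (N / (N + 1)))) * V k ^ α * e k ^ β)) := h1
      _ ≤ (2 : ℝ≥0∞) ^ (((k : ℝ) + 1) * p) *
        (C * ((2 : ℝ≥0∞) ^ (-((k : ℝ) * (N / (N + 1)))) * V k ^ α * (E ^ (β - γ) * e k ^ γ))) := by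
          gcongr
      _ = C * ((2 : ℝ≥0∞) ^ (((k : ℝ) + 1) * p) * (2 : ℝ≥0∞) ^ (-((k : ℝ) * (N / (N + 1))))) *
          V k ^ α * E ^ (β - γ) * e k ^ γ := by ring
      _ = _ := by rw [h4, h3]; ring
  have hsum : S ≤ C * 2 ^ p * E ^ β * S ^ (1 - γ) := by
    have h1 : S = ∑' k : ℤ, v (k + 1) := ((Equiv.addRight (1 : ℤ)).tsum_eq v).symm
    have h2 : ∑' k : ℤ, (v k ^ (1 - γ) * e k ^ γ) ≤ S ^ (1 - γ) * (∑' k, e k) ^ γ := by
      have h3 := ENNReal.lintegral_mul_norm_pow_le (μ := (Measure.count : Measure ℤ))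
        (f := v) (g := e) (Measurable.of_discrete.aemeasurable)
        (Measurable.of_discrete.aemeasurable) (p := 1 - γ) (q := γ) (by linarith) hγ0.le (by ring)
      simpa only [lintegral_count] using h3
    calc S = ∑' k : ℤ, v (k + 1) := h1
      _ ≤ ∑' k : ℤ, C * 2 ^ p * E ^ (β - γ) * (v k ^ (1 - γ) * e k ^ γ) :=
          ENNReal.tsum_le_tsum hstep
      _ = C * 2 ^ p * E ^ (β - γ) * ∑' k : ℤ, (v k ^ (1 - γ) * e k ^ γ) := ENNReal.tsum_mul_left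
      _ ≤ C * 2 ^ p * E ^ (β - γ) * (S ^ (1 - γ) * E ^ γ) := by
          refine mul_le_mul_right (h2.trans (mul_le_mul_right ?_ _)) _
          exact ENNReal.rpow_le_rpow he hγ0.le
      _ = C * 2 ^ p * (E ^ (β - γ) * E ^ γ) * S ^ (1 - γ) := by ring
      _ = _ := by
          rw [← ENNReal.rpow_add_of_nonneg _ _ hβγ hγ0.le, sub_add_cancel]
  rcases eq_or_ne S 0 with h0 | h0
  · rw [h0, ENNReal.zero_rpow_of_pos (div_pos hN2 hN0)]
    exact bot_le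
  have hSγ : S ^ γ ≤ C * 2 ^ p * E ^ β := by
    have h1 : S = S ^ γ * S ^ (1 - γ) := by
      rw [← ENNReal.rpow_add_of_nonneg _ _ hγ0.le (by linarith)]
      rw [add_sub_cancel, ENNReal.rpow_one]
    have h2 : S ^ (1 - γ) ≠ 0 := by
      intro h
      rcases ENNReal.rpow_eq_zero_iff.1 h with ⟨h, -⟩ | ⟨h, -⟩
      · exact h0 h
      · exact hfin h
    have h3 : S ^ (1 - γ) ≠ ⊤ := ENNReal.rpow_ne_top_of_nonneg (by linarith) hfin
    rw [h1] at hsum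
    conv_rhs at hsum => rw [← h1]
    exact (ENNReal.mul_le_mul_iff_left h2 h3).1 hsum
  have h4 : (N - 2) / N = γ * (1 / β) := by
    rw [hγ, hβ]; field_simp
  have h5 : 2 * (N + 1) / N = 1 / β := by rw [hβ]; field_simp
  rw [h4, ENNReal.rpow_mul, h5]
  refine (ENNReal.rpow_le_rpow hSγ (by positivity)).trans ?_
  rw [ENNReal.mul_rpow_of_nonneg _ _ (by positivity), ← ENNReal.rpow_mul]
  rw [mul_one_div_cancel hβ0.ne', ENNReal.rpow_one]

end Vale.Agent.P223.H566.SobR
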