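import Vale.Agent.P223.H566.SobR
import Mathlib.MeasureTheory.Order.Group.Lattice

/-! From the truncation inequality to the Sobolev inequality (abstract measure spaces), part 2. -/

namespace Vale.Agent.P223.H566.SobR

open MeasureTheory Set
open scoped ENNReal NNReal

section
variable {Ω : Type*} [MeasurableSpace Ω] {μ : Measure Ω} {f : Ω → ℝ} {g : Ω → ℝ≥0∞}

/-- levels -/
def lev (f : Ω → ℝ) (k : ℤ) : Set Ω := {x | (2 : ℝ) ^ k < |f x|}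

/-- dyadic layers -/
def lay (f : Ω → ℝ) (k : ℤ) : Set Ω := {x | (2 : ℝ) ^ k < |f x| ∧ |f x| ≤ 2 ^ (k + 1)}

theorem meas_lev (hf : Measurable f) (k : ℤ) : MeasurableSet (lev f k) :=
  measurableSet_lt measurable_const hf.abs

theorem meas_lay (hf : Measurable f) (k : ℤ) : MeasurableSet (lay f k) :=
  (measurableSet_lt measurable_const hf.abs).inter (measurableSet_le hf.abs measurable_const)

omit [MeasurableSpace Ω] in
theorem lay_disj : Pairwise (Function.onFun Disjoint (lay f)) := by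
  have key : ∀ i j : ℤ, i < j → Disjoint (lay f i) (lay f j) := by
    intro i j hij
    rw [Set.disjoint_left]
    rintro x ⟨-, h1⟩ ⟨h2, -⟩
    have h3 : (2 : ℝ) ^ (i + 1) ≤ 2 ^ j := zpow_le_zpow_right₀ one_le_two (by lia)
    linarith
  intro i j hij
  rcases lt_or_gt_of_ne hij with h | h
  · exact key i j h
  · exact (key j i h).symm

theorem sum_lay (hf : Measurable f) : ∑' k : ℤ, ∫⁻ x in lay f k, g x ^ 2 ∂μ ≤ ∫⁻ x, g x ^ 2 ∂μ := by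
  rw [← lintegral_iUnion (meas_lay hf) lay_disj]
  exact setLIntegral_le_lintegral _ _

theorem cs_lay (hg : Measurable g) (A : Set Ω) :
    ∫⁻ x in A, g x ∂μ ≤ (∫⁻ x in A, g x ^ 2 ∂μ) ^ (1 / 2 : ℝ) * μ A ^ (1 / 2 : ℝ) := by
  have h := ENNReal.lintegral_mul_le_Lp_mul_Lq (μ.restrict A) Real.HolderConjugate.two_two
    hg.aemeasurable (aemeasurable_const (b := (1 : ℝ≥0∞)))
  simp only [Pi.mul_apply, mul_one, ENNReal.one_rpow, lintegral_const, one_mul,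
    Measure.restrict_apply_univ] at h
  refine h.trans (le_of_eq ?_)
  congr 2
  refine lintegral_congr fun x => ?_
  rw [← ENNReal.rpow_natCast]
  norm_num

/-- one step of the recursion -/
theorem step {n : ℕ} (hn : 3 ≤ n) {C : ℝ≥0∞} (hg : Measurable g)
    (h : ∀ l ε : ℝ, 0 ≤ l → 0 < ε → μ {x | l + ε < |f x|} ^ (n + 1) ≤ C * μ {x | l < |f x|} ^ 2 *
      (∫⁻ x in {x | l < |f x| ∧ |f x| ≤ l + ε}, g x * ENNReal.ofReal (1 / ε) ∂μ) ^ n) (k : ℤ) :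
    μ (lev f (k + 1)) ≤ C ^ (1 / ((n : ℝ) + 1)) * ((2 : ℝ≥0∞) ^ (-((k : ℝ) * ((n : ℝ) / (n + 1)))) *
      μ (lev f k) ^ ((2 + (n : ℝ) / 2) / (n + 1)) *
      (∫⁻ x in lay f k, g x ^ 2 ∂μ) ^ (((n : ℝ) / 2) / (n + 1))) := by
  have hn' : (3 : ℝ) ≤ n := by exact_mod_cast hn
  set N : ℝ := (n : ℝ) with hN
  have hN1 : 0 < N + 1 := by linarith
  have hpk : (0 : ℝ) < 2 ^ k := by positivity
  have e1 : (2 : ℝ) ^ k + 2 ^ k = 2 ^ (k + 1) := by rw [zpow_add_one₀ two_ne_zero]; ring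
  have h1 := h (2 ^ k) (2 ^ k) hpk.le hpk
  rw [e1] at h1
  change μ (lev f (k + 1)) ^ (n + 1) ≤ C * μ (lev f k) ^ 2 *
    (∫⁻ x in lay f k, g x * ENNReal.ofReal (1 / 2 ^ k) ∂μ) ^ n at h1
  set V := μ (lev f k) with hV
  set e := ∫⁻ x in lay f k, g x ^ 2 ∂μ with he
  have h2 : ∫⁻ x in lay f k, g x * ENNReal.ofReal (1 / 2 ^ k) ∂μ ≤
      (2 : ℝ≥0∞) ^ (-(k : ℝ)) * (e ^ (1 / 2 : ℝ) * V ^ (1 / 2 : ℝ)) := by
    rw [lintegral_mul_const _ hg]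
    have h3 : ENNReal.ofReal (1 / 2 ^ k) = (2 : ℝ≥0∞) ^ (-(k : ℝ)) := by
      rw [one_div, ← zpow_neg, ofReal_zpow]; push_cast; rfl
    rw [h3, mul_comm]
    refine mul_le_mul_right ((cs_lay hg _).trans ?_) _
    refine mul_le_mul_right (ENNReal.rpow_le_rpow (measure_mono fun x hx => hx.1) (by norm_num)) _
  have h4 : μ (lev f (k + 1)) ^ (N + 1) ≤ C * V ^ (2 : ℝ) *
      ((2 : ℝ≥0∞) ^ (-(k : ℝ)) * (e ^ (1 / 2 : ℝ) * V ^ (1 / 2 : ℝ))) ^ N := by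
    have e2 : μ (lev f (k + 1)) ^ (N + 1) = μ (lev f (k + 1)) ^ (n + 1) := by
      rw [← ENNReal.rpow_natCast]; push_cast; rfl
    have e3 : V ^ (2 : ℝ) = V ^ 2 := by rw [← ENNReal.rpow_natCast]; norm_num
    rw [e2, e3]
    refine h1.trans (mul_le_mul_right ?_ _)
    rw [hN, ENNReal.rpow_natCast]
    exact pow_le_pow_left' h2 n
  have h5 := ENNReal.rpow_le_rpow h4 (z := 1 / (N + 1)) (by positivity)
  rw [← ENNReal.rpow_mul, mul_one_div_cancel hN1.ne', ENNReal.rpow_one] at h5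
  refine h5.trans (le_of_eq ?_)
  have p1 : 0 ≤ 1 / (N + 1) := by positivity
  have p2 : 0 ≤ N := by linarith
  rw [ENNReal.mul_rpow_of_nonneg _ _ p1, ENNReal.mul_rpow_of_nonneg _ _ p1,
    ENNReal.mul_rpow_of_nonneg _ _ p2, ENNReal.mul_rpow_of_nonneg _ _ p2,
    ENNReal.mul_rpow_of_nonneg _ _ p1, ENNReal.mul_rpow_of_nonneg _ _ p1]
  simp only [← ENNReal.rpow_mul]
  have e6 : V ^ ((2 + N / 2) / (N + 1)) = V ^ (2 * (1 / (N + 1))) * V ^ (1 / 2 * N * (1 / (N + 1))) := by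
    rw [← ENNReal.rpow_add_of_nonneg _ _ (by positivity) (by positivity)]
    congr 1; ring
  have e7 : -(k : ℝ) * N * (1 / (N + 1)) = -((k : ℝ) * (N / (N + 1))) := by ring
  have e8 : 1 / 2 * N * (1 / (N + 1)) = N / 2 / (N + 1) := by ring
  rw [e6, e7, e8]
  ring

/-- the sum is finite -/
theorem fin_sum {p : ℝ} (hp : 0 < p) (hb : ∃ B : ℝ, ∀ x, |f x| ≤ B)
    (hm : μ {x | f x ≠ 0} ≠ ⊤) :
    ∑' k : ℤ, (2 : ℝ≥0∞) ^ ((k : ℝ) * p) * μ (lev f k) ≠ ⊤ := by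
  obtain ⟨B, hB⟩ := hb
  obtain ⟨K, hK⟩ := pow_unbounded_of_one_lt B (one_lt_two (α := ℝ))
  set h : ℤ → ℝ≥0∞ := fun k => (2 : ℝ≥0∞) ^ ((k : ℝ) * p) * μ (lev f k) with hh
  have h1 : ∑' k : ℤ, h k = ∑' k : ℤ, h (k + K) := ((Equiv.addRight (K : ℤ)).tsum_eq h).symm
  rw [h1, tsum_of_nat_of_neg_add_one ENNReal.summable ENNReal.summable]
  have h2 : ∀ m : ℕ, h ((m : ℤ) + K) = 0 := by
    intro m
    have h3 : lev f ((m : ℤ) + K) = ∅ := by
      ext x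
      simp only [lev, mem_ofPred_eq, mem_empty_iff_false, iff_false, not_lt]
      refine (hB x).trans (hK.le.trans ?_)
      rw [← zpow_natCast]
      exact zpow_le_zpow_right₀ one_le_two (by lia)
    rw [hh]
    simp only
    rw [h3, measure_empty, mul_zero]
  have h4 : ∀ m : ℕ, h (-((m : ℤ) + 1) + K) ≤
      (2 : ℝ≥0∞) ^ (((K : ℝ) - 1) * p) * μ {x | f x ≠ 0} * ((2 : ℝ≥0∞) ^ (-p)) ^ m := by
    intro m
    have h5 : μ (lev f (-((m : ℤ) + 1) + K)) ≤ μ {x | f x ≠ 0} := by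
      refine measure_mono fun x hx => ?_
      simp only [lev, mem_ofPred_eq] at hx ⊢
      intro h0
      rw [h0, abs_zero] at hx
      exact absurd hx (not_lt.2 (by positivity))
    have h6 : (2 : ℝ≥0∞) ^ (((-((m : ℤ) + 1) + K : ℤ) : ℝ) * p) =
        (2 : ℝ≥0∞) ^ (((K : ℝ) - 1) * p) * ((2 : ℝ≥0∞) ^ (-p)) ^ m := by
      rw [← ENNReal.rpow_natCast, ← ENNReal.rpow_mul,
        ← ENNReal.rpow_add _ _ two_ne_zero' two_ne_top']
      congr 1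
      push_cast
      ring
    rw [hh]
    simp only
    rw [h6]
    calc (2 : ℝ≥0∞) ^ (((K : ℝ) - 1) * p) * ((2 : ℝ≥0∞) ^ (-p)) ^ m *
        μ (lev f (-((m : ℤ) + 1) + K)) ≤ (2 : ℝ≥0∞) ^ (((K : ℝ) - 1) * p) *
          ((2 : ℝ≥0∞) ^ (-p)) ^ m * μ {x | f x ≠ 0} := mul_le_mul_right h5 _
      _ = _ := by ring
  simp only [h2, tsum_zero, zero_add]
  refine ne_top_of_le_ne_top ?_ (ENNReal.tsum_le_tsum h4)
  rw [ENNReal.tsum_mul_left, ENNReal.tsum_geometric]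
  refine ENNReal.mul_ne_top (ENNReal.mul_ne_top (ENNReal.rpow_ne_top_of_ne_zero two_ne_zero'
    two_ne_top') hm) ?_
  rw [ENNReal.inv_ne_top, Ne, tsub_eq_zero_iff_le, not_le]
  exact ENNReal.rpow_lt_one_of_one_lt_of_neg (by norm_num) (by linarith)

/-- the `p`-norm is bounded by the sum -/
theorem norm_le {p : ℝ} (hp : 0 < p) (hf : Measurable f) :
    ∫⁻ x, ENNReal.ofReal (|f x| ^ p) ∂μ ≤
      (2 : ℝ≥0∞) ^ p * ∑' k : ℤ, (2 : ℝ≥0∞) ^ ((k : ℝ) * p) * μ (lev f k) := by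
  have h1 : ∀ x, ENNReal.ofReal (|f x| ^ p) ≤
      ∑' k : ℤ, (lev f k).indicator (fun _ => (2 : ℝ≥0∞) ^ (((k : ℝ) + 1) * p)) x := by
    intro x
    rcases eq_or_ne (f x) 0 with h0 | h0
    · rw [h0, abs_zero, Real.zero_rpow hp.ne', ENNReal.ofReal_zero]
      exact bot_le
    obtain ⟨k, hk1, hk2⟩ := exists_mem_Ioc_zpow (abs_pos.2 h0) (one_lt_two (α := ℝ))
    refine le_trans ?_ (ENNReal.le_tsum k)
    rw [indicator_of_mem (show x ∈ lev f k from hk1)]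
    have h2 : |f x| ^ p ≤ ((2 : ℝ) ^ (k + 1)) ^ p := Real.rpow_le_rpow (abs_nonneg _) hk2 hp.le
    refine (ENNReal.ofReal_le_ofReal h2).trans (le_of_eq ?_)
    rw [← ENNReal.ofReal_rpow_of_nonneg (by positivity) hp.le, ofReal_zpow, ← ENNReal.rpow_mul]
    push_cast
    rfl
  refine (lintegral_mono h1).trans (le_of_eq ?_)
  rw [lintegral_tsum fun k => (measurable_const.indicator (meas_lev hf k)).aemeasurable,
    ← ENNReal.tsum_mul_left]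
  refine tsum_congr fun k => ?_
  rw [lintegral_indicator (meas_lev hf k), setLIntegral_const, ← mul_assoc,
    ← ENNReal.rpow_add _ _ two_ne_zero' two_ne_top']
  congr 2
  ring

/-- the Sobolev inequality from the truncation inequality -/
theorem sob {n : ℕ} (hn : 3 ≤ n) (C : ℝ≥0∞) (hf : Measurable f) (hg : Measurable g)
    (hb : ∃ B : ℝ, ∀ x, |f x| ≤ B) (hm : μ {x | f x ≠ 0} ≠ ⊤)
    (h : ∀ l ε : ℝ, 0 ≤ l → 0 < ε → μ {x | l + ε < |f x|} ^ (n + 1) ≤ C * μ {x | l < |f x|} ^ 2 *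
      (∫⁻ x in {x | l < |f x| ∧ |f x| ≤ l + ε}, g x * ENNReal.ofReal (1 / ε) ∂μ) ^ n) :
    (∫⁻ x, ENNReal.ofReal (|f x| ^ (2 * (n : ℝ) / (n - 2))) ∂μ) ^ (((n : ℝ) - 2) / n) ≤
      4 * (C ^ (1 / ((n : ℝ) + 1)) * (2 : ℝ≥0∞) ^ (2 * (n : ℝ) / (n - 2))) ^
        (2 * ((n : ℝ) + 1) / n) * ∫⁻ x, g x ^ 2 ∂μ := by
  have hn' : (3 : ℝ) ≤ n := by exact_mod_cast hn
  have hn2 : (0 : ℝ) < n - 2 := by linarith
  have hp : 0 < 2 * (n : ℝ) / (n - 2) := by positivity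
  have hq : 0 ≤ ((n : ℝ) - 2) / n := by positivity
  have h1 := rec_bound (N := n) hn' (C := C ^ (1 / ((n : ℝ) + 1)))
    (V := fun k => μ (lev f k)) (sum_lay (μ := μ) (g := g) hf) (fin_sum hp hb hm) (step hn hg h)
  refine (ENNReal.rpow_le_rpow (norm_le (μ := μ) hp hf) hq).trans ?_
  rw [ENNReal.mul_rpow_of_nonneg _ _ hq, ← ENNReal.rpow_mul]
  have e1 : 2 * (n : ℝ) / (n - 2) * (((n : ℝ) - 2) / n) = 2 := by field_simp
  have e2 : (2 : ℝ≥0∞) ^ (2 : ℝ) = 4 := by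
    rw [ENNReal.rpow_ofNat]; norm_num
  rw [e1, e2, mul_assoc]
  exact mul_le_mul_right h1 _

end

end Vale.Agent.P223.H566.SobR
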