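import Vale.Agent.P223.H765.NC
import Vale.Agent.P223.H566.SobR2
import Vale.Agent.P223.X.X3
import Vale.Agent.P223.H.Grad

/-! Block T6: the Sobolev inequality from the truncation inequality. -/

namespace Vale.Agent.P223.H566.SobR

open MeasureTheory Set
open Vale.Agent.P223.H765.NC
open scoped ENNReal NNReal ContDiff

section
variable {n : ℕ} {G : J.Mtx n}

theorem cont_sdet (hs : ∀ i j, ContDiff ℝ ∞ fun x => G x i j) :
    Continuous fun x => √(G x).det :=
  (X.X3.contDiff_det hs).continuous.sqrt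

theorem cont_inv (hs : ∀ i j, ContDiff ℝ ∞ fun x => G x i j) (hp : ∀ x, (G x).PosDef)
    (i j : Fin n) : Continuous fun x => (G x)⁻¹ i j :=
  (X.X3.contDiff_inv hs (fun x => (hp x).det_pos.ne') i j).continuous

theorem cont_pd {f : J.E n → ℝ} (hf : ContDiff ℝ 1 f) (i : Fin n) :
    Continuous fun x => J.pd i f x := by
  unfold J.pd
  exact (hf.continuous_fderiv (by norm_num)).clm_apply continuous_const

theorem cont_gsq (hs : ∀ i j, ContDiff ℝ ∞ fun x => G x i j) (hp : ∀ x, (G x).PosDef)
    {f : J.E n → ℝ} (hf : ContDiff ℝ 1 f) : Continuous fun x => J.gsq G f x := by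
  unfold J.gsq
  exact continuous_finsetSum _ fun i _ => continuous_finsetSum _ fun j _ =>
    ((cont_inv hs hp i j).mul (cont_pd hf i)).mul (cont_pd hf j)

theorem gsq_nonneg (hp : ∀ x, (G x).PosDef) (f : J.E n → ℝ) (x : J.E n) : 0 ≤ J.gsq G f x :=
  H.Grad.gradSq_nonneg' (G := G) (hp x) f

theorem gsq_supp {f : J.E n → ℝ} {x : J.E n} (hx : x ∉ tsupport f) : J.gsq G f x = 0 := by
  have h1 : ∀ i, J.pd i f x = 0 := fun i => by
    unfold J.pd
    have h2 : fderiv ℝ f x = 0 := by
      by_contra h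
      exact hx (support_fderiv_subset ℝ (f := f) h)
    rw [h2]; rfl
  unfold J.gsq
  simp [h1]

/-- the Riemannian measure -/
noncomputable def mG (G : J.Mtx n) : Measure (J.E n) :=
  volume.withDensity fun x => ENNReal.ofReal √(G x).det

theorem mG_apply (G : J.Mtx n) {A : Set (J.E n)} (hA : MeasurableSet A) : mG G A = vol G A :=
  withDensity_apply _ hA

theorem lint_mG (hs : ∀ i j, ContDiff ℝ ∞ fun x => G x i j) {h : J.E n → ℝ≥0∞}
    (hh : Measurable h) (A : Set (J.E n)) (hA : MeasurableSet A) :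
    ∫⁻ x in A, h x ∂mG G = ∫⁻ x in A, ENNReal.ofReal √(G x).det * h x :=
  setLIntegral_withDensity_eq_setLIntegral_mul volume
    (cont_sdet hs).measurable.ennreal_ofReal hh hA

end

theorem sobR (hT : SpecTru) : SpecSobR := by
  intro n hn
  obtain ⟨C, hC⟩ := hT n (by omega)
  have hn' : (3 : ℝ) ≤ n := by exact_mod_cast hn
  have hn2 : (0 : ℝ) < n - 2 := by linarith
  set p : ℝ := 2 * (n : ℝ) / (n - 2) with hp
  have hp0 : 0 < p := by positivity
  set θ : ℝ := ((n : ℝ) - 2) / n with hθ
  have hθ0 : 0 < θ := by positivity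
  set K : ℝ≥0∞ := 4 * ((C : ℝ≥0∞) ^ (1 / ((n : ℝ) + 1)) * (2 : ℝ≥0∞) ^ p) ^
        (2 * ((n : ℝ) + 1) / n) with hK
  have hKt : K ≠ ⊤ := by
    refine ENNReal.mul_ne_top (by norm_num) (ENNReal.rpow_ne_top_of_nonneg (by positivity)
      (ENNReal.mul_ne_top (ENNReal.rpow_ne_top_of_nonneg (by positivity) ENNReal.coe_ne_top)
      (ENNReal.rpow_ne_top_of_nonneg hp0.le (by norm_num))))
  refine ⟨1 / (K.toReal + 1), by positivity, ?_⟩
  intro G Φ hG f hf hfc
  have hs := hG.smooth
  have hpos := hG.pos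
  have hdet := cont_sdet hs
  have hgc := cont_gsq hs hpos hf
  have hfcont := hf.continuous
  -- finiteness
  have hfin : mG G {x | f x ≠ 0} ≠ ⊤ := by
    have h1 : mG G {x | f x ≠ 0} ≤ mG G (tsupport f) := measure_mono (subset_tsupport f)
    refine ne_top_of_le_ne_top ?_ h1
    rw [mG_apply G (isClosed_tsupport f).measurableSet]
    have h2 : IntegrableOn (fun x => √(G x).det) (tsupport f) :=
      hdet.continuousOn.integrableOn_compact hfc
    have h3 := h2.lintegral_lt_top
    exact h3.ne
  obtain ⟨B, hB⟩ := hfcont.bounded_above_of_compact_support hfc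
  have hmf : Measurable f := hfcont.measurable
  set g : J.E n → ℝ≥0∞ := fun x => ENNReal.ofReal √(J.gsq G f x) with hg
  have hmg : Measurable g := hgc.sqrt.measurable.ennreal_ofReal
  have hsob := sob (μ := mG G) hn (C : ℝ≥0∞) hmf hmg ⟨B, fun x => by simpa using hB x⟩ hfin
    (fun l ε hl hε => by
      have hA1 : MeasurableSet {x | l + ε < |f x|} := measurableSet_lt measurable_const hmf.abs
      have hA2 : MeasurableSet {x | l < |f x|} := measurableSet_lt measurable_const hmf.abs
      have hA3 : MeasurableSet {x | l < |f x| ∧ |f x| ≤ l + ε} :=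
        (measurableSet_lt measurable_const hmf.abs).inter
          (measurableSet_le hmf.abs measurable_const)
      rw [mG_apply G hA1, mG_apply G hA2, lint_mG hs (hmg.mul_const _) _ hA3]
      refine (hC G Φ hG f hf hfc l ε hl hε).trans (le_of_eq ?_)
      congr 2
      refine setLIntegral_congr_fun hA3 fun x _ => ?_
      simp only [hg]
      rw [← ENNReal.ofReal_mul (Real.sqrt_nonneg _), ← ENNReal.ofReal_mul (Real.sqrt_nonneg _)]
      congr 1
      ring)
  -- left-hand side
  have hint1 : Integrable (fun x => |f x| ^ p * √(G x).det) := by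
    refine Continuous.integrable_of_hasCompactSupport ?_ ?_
    · exact (hfcont.abs.rpow_const fun x => Or.inr hp0.le).mul hdet
    · refine HasCompactSupport.intro hfc.isCompact fun x hx => ?_
      rw [image_eq_zero_of_notMem_tsupport hx, abs_zero, Real.zero_rpow hp0.ne', zero_mul]
  have hint2 : Integrable (fun x => J.gsq G f x * √(G x).det) := by
    refine Continuous.integrable_of_hasCompactSupport (hgc.mul hdet) ?_
    refine HasCompactSupport.intro hfc.isCompact fun x hx => ?_
    rw [gsq_supp hx, zero_mul]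
  have hl : ∫⁻ x, ENNReal.ofReal (|f x| ^ p) ∂mG G =
      ENNReal.ofReal (∫ x, |f x| ^ p * √(G x).det) := by
    rw [ofReal_integral_eq_lintegral_ofReal hint1 (Filter.Eventually.of_forall fun x => by
      positivity)]
    have h1 := lint_mG hs (h := fun x => ENNReal.ofReal (|f x| ^ p))
      (hmf.abs.pow_const p).ennreal_ofReal univ MeasurableSet.univ
    simp only [Measure.restrict_univ] at h1
    rw [h1]
    refine lintegral_congr fun x => ?_
    rw [← ENNReal.ofReal_mul (Real.sqrt_nonneg _), mul_comm]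
  have hr : ∫⁻ x, g x ^ 2 ∂mG G = ENNReal.ofReal (∫ x, J.gsq G f x * √(G x).det) := by
    rw [ofReal_integral_eq_lintegral_ofReal hint2 (Filter.Eventually.of_forall fun x =>
      mul_nonneg (gsq_nonneg hpos f x) (Real.sqrt_nonneg _))]
    have h1 := lint_mG hs (h := fun x => g x ^ 2) (hmg.pow_const 2) univ MeasurableSet.univ
    simp only [Measure.restrict_univ] at h1
    rw [h1]
    refine lintegral_congr fun x => ?_
    simp only [hg]
    rw [← ENNReal.ofReal_pow (Real.sqrt_nonneg _), Real.sq_sqrt (gsq_nonneg hpos f x),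
      ← ENNReal.ofReal_mul (Real.sqrt_nonneg _), mul_comm]
  rw [hl, hr] at hsob
  set A := ∫ x, |f x| ^ p * √(G x).det with hA
  set D := ∫ x, J.gsq G f x * √(G x).det with hD
  have hA0 : 0 ≤ A := integral_nonneg fun x => by positivity
  have hD0 : 0 ≤ D := integral_nonneg fun x =>
    mul_nonneg (gsq_nonneg hpos f x) (Real.sqrt_nonneg _)
  have h1 : ENNReal.ofReal (A ^ θ) ≤ ENNReal.ofReal (K.toReal * D) := by
    rw [← ENNReal.ofReal_rpow_of_nonneg hA0 hθ0.le, ENNReal.ofReal_mul ENNReal.toReal_nonneg,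
      ENNReal.ofReal_toReal hKt]
    exact hsob
  have h2 : A ^ θ ≤ K.toReal * D :=
    (ENNReal.ofReal_le_ofReal_iff (mul_nonneg ENNReal.toReal_nonneg hD0)).1 h1
  have hK0 : 0 < K.toReal + 1 := by
    have : 0 ≤ K.toReal := ENNReal.toReal_nonneg
    linarith
  rw [one_div, inv_mul_le_iff₀ hK0]
  nlinarith

end Vale.Agent.P223.H566.SobR
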