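import Vale.Agent.P223.H566.SupDef
import Mathlib.Analysis.SpecialFunctions.SmoothTransition

/-! `SpecSup` from the estimates A and B. -/

namespace Vale.Agent.P223.H566

open scoped ContDiff InnerProductSpace Topology
open MeasureTheory Vale.Agent.P223.H Vale.Agent.P223.X

theorem supSm : SpecSupSm := by
  intro n M X Γ I V _ _ _ _ _ _ C G K S w f φ hw hw0 hf γ i
  have e : C.rep (fun x => f (qf C w (φ : Raw Γ I n V) x)) γ i =
      fun y => f (‖(φ : Raw Γ I n V) γ i y‖ ^ 2 / C.rep w γ i y ^ 2) := by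
    funext y
    change f (nm C (φ : Raw Γ I n V) (γ • C.ψ i y) ^ 2 / _) = _
    rw [φ.2.nm_chart]
    rfl
  rw [e]
  refine hf.comp (ContDiff.div ?_ ((hw γ i).pow 2) fun y => pow_ne_zero 2 (hw0 _).ne')
  exact (φ.2.smooth γ i).norm_sq ℂ

/-- test functions exist -/
theorem exists_Tst {a b : ℝ} (ha : 0 < a) (hab : a < b) : ∃ f : ℝ → ℝ, Tst a f ∧
    ∀ t, b ≤ t → f t = 1 := by
  have hd : 0 < b - a := sub_pos.2 hab
  set f : ℝ → ℝ := fun t => Real.smoothTransition ((t - a) / (b - a)) with hf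
  have hs : ContDiff ℝ ∞ f :=
    Real.smoothTransition.contDiff.comp ((contDiff_id.sub contDiff_const).div_const _)
  have h0 : ∀ t, t ≤ a → f t = 0 := fun t ht =>
    Real.smoothTransition.zero_of_nonpos (div_nonpos_of_nonpos_of_nonneg (by linarith) hd.le)
  have h1 : ∀ t, b ≤ t → f t = 1 := fun t ht =>
    Real.smoothTransition.one_of_one_le (by rw [le_div_iff₀ hd]; linarith)
  have hmono : Monotone f := by
    intro x y hxy
    exact Real.smoothTransition.monotone (div_le_div_of_nonneg_right (by linarith) hd.le)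
  refine ⟨f, ⟨ha, hs, h0, fun t => Real.smoothTransition.nonneg _, fun t =>
    Real.smoothTransition.le_one _, fun t => hmono.deriv_nonneg, ?_⟩, h1⟩
  refine HasCompactSupport.intro (isCompact_Icc (a := a) (b := b)) fun t ht => ?_
  rw [Set.mem_Icc, not_and_or, not_le, not_le] at ht
  rcases ht with ht | ht
  · have : f =ᶠ[𝓝 t] fun _ => 0 := by
      filter_upwards [Iio_mem_nhds ht] with z hz using h0 z (le_of_lt hz)
    rw [this.deriv_eq]; simp
  · have : f =ᶠ[𝓝 t] fun _ => 1 := by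
      filter_upwards [Ioi_mem_nhds ht] with z hz using h1 z (le_of_lt hz)
    rw [this.deriv_eq]; simp

section
variable {n : ℕ} {M X Γ I V H : Type} [TopologicalSpace M] [TopologicalSpace X]
  [Group Γ] [MulAction Γ X] [Fintype I] [T2Space X] [ConnectedSpace X] [T2Space M]
  [MeasurableSpace X] [BorelSpace X] [NormedAddCommGroup V] [InnerProductSpace ℂ V]
  [FiniteDimensional ℂ V] [NormedAddCommGroup H] [InnerProductSpace ℂ H] [CompleteSpace H]
  {c : Ctx n M X Γ I V H}

/-- `g u` and `p u = D g u` are in the domain of the closure of `D` -/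
theorem gr_gp (hD : SpecDense) {m : ℝ} (hm : 0 < m) {g p : H →L[ℂ] H} (hR : Rsv c.E m g p)
    (u : H) : Gr c.E (g u) (p u) ∧ Gr c.E (p u) ((m : ℂ) ^ 2 • g u - u) := by
  obtain ⟨sp, sm, h1, h2, h3, h4, hg, hp⟩ := hR.ex
  have hmc : (m : ℂ) ≠ 0 := by exact_mod_cast hm.ne'
  have e1 := gr_sp h1 (dense_p c hD hm.ne') u
  have e2 := gr_sm h2 (dense_m c hD hm.ne') u
  -- linear combinations
  have lin : ∀ {v w v' w' : H} (a b : ℂ), Gr c.E v w → Gr c.E v' w' →
      Gr c.E (a • v + b • v') (a • w + b • w') := by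
    intro v w v' w' a b h h'
    have hc1 : ∀ φ' : Core c.S, Gr c.E (a • v + b • c.E.e φ') (a • w + b • c.E.e (c.S.DC φ')) := by
      intro φ'
      refine h.ind (P := {q : H × H | (a • q.1 + b • c.E.e φ', a • q.2 + b • c.E.e (c.S.DC φ')) ∈
        closure (Set.range fun φ : Core c.S => (c.E.e φ, c.E.e (c.S.DC φ)))})
        (isClosed_closure.preimage (((continuous_fst.const_smul a).add continuous_const).prodMk
          ((continuous_snd.const_smul a).add continuous_const))) fun φ => ?_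
      have := Gr.core c.E (a • φ + b • φ')
      rw [map_add, map_add, map_smul, map_smul, map_add, map_smul, map_smul, map_smul,
        map_smul] at this
      exact this
    exact h'.ind (P := {q : H × H | (a • v + b • q.1, a • w + b • q.2) ∈
        closure (Set.range fun φ : Core c.S => (c.E.e φ, c.E.e (c.S.DC φ)))})
        (isClosed_closure.preimage ((continuous_const.add (continuous_fst.const_smul b)).prodMk
          (continuous_const.add (continuous_snd.const_smul b)))) hc1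
  have hgu : g u = (1 / (2 * m) : ℂ) • sp u + (1 / (2 * m) : ℂ) • sm u := by
    rw [hg, smul_apply, add_apply, smul_add]
    push_cast
    rfl
  have hpu : p u = (1 / 2 : ℂ) • sm u - (1 / 2 : ℂ) • sp u := by
    rw [hp, smul_apply, sub_apply, smul_sub]
  have hmm : (1 / (2 * m) : ℂ) * m = 1 / 2 := by field_simp
  constructor
  · have := lin (1 / (2 * m) : ℂ) (1 / (2 * m) : ℂ) e1 e2
    rw [← hgu] at this
    convert this using 1
    rw [hpu, smul_sub, smul_sub, smul_smul, smul_smul, hmm]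
    abel
  · have := lin (-(1 / 2) : ℂ) (1 / 2 : ℂ) e1 e2
    convert this using 1
    · rw [hpu]; module
    · rw [hgu, smul_add, smul_smul, smul_smul]
      have h5 : ((m : ℂ) ^ 2 * (1 / (2 * m))) = m / 2 := by field_simp
      rw [h5]
      module

/-- weak form -/
theorem gr_skew (hL : SpecLocal) {v w : H} (h : Gr c.E v w) (ψ : Core c.S) :
    ⟪w, c.E.e ψ⟫_ℂ = -⟪v, c.E.e (c.S.DC ψ)⟫_ℂ := by
  refine h.ind (P := {q : H × H | ⟪q.2, c.E.e ψ⟫_ℂ = -⟪q.1, c.E.e (c.S.DC ψ)⟫_ℂ}) ?_ fun φ => ?_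
  · exact isClosed_eq (continuous_snd.inner continuous_const)
      (continuous_fst.inner continuous_const).neg
  · exact e_skew c.E hL c.vol φ ψ

theorem weak_eq (hL : SpecLocal) (hD : SpecDense) {m : ℝ} (hm : 0 < m) {g p : H →L[ℂ] H}
    (hR : Rsv c.E m g p) (u : H) (ψ : Core c.S) :
    (m : ℂ) ^ 2 * ⟪g u, c.E.e ψ⟫_ℂ + ⟪p u, c.E.e (c.S.DC ψ)⟫_ℂ = ⟪u, c.E.e ψ⟫_ℂ := by
  have h := gr_skew hL (gr_gp hD hm hR u).2 ψ
  rw [inner_sub_left, inner_smul_left] at h
  simp only [map_pow, Complex.conj_ofReal] at h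
  linear_combination h

theorem gr_seq {v w : H} (h : Gr c.E v w) : ∃ φ : ℕ → Core c.S,
    Filter.Tendsto (fun j => c.E.e (φ j)) Filter.atTop (𝓝 v) ∧
    Filter.Tendsto (fun j => c.E.e (c.S.DC (φ j))) Filter.atTop (𝓝 w) := by
  obtain ⟨x, hx, hlim⟩ := mem_closure_iff_seq_limit.1 h
  choose φ hφ using hx
  refine ⟨φ, ?_, ?_⟩
  · have := (continuous_fst.tendsto _).comp hlim
    refine this.congr fun j => ?_
    simp only [Function.comp_apply, ← hφ j]
  · have := (continuous_snd.tendsto _).comp hlim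
    refine this.congr fun j => ?_
    simp only [Function.comp_apply, ← hφ j]

theorem integrable_f [T2Space X] (φ : Core c.S) {F : X → ℝ} (hF : Continuous F) :
    Integrable (fun x => F x * nm c.C (φ : Raw Γ I n V) x) c.μ := by
  have := finComp c.S.met c.vol
  exact (hF.mul φ.2.continuous_nm).integrable_of_hasCompactSupport φ.2.nm_supp.mul_left

end

theorem sup (hL : SpecLocal) (hD : SpecDense) (hA : SpecSupA) (hB : SpecSupB) : SpecSup := by
  intro n M X Γ I V H _ _ _ _ _ _ _ _ _ _ _ _ _ _ _ _ c s w m g p hn hm hw hms hR b u hb hu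
  -- reduction
  suffices key : ∀ c' : ℝ, b < c' → WB c.E w c' (g u) by
    intro φ
    have hnn : 0 ≤ ∫ x, w x * nm c.C (φ : Raw Γ I n V) x ∂c.μ :=
      integral_nonneg fun x => mul_nonneg (hw.pos x).le (norm_nonneg _)
    have hlim : Filter.Tendsto (fun c' : ℝ => c' * ∫ x, w x * nm c.C (φ : Raw Γ I n V) x ∂c.μ)
        (𝓝[>] b) (𝓝 (b * ∫ x, w x * nm c.C (φ : Raw Γ I n V) x ∂c.μ)) :=
      ((continuous_id.mul continuous_const).tendsto b).mono_left nhdsWithin_le_nhds
    refine ge_of_tendsto hlim ?_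
    filter_upwards [self_mem_nhdsWithin] with c' hc' using key c' hc' φ
  intro c' hc'
  set c₀ : ℝ := (b + c') / 2 with hc₀
  have h1 : b < c₀ := by rw [hc₀]; linarith
  have h2 : c₀ < c' := by rw [hc₀]; linarith
  have h3 : 0 < c₀ := lt_of_le_of_lt hb h1
  have hcw : Continuous w := Ck_continuous c.C fun γ i => contDiff_infty.1 (hw.smooth γ i) 0
  obtain ⟨f, hf, hf1⟩ := exists_Tst (a := c₀ ^ 2) (b := c' ^ 2) (by positivity)
    (pow_lt_pow_left₀ h2 h3.le two_ne_zero)
  obtain ⟨B, hB⟩ := hB n M X Γ I V H c s w (c₀ ^ 2) f hn hw hf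
  have hsm : ∀ φ : Core c.S, c.C.Ck ∞ (fun x => f (qf c.C w (φ : Raw Γ I n V) x)) := fun φ =>
    supSm n M X Γ I V c.C c.G c.K c.S w f φ hw.smooth hw.pos hf.smooth
  have hfc : ∀ φ : Core c.S, Continuous (fun x => f (qf c.C w (φ : Raw Γ I n V) x)) := fun φ =>
    Ck_continuous c.C fun γ i => contDiff_infty.1 (hsm φ γ i) 0
  obtain ⟨φ, l1, l2⟩ := gr_seq (gr_gp hD hm hR u).1
  set ψ : ℕ → Core c.S := fun j => c.S.mC _ (hsm (φ j)) (φ j) with hψ
  set J : ℕ → ℝ := fun j => ∫ x, f (qf c.C w (φ j : Raw Γ I n V) x) *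
    nm c.C (φ j : Raw Γ I n V) x ^ 2 ∂c.μ with hJ
  have hint : ∀ j, Integrable (fun x => f (qf c.C w (φ j : Raw Γ I n V) x) *
    nm c.C (φ j : Raw Γ I n V) x ^ 2) c.μ := fun j => by
    have := integrable_f (c := c) (φ j) ((hfc (φ j)).mul (φ j).2.continuous_nm)
    refine this.congr (Filter.Eventually.of_forall fun x => ?_)
    simp only [Pi.mul_apply]
    ring
  have hJ0 : ∀ j, 0 ≤ J j := fun j => integral_nonneg fun x => mul_nonneg (hf.nonneg _) (sq_nonneg _)
  -- norm of the test functions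
  have n1 : ∀ j, ‖c.E.e (ψ j)‖ ≤ ‖c.E.e (φ j)‖ := by
    intro j
    have := norm_e_le c.E c.vol (φ := ψ j) (ψ := φ j) zero_le_one fun x => by
      rw [hψ, nm_mC]
      refine mul_le_mul_of_nonneg_right ?_ (norm_nonneg _)
      rw [abs_of_nonneg (hf.nonneg _)]
      exact hf.le _
    rwa [one_mul] at this
  have n2 : ∀ j, ‖c.E.e (c.S.DC (ψ j))‖ ≤
      √(|B| * (‖c.E.e (φ j)‖ ^ 2 + ‖c.E.e (c.S.DC (φ j))‖ ^ 2)) := by
    intro j
    refine Real.le_sqrt_of_sq_le ((hB (φ j) (hsm (φ j))).trans ?_)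
    exact mul_le_mul_of_nonneg_right (le_abs_self _) (by positivity)
  -- the error
  set err : ℕ → ℝ := fun j => m ^ 2 * (‖c.E.e (φ j) - g u‖ * ‖c.E.e (φ j)‖) +
    ‖c.E.e (c.S.DC (φ j)) - p u‖ *
      √(|B| * (‖c.E.e (φ j)‖ ^ 2 + ‖c.E.e (c.S.DC (φ j))‖ ^ 2)) with herr
  have herr0 : Filter.Tendsto err Filter.atTop (𝓝 0) := by
    have t1 : Filter.Tendsto (fun j => ‖c.E.e (φ j) - g u‖) Filter.atTop (𝓝 0) := by
      rw [← tendsto_iff_norm_sub_tendsto_zero]; exact l1
    have t2 : Filter.Tendsto (fun j => ‖c.E.e (c.S.DC (φ j)) - p u‖) Filter.atTop (𝓝 0) := by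
      rw [← tendsto_iff_norm_sub_tendsto_zero]; exact l2
    have t3 := ((t1.mul l1.norm).const_mul (m ^ 2)).add
      (t2.mul ((((l1.norm.pow 2).add (l2.norm.pow 2)).const_mul |B|).sqrt))
    rw [zero_mul, mul_zero, zero_mul, add_zero] at t3
    exact t3
  -- main estimate
  have main : ∀ j, (m ^ 2 + s) * (1 - b / c₀) * J j ≤ err j := by
    intro j
    have a1 := hA n M X Γ I V H c s w m (c₀ ^ 2) f hn hw hf (φ j) (hsm (φ j))
    have a2 : m ^ 2 * (⟪c.E.e (φ j), c.E.e (ψ j)⟫_ℂ).re +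
        (⟪c.E.e (c.S.DC (φ j)), c.E.e (c.S.DC (ψ j))⟫_ℂ).re =
        (⟪u, c.E.e (ψ j)⟫_ℂ).re + (m ^ 2 * (⟪c.E.e (φ j) - g u, c.E.e (ψ j)⟫_ℂ).re +
        (⟪c.E.e (c.S.DC (φ j)) - p u, c.E.e (c.S.DC (ψ j))⟫_ℂ).re) := by
      have := congrArg Complex.re (weak_eq hL hD hm hR u (ψ j))
      rw [Complex.add_re, ← Complex.ofReal_pow, Complex.re_ofReal_mul] at this
      rw [inner_sub_left, inner_sub_left, Complex.sub_re, Complex.sub_re]
      linear_combination this
    have a3 : (⟪u, c.E.e (ψ j)⟫_ℂ).re ≤ (m ^ 2 + s) * (b / c₀) * J j := by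
      have b1 : (⟪u, c.E.e (ψ j)⟫_ℂ).re ≤ (m ^ 2 + s) * b *
          ∫ x, w x * nm c.C (ψ j : Raw Γ I n V) x ∂c.μ :=
        (Complex.re_le_norm _).trans (hu (ψ j))
      have b2 : b * ∫ x, w x * nm c.C (ψ j : Raw Γ I n V) x ∂c.μ ≤ b / c₀ * J j := by
        rw [hJ, ← integral_const_mul, ← integral_const_mul]
        refine integral_mono ((integrable_f (ψ j) hcw).const_mul b) ((hint j).const_mul _)
          fun x => ?_
        simp only
        rw [hψ, nm_mC, abs_of_nonneg (hf.nonneg _)]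
        set N := nm c.C (φ j : Raw Γ I n V) x with hN
        have hN0 : 0 ≤ N := norm_nonneg _
        have hwx := hw.pos x
        by_cases hq : qf c.C w (φ j : Raw Γ I n V) x ≤ c₀ ^ 2
        · rw [hf.zero _ hq]; simp
        · push Not at hq
          have hNw : c₀ * w x ≤ N := by
            unfold qf at hq
            rw [lt_div_iff₀ (by positivity), ← mul_pow] at hq
            exact (abs_le_of_sq_le_sq' hq.le hN0).2
          have hf0 := hf.nonneg (qf c.C w (φ j : Raw Γ I n V) x)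
          set F := f (qf c.C w (φ j : Raw Γ I n V) x)
          have : b * (w x * (F * N)) = (b / c₀ * F * N) * (c₀ * w x) := by
            field_simp
          rw [this]
          calc b / c₀ * F * N * (c₀ * w x) ≤ b / c₀ * F * N * N :=
                mul_le_mul_of_nonneg_left hNw (by positivity)
            _ = _ := by ring
      calc _ ≤ (m ^ 2 + s) * (b * ∫ x, w x * nm c.C (ψ j : Raw Γ I n V) x ∂c.μ) := by
            rw [← mul_assoc]; exact b1
        _ ≤ (m ^ 2 + s) * (b / c₀ * J j) := mul_le_mul_of_nonneg_left b2 hms.le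
        _ = _ := by ring
    have a4 : m ^ 2 * (⟪c.E.e (φ j) - g u, c.E.e (ψ j)⟫_ℂ).re +
        (⟪c.E.e (c.S.DC (φ j)) - p u, c.E.e (c.S.DC (ψ j))⟫_ℂ).re ≤ err j := by
      refine add_le_add (mul_le_mul_of_nonneg_left ?_ (sq_nonneg m)) ?_
      · refine (Complex.re_le_norm _).trans ((norm_inner_le_norm _ _).trans ?_)
        exact mul_le_mul_of_nonneg_left (n1 j) (norm_nonneg _)
      · refine (Complex.re_le_norm _).trans ((norm_inner_le_norm _ _).trans ?_)
        exact mul_le_mul_of_nonneg_left (n2 j) (norm_nonneg _)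
    have a5 : (m ^ 2 + s) * J j ≤ (m ^ 2 + s) * (b / c₀) * J j + err j := by
      refine a1.trans ?_
      rw [a2]
      exact add_le_add a3 a4
    linarith
  have hJlim : Filter.Tendsto J Filter.atTop (𝓝 0) := by
    have hc : 0 < (m ^ 2 + s) * (1 - b / c₀) :=
      mul_pos hms (sub_pos.2 ((div_lt_one h3).2 h1))
    refine squeeze_zero hJ0 (g := fun j => ((m ^ 2 + s) * (1 - b / c₀))⁻¹ * err j) (fun j => ?_) ?_
    · rw [inv_mul_eq_div, le_div_iff₀ hc, mul_comm]
      exact main j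
    · have := herr0.const_mul (((m ^ 2 + s) * (1 - b / c₀))⁻¹)
      rw [mul_zero] at this
      exact this
  -- conclusion
  intro θ
  suffices hε : ∀ ε : ℝ, 0 < ε → ‖⟪g u, c.E.e θ⟫_ℂ‖ ≤
      c' * (∫ x, w x * nm c.C (θ : Raw Γ I n V) x ∂c.μ) + ε / 2 * ‖c.E.e θ‖ ^ 2 by
    have hlim : Filter.Tendsto (fun ε : ℝ => c' * (∫ x, w x * nm c.C (θ : Raw Γ I n V) x ∂c.μ) +
        ε / 2 * ‖c.E.e θ‖ ^ 2) (𝓝[>] 0)
        (𝓝 (c' * (∫ x, w x * nm c.C (θ : Raw Γ I n V) x ∂c.μ) + 0 / 2 * ‖c.E.e θ‖ ^ 2)) :=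
      ((continuous_const.add ((continuous_id.div_const 2).mul continuous_const)).tendsto
        0).mono_left nhdsWithin_le_nhds
    rw [zero_div, zero_mul, add_zero] at hlim
    refine ge_of_tendsto hlim ?_
    filter_upwards [self_mem_nhdsWithin] with ε hε' using hε ε hε'
  intro ε hε
  have hbound : ∀ j, ‖⟪c.E.e (φ j), c.E.e θ⟫_ℂ‖ ≤
      c' * (∫ x, w x * nm c.C (θ : Raw Γ I n V) x ∂c.μ) + 1 / (2 * ε) * J j +
        ε / 2 * ‖c.E.e θ‖ ^ 2 := by
    intro j
    have i1 : Integrable (fun x => w x * nm c.C (θ : Raw Γ I n V) x) c.μ := integrable_f θ hcw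
    have i2 : Integrable (fun x => nm c.C (θ : Raw Γ I n V) x ^ 2) c.μ := by
      have := integrable_f (c := c) θ θ.2.continuous_nm
      refine this.congr (Filter.Eventually.of_forall fun x => ?_)
      simp only
      ring
    rw [c.E.ip, norm_e_sq c.E]
    unfold ipr
    refine (norm_integral_le_integral_norm _).trans ?_
    have i3 : Integrable (fun x => c' * (w x * nm c.C (θ : Raw Γ I n V) x) + 1 / (2 * ε) *
        (f (qf c.C w (φ j : Raw Γ I n V) x) * nm c.C (φ j : Raw Γ I n V) x ^ 2)) c.μ :=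
      (i1.const_mul c').add ((hint j).const_mul _)
    rw [hJ, ← integral_const_mul, ← integral_const_mul, ← integral_const_mul,
      ← integral_add (i1.const_mul c') ((hint j).const_mul _),
      ← integral_add i3 (i2.const_mul _)]
    refine integral_mono (((φ j).2.integrable_hp θ.2 c.vol).norm)
      (i3.add (i2.const_mul _)) fun x => ?_
    simp only
    set N := nm c.C (φ j : Raw Γ I n V) x with hN
    set T := nm c.C (θ : Raw Γ I n V) x with hT
    have hN0 : 0 ≤ N := norm_nonneg _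
    have hT0 : 0 ≤ T := norm_nonneg _
    have hwx := hw.pos x
    have hc'0 : 0 < c' := h3.trans h2
    have h5 : ‖hp c.C (φ j : Raw Γ I n V) (θ : Raw Γ I n V) x‖ ≤ N * T := norm_inner_le_norm _ _
    refine h5.trans ?_
    have hf0 := hf.nonneg (qf c.C w (φ j : Raw Γ I n V) x)
    have hf1' := hf.le (qf c.C w (φ j : Raw Γ I n V) x)
    by_cases hq : c' ^ 2 ≤ qf c.C w (φ j : Raw Γ I n V) x
    · rw [hf1 _ hq]
      have h6 : N * T ≤ 1 / (2 * ε) * (1 * N ^ 2) + ε / 2 * T ^ 2 := by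
        have h7 : 1 / (2 * ε) * (1 * N ^ 2) + ε / 2 * T ^ 2 - N * T =
            (N - ε * T) ^ 2 / (2 * ε) := by field_simp; ring
        have h8 : 0 ≤ (N - ε * T) ^ 2 / (2 * ε) := by positivity
        linarith
      have h9 : 0 ≤ c' * (w x * T) := by positivity
      linarith
    · push Not at hq
      have hNw : N ≤ c' * w x := by
        unfold qf at hq
        rw [div_lt_iff₀ (by positivity), ← mul_pow] at hq
        exact (abs_le_of_sq_le_sq' hq.le (by positivity)).2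
      have h6 : N * T ≤ c' * (w x * T) := by
        rw [← mul_assoc]
        exact mul_le_mul_of_nonneg_right hNw hT0
      have h7 : 0 ≤ 1 / (2 * ε) * (f (qf c.C w (φ j : Raw Γ I n V) x) * N ^ 2) := by positivity
      have h8 : 0 ≤ ε / 2 * T ^ 2 := by positivity
      linarith
  have t1 : Filter.Tendsto (fun j => ‖⟪c.E.e (φ j), c.E.e θ⟫_ℂ‖) Filter.atTop
      (𝓝 ‖⟪g u, c.E.e θ⟫_ℂ‖) := (l1.inner tendsto_const_nhds).norm
  have t2 : Filter.Tendsto (fun j => c' * (∫ x, w x * nm c.C (θ : Raw Γ I n V) x ∂c.μ) +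
      1 / (2 * ε) * J j + ε / 2 * ‖c.E.e θ‖ ^ 2) Filter.atTop
      (𝓝 (c' * (∫ x, w x * nm c.C (θ : Raw Γ I n V) x ∂c.μ) +
      1 / (2 * ε) * 0 + ε / 2 * ‖c.E.e θ‖ ^ 2)) :=
    ((hJlim.const_mul _).const_add _).add_const _
  rw [mul_zero, add_zero] at t2
  exact le_of_tendsto_of_tendsto' t1 t2 hbound

end Vale.Agent.P223.H566
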