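import Vale.Agent.P223.H566.Alg2

/-! Sup bound: test functions, statements of the two estimates. -/

namespace Vale.Agent.P223.H566

open scoped ContDiff InnerProductSpace Topology
open MeasureTheory Vale.Agent.P223.H Vale.Agent.P223.X

/-- `|φ|² / w²` -/
noncomputable def qf {n : ℕ} {M X Γ I : Type} [TopologicalSpace M] [TopologicalSpace X] [Group Γ]
    [MulAction Γ X] {V : Type} [NormedAddCommGroup V] (C : Cov n M X Γ I) (w : X → ℝ)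
    (φ : Raw Γ I n V) (x : X) : ℝ := nm C φ x ^ 2 / w x ^ 2

/-- test functions -/
structure Tst (δ : ℝ) (f : ℝ → ℝ) : Prop where
  pos : 0 < δ
  smooth : ContDiff ℝ ∞ f
  zero : ∀ t, t ≤ δ → f t = 0
  nonneg : ∀ t, 0 ≤ f t
  le : ∀ t, f t ≤ 1
  mono : ∀ t, 0 ≤ deriv f t
  supp : HasCompactSupport (deriv f)

/-- `f(|φ|² / w²)` is smooth -/
def SpecSupSm : Prop := ∀ (n : ℕ) (M X Γ I V : Type) [TopologicalSpace M] [TopologicalSpace X]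
  [Group Γ] [MulAction Γ X] [NormedAddCommGroup V] [InnerProductSpace ℂ V]
  (C : Cov n M X Γ I) (G : I → E n → Matrix (Fin n) (Fin n) ℝ) (K : Cliff n V)
  (S : SpX C G K) (w : X → ℝ) (f : ℝ → ℝ) (φ : Core S), C.Ck ∞ w → (∀ x, 0 < w x) →
  ContDiff ℝ ∞ f → C.Ck ∞ (fun x => f (qf C w (φ : Raw Γ I n V) x))

/-- PART A : `(m² + s) ∫ f(q) |φ|² ≤ Re (m² ⟨φ, f(q) φ⟩ + ⟨D φ, D (f(q) φ)⟩)` -/
def SpecSupA : Prop := ∀ (n : ℕ) (M X Γ I V H : Type) [TopologicalSpace M] [TopologicalSpace X]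
  [Group Γ] [MulAction Γ X] [Fintype I] [T2Space X] [ConnectedSpace X] [T2Space M]
  [MeasurableSpace X] [BorelSpace X] [NormedAddCommGroup V] [InnerProductSpace ℂ V]
  [FiniteDimensional ℂ V] [NormedAddCommGroup H] [InnerProductSpace ℂ H] [CompleteSpace H]
  (c : Ctx n M X Γ I V H) (s : ℝ) (w : X → ℝ) (m δ : ℝ) (f : ℝ → ℝ), 1 ≤ n →
  Gst c.C c.G s w → Tst δ f → ∀ (φ : Core c.S)
  (hf : c.C.Ck ∞ (fun x => f (qf c.C w (φ : Raw Γ I n V) x))),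
  (m ^ 2 + s) * ∫ x, f (qf c.C w (φ : Raw Γ I n V) x) * nm c.C (φ : Raw Γ I n V) x ^ 2 ∂c.μ ≤
    m ^ 2 * (⟪c.E.e φ, c.E.e (c.S.mC _ hf φ)⟫_ℂ).re +
      (⟪c.E.e (c.S.DC φ), c.E.e (c.S.DC (c.S.mC _ hf φ))⟫_ℂ).re

/-- PART B : `‖D (f(q) φ)‖² ≤ B (‖φ‖² + ‖D φ‖²)` -/
def SpecSupB : Prop := ∀ (n : ℕ) (M X Γ I V H : Type) [TopologicalSpace M] [TopologicalSpace X]
  [Group Γ] [MulAction Γ X] [Fintype I] [T2Space X] [ConnectedSpace X] [T2Space M]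
  [MeasurableSpace X] [BorelSpace X] [NormedAddCommGroup V] [InnerProductSpace ℂ V]
  [FiniteDimensional ℂ V] [NormedAddCommGroup H] [InnerProductSpace ℂ H] [CompleteSpace H]
  (c : Ctx n M X Γ I V H) (s : ℝ) (w : X → ℝ) (δ : ℝ) (f : ℝ → ℝ), 1 ≤ n →
  Gst c.C c.G s w → Tst δ f → ∃ B : ℝ, ∀ (φ : Core c.S)
  (hf : c.C.Ck ∞ (fun x => f (qf c.C w (φ : Raw Γ I n V) x))),
  ‖c.E.e (c.S.DC (c.S.mC _ hf φ))‖ ^ 2 ≤ B * (‖c.E.e φ‖ ^ 2 + ‖c.E.e (c.S.DC φ)‖ ^ 2)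

end Vale.Agent.P223.H566
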