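import Vale.Agent.P223.H566.Gr

/-! Translations; sums over the partition of unity. -/

namespace Vale.Agent.P223.H566

open scoped ContDiff InnerProductSpace Topology
open MeasureTheory Vale.Agent.P223.H Vale.Agent.P223.X

section tr
variable {n : ℕ} {M X Γ I : Type} [TopologicalSpace M] [TopologicalSpace X] [Group Γ]
    [MulAction Γ X] {V : Type} [NormedAddCommGroup V] [InnerProductSpace ℂ V]
    {C : Cov n M X Γ I} {G : I → E n → Matrix (Fin n) (Fin n) ℝ} {K : Cliff n V}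
    {S : SpX C G K}

theorem sg_conj (S : SpX C G K) (a b : Γ) : (starRingEnd ℂ) (S.sg a b) * S.sg a b = 1 := by
  have h := S.sg_sq a b
  have h1 : (S.sg a b - 1) * (S.sg a b + 1) = 0 := by linear_combination h
  rcases mul_eq_zero.1 h1 with h2 | h2
  · rw [sub_eq_zero.1 h2]; simp
  · rw [eq_neg_of_add_eq_zero_left h2]; simp

theorem tC_lC [T2Space X] (γ₀ γ : Γ) (i : I) (b : CS n V) :
    S.tC γ₀ (S.lC γ i b) = S.sg γ₀ γ • S.lC (γ₀ * γ) i b := by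
  refine Subtype.ext ?_
  funext γ' j y
  change S.sg γ₀ (γ₀⁻¹ * γ') • S.loc γ i b (γ₀⁻¹ * γ') j y =
    S.sg γ₀ γ • S.loc (γ₀ * γ) i b γ' j y
  by_cases hx : γ' • C.ψ j y ∈ Set.range (fun z => (γ₀ * γ) • C.ψ i z)
  · obtain ⟨z, hz⟩ := hx
    have hz : (γ₀ * γ) • C.ψ i z = γ' • C.ψ j y := hz
    have hz' : γ • C.ψ i z = (γ₀⁻¹ * γ') • C.ψ j y := by
      rw [mul_smul, ← hz, mul_smul, inv_smul_smul]
    have h1 := S.equi γ₀ γ i (γ₀⁻¹ * γ') j z (chart_eq C hz').1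
    rw [mul_inv_cancel_left] at h1
    rw [S.loc_of hz'.symm, S.loc_of hz.symm, h1, smul_apply, smul_smul, ← mul_assoc, S.sg_sq,
      one_mul]
  · rw [S.loc_zero fun z _ h => hx ⟨z, h.symm⟩, S.loc_zero fun z _ h => hx ⟨z, ?_⟩, smul_zero,
      smul_zero]
    simp only
    rw [mul_smul, ← h, mul_smul, smul_inv_smul]

variable [MeasurableSpace X] [BorelSpace X] [T2Space X] {μ : Measure X}

/-- translations are unitary -/
theorem ipr_tC [Fintype I] (hV : VolX C G μ) (γ₀ : Γ) (φ ψ : Core S) :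
    ipr C μ (S.tC γ₀ φ : Raw Γ I n V) (S.tC γ₀ ψ : Raw Γ I n V) =
      ipr C μ (φ : Raw Γ I n V) (ψ : Raw Γ I n V) := by
  obtain ⟨F, b, hb⟩ := core_decomp φ
  rw [hb]
  have hadd : ∀ φ φ' : Core S,
      ipr C μ (S.tC γ₀ φ : Raw Γ I n V) (S.tC γ₀ ψ : Raw Γ I n V) =
        ipr C μ (φ : Raw Γ I n V) (ψ : Raw Γ I n V) →
      ipr C μ (S.tC γ₀ φ' : Raw Γ I n V) (S.tC γ₀ ψ : Raw Γ I n V) =
        ipr C μ (φ' : Raw Γ I n V) (ψ : Raw Γ I n V) →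
      ipr C μ (S.tC γ₀ (φ + φ') : Raw Γ I n V) (S.tC γ₀ ψ : Raw Γ I n V) =
        ipr C μ ((φ + φ' : Core S) : Raw Γ I n V) (ψ : Raw Γ I n V) := by
    intro φ φ' h1 h2
    rw [map_add, ipr_add_left hV, ipr_add_left hV, h1, h2]
  have hzero : ipr C μ (S.tC γ₀ (0 : Core S) : Raw Γ I n V) (S.tC γ₀ ψ : Raw Γ I n V) =
        ipr C μ ((0 : Core S) : Raw Γ I n V) (ψ : Raw Γ I n V) := by
    have h1 := ipr_smul_left (μ := μ) (0 : ℂ) (0 : Core S) (S.tC γ₀ ψ)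
    have h2 := ipr_smul_left (μ := μ) (0 : ℂ) (0 : Core S) ψ
    simp only [zero_smul, map_zero, zero_mul] at h1 h2 ⊢
    rw [h1, h2]
  refine Finset.sum_induction _ (fun φ : Core S =>
    ipr C μ (S.tC γ₀ φ : Raw Γ I n V) (S.tC γ₀ ψ : Raw Γ I n V) =
        ipr C μ (φ : Raw Γ I n V) (ψ : Raw Γ I n V)) hadd hzero fun i _ => ?_
  refine Finset.sum_induction _ (fun φ : Core S =>
    ipr C μ (S.tC γ₀ φ : Raw Γ I n V) (S.tC γ₀ ψ : Raw Γ I n V) =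
        ipr C μ (φ : Raw Γ I n V) (ψ : Raw Γ I n V)) hadd hzero fun γ _ => ?_
  rw [tC_lC, ipr_smul_left, (ipr_lC hV _ i _ _).2, (ipr_lC hV _ i _ _).2, ← integral_const_mul]
  congr 1
  funext y
  have e : (S.tC γ₀ ψ : Raw Γ I n V) (γ₀ * γ) i y = S.sg γ₀ γ • (ψ : Raw Γ I n V) γ i y := by
    change S.sg γ₀ (γ₀⁻¹ * (γ₀ * γ)) • (ψ : Raw Γ I n V) (γ₀⁻¹ * (γ₀ * γ)) i y = _
    rw [inv_mul_cancel_left]
  rw [e, inner_smul_right]
  linear_combination (norm := ring_nf) ((H.dens (G i) y : ℂ) *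
    ⟪(b γ i : E n → V) y, (ψ : Raw Γ I n V) γ i y⟫_ℂ) * sg_conj S γ₀ γ

end tr

/-! ### sums -/

section sums
variable {H : Type} [NormedAddCommGroup H] [InnerProductSpace ℂ H]

theorem hasSum_of_dense {ι F : Type} {A : ι → H →L[ℂ] H} {S' : H →L[ℂ] H} {B : ℝ}
    (hB : ∀ (T : Finset ι) (x : H), ‖∑ l ∈ T, A l x‖ ≤ B * ‖x‖) {e : F → H} (he : DenseRange e)
    (h : ∀ φ, HasSum (fun l => A l (e φ)) (S' (e φ))) (x : H) :
    HasSum (fun l => A l x) (S' x) := by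
  have hB0 : 0 ≤ |B| := abs_nonneg B
  unfold HasSum
  rw [Metric.tendsto_nhds]
  intro ε hε
  obtain ⟨φ, hφ⟩ := Metric.denseRange_iff.1 he x (ε / (2 * (|B| + ‖S'‖ + 1))) (by positivity)
  have h1 := Metric.tendsto_nhds.1 (h φ) (ε / 2) (by positivity)
  filter_upwards [h1] with T hT
  rw [dist_eq_norm] at hT ⊢
  rw [dist_eq_norm] at hφ
  have e1 : ∑ l ∈ T, A l x - S' x = ∑ l ∈ T, A l (x - e φ) + (∑ l ∈ T, A l (e φ) - S' (e φ)) -
      S' (x - e φ) := by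
    simp only [map_sub, Finset.sum_sub_distrib]
    abel
  rw [e1]
  have e2 : ‖∑ l ∈ T, A l (x - e φ)‖ ≤ |B| * ‖x - e φ‖ :=
    (hB T _).trans (mul_le_mul_of_nonneg_right (le_abs_self _) (norm_nonneg _))
  have e3 : ‖S' (x - e φ)‖ ≤ ‖S'‖ * ‖x - e φ‖ := S'.le_opNorm _
  have e4 : (|B| + ‖S'‖ + 1) * ‖x - e φ‖ < ε / 2 := by
    rw [lt_div_iff₀ (by positivity)] at hφ
    nlinarith
  have e5 : 0 ≤ ‖x - e φ‖ := norm_nonneg _
  calc _ ≤ ‖∑ l ∈ T, A l (x - e φ) + (∑ l ∈ T, A l (e φ) - S' (e φ))‖ + ‖S' (x - e φ)‖ :=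
        norm_sub_le _ _
    _ ≤ ‖∑ l ∈ T, A l (x - e φ)‖ + ‖∑ l ∈ T, A l (e φ) - S' (e φ)‖ + ‖S' (x - e φ)‖ := by
        gcongr; exact norm_add_le _ _
    _ < ε := by nlinarith

end sums

section pou
variable {n : ℕ} {M X Γ I : Type} [TopologicalSpace M] [TopologicalSpace X] [Group Γ]
    [MulAction Γ X] {V : Type} [NormedAddCommGroup V] [InnerProductSpace ℂ V]
    {C : Cov n M X Γ I} {G : I → E n → Matrix (Fin n) (Fin n) ℝ} {K : Cliff n V}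
    {S : SpX C G K} [T2Space X] [Finite I] {ι : Type} [Fintype ι] {P : PUX C ι}
    (hP : ∀ i, C.Ck ∞ (P.φ i))

/-- decomposition by the partition of unity -/
theorem exists_T (φ : Core S) : ∃ T : Finset (Γ × ι),
    (∀ l, l ∉ T → S.mC (P.fn l) (H391.ck_fn hP l) φ = 0) ∧
    ∑ l ∈ T, S.mC (P.fn l) (H391.ck_fn hP l) φ = φ := by
  classical
  obtain ⟨B, hB, h3⟩ := φ.2.supp
  set K' : Set X := ⋃ i, tsupport (P.φ i) with hK
  have hKc : IsCompact K' := isCompact_iUnion fun i => P.supp i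
  have hfin := properX C hB hKc
  set F : Finset Γ := hfin.toFinset.image (fun γ => γ⁻¹) with hF
  have hz : ∀ l : Γ × ι, l.1 ∉ F → ∀ x ∈ B, P.fn l x = 0 := by
    intro l hl x hx
    by_contra h
    apply hl
    refine Finset.mem_image.2 ⟨l.1⁻¹, hfin.mem_toFinset.2 ⟨x, hx, ?_⟩, inv_inv _⟩
    exact Set.mem_iUnion.2 ⟨l.2, subset_tsupport _ h⟩
  have hsum : ∀ x ∈ B, ∑ l ∈ F ×ˢ (Finset.univ : Finset ι), P.fn l x = 1 := by
    intro x hx
    rw [← P.sum x, Finset.sum_product_right]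
    refine Finset.sum_congr rfl fun i _ => ?_
    refine (finsum_eq_sum_of_support_subset _ fun γ hγ => ?_).symm
    by_contra h
    exact hγ (hz (γ, i) h x hx)
  refine ⟨F ×ˢ Finset.univ, fun l hl => ?_, ?_⟩
  · have hl' : l.1 ∉ F := fun h => hl (Finset.mem_product.2 ⟨h, Finset.mem_univ _⟩)
    refine Subtype.ext ?_
    funext γ i y
    change (P.fn l (γ • C.ψ i y) : ℂ) • (φ : Raw Γ I n V) γ i y = 0
    by_cases hx : γ • C.ψ i y ∈ B
    · rw [hz l hl' _ hx, Complex.ofReal_zero, zero_smul]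
    · rw [h3 _ _ _ hx, smul_zero]
  · refine Subtype.ext ?_
    funext γ i y
    have e1 : ((∑ l ∈ F ×ˢ (Finset.univ : Finset ι), S.mC (P.fn l) (H391.ck_fn hP l) φ : Core S) :
        Raw Γ I n V) γ i y =
        ∑ l ∈ F ×ˢ (Finset.univ : Finset ι), (P.fn l (γ • C.ψ i y) : ℂ) •
          (φ : Raw Γ I n V) γ i y := by
      simp only [AddSubmonoidClass.coe_finsetSum, Finset.sum_apply]
      rfl
    rw [e1, ← Finset.sum_smul]
    by_cases hx : γ • C.ψ i y ∈ B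
    · have h4 : ∑ l ∈ F ×ˢ (Finset.univ : Finset ι), (P.fn l (γ • C.ψ i y) : ℂ) = 1 := by
        exact_mod_cast congrArg (fun r : ℝ => (r : ℂ)) (hsum _ hx)
      rw [h4, one_smul]
    · rw [h3 _ _ _ hx, smul_zero]

variable [MeasurableSpace X] {μ : Measure X} {H : Type} [NormedAddCommGroup H]
    [InnerProductSpace ℂ H] (E : Emb S μ H)

theorem hasSum_mC (φ : Core S) :
    HasSum (fun l : Γ × ι => E.e (S.mC (P.fn l) (H391.ck_fn hP l) φ)) (E.e φ) := by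
  obtain ⟨T, h1, h2⟩ := exists_T hP φ
  have : HasSum (fun l : Γ × ι => E.e (S.mC (P.fn l) (H391.ck_fn hP l) φ))
      (∑ l ∈ T, E.e (S.mC (P.fn l) (H391.ck_fn hP l) φ)) :=
    hasSum_sum_of_ne_finset_zero fun l hl => by rw [h1 l hl, map_zero]
  rwa [← map_sum, h2] at this

theorem hasSum_D_mC (φ : Core S) :
    HasSum (fun l : Γ × ι => E.e (S.DC (S.mC (P.fn l) (H391.ck_fn hP l) φ))) (E.e (S.DC φ)) := by
  obtain ⟨T, h1, h2⟩ := exists_T hP φ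
  have : HasSum (fun l : Γ × ι => E.e (S.DC (S.mC (P.fn l) (H391.ck_fn hP l) φ)))
      (∑ l ∈ T, E.e (S.DC (S.mC (P.fn l) (H391.ck_fn hP l) φ))) :=
    hasSum_sum_of_ne_finset_zero fun l hl => by rw [h1 l hl, map_zero, map_zero]
  rwa [← map_sum, ← map_sum, h2] at this

theorem hasSum_cC (φ : Core S) :
    HasSum (fun l : Γ × ι => E.e (S.cC (P.fn l) (H391.ck_fn hP l) φ)) 0 := by
  have h1 := (hasSum_D_mC hP E φ).sub (hasSum_mC hP E (S.DC φ))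
  rw [sub_self] at h1
  have e : (fun l : Γ × ι => E.e (S.cC (P.fn l) (H391.ck_fn hP l) φ)) = fun l =>
      E.e (S.DC (S.mC (P.fn l) (H391.ck_fn hP l) φ)) -
        E.e (S.mC (P.fn l) (H391.ck_fn hP l) (S.DC φ)) := by
    funext l
    rw [S.DC_mC, map_add, add_sub_cancel_left]
  rw [e]
  exact h1

end pou

end Vale.Agent.P223.H566
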