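import Vale.Agent.P223.H566.ChdG
import Vale.Agent.P223.H850.Sqrt

/-! Integration over the shell. -/

namespace Vale.Agent.P223.H566.Tru

open MeasureTheory Set Matrix
open Vale.Agent.P223.H765.NC
open scoped ENNReal NNReal ContDiff

variable {n : ℕ} {G : J.Mtx n}

/-- the standard shell -/
def std (n : ℕ) : Set (J.E n) := {p | 1 / 4 < ∑ i, p i ^ 2 ∧ ∑ i, p i ^ 2 ≤ 1}

theorem two_ham (G : J.Mtx n) (q p : J.E n) : 2 * ham G (q, p) = p ⬝ᵥ ((G q)⁻¹ *ᵥ p) := by
  unfold ham
  simp only [dotProduct, Matrix.mulVec, Finset.mul_sum]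
  exact Finset.sum_congr rfl fun i _ => Finset.sum_congr rfl fun j _ => by ring

theorem fib (hp : ∀ x, (G x).PosDef) (q : J.E n) :
    volume {p : J.E n | (q, p) ∈ shl G} = ENNReal.ofReal √(G q).det * volume (std n) := by
  set S := H850.rt (G q) with hS
  have hSp : S.PosDef := H850.rt_posDef (hp q)
  have hSS : S * S = G q := H850.rt_mul (hp q)
  have hSt : Sᵀ = S := H850.rt_symm (hp q)
  have hd : 0 < S.det := hSp.det_pos
  have hu : IsUnit S.det := isUnit_iff_ne_zero.2 hd.ne'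
  have h1 : {p : J.E n | (q, p) ∈ shl G} = (Matrix.toLin' S⁻¹) ⁻¹' std n := by
    ext p
    have h2 : 2 * ham G (q, p) = ∑ i, (Matrix.toLin' S⁻¹ p) i ^ 2 := by
      rw [two_ham, Matrix.toLin'_apply]
      have h3 : ∑ i, (S⁻¹ *ᵥ p) i ^ 2 = (S⁻¹ *ᵥ p) ⬝ᵥ (S⁻¹ *ᵥ p) := by
        simp only [dotProduct]
        exact Finset.sum_congr rfl fun i _ => by ring
      have h4 : (G q)⁻¹ = S⁻¹ * S⁻¹ := by rw [← hSS, Matrix.mul_inv_rev]
      have h5 : (S⁻¹)ᵀ = S⁻¹ := by rw [Matrix.transpose_nonsing_inv, hSt]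
      rw [h3, h4, ← Matrix.mulVec_mulVec, Matrix.dotProduct_mulVec, ← Matrix.mulVec_transpose, h5]
    show (1 / 4 < 2 * ham G (q, p) ∧ 2 * ham G (q, p) ≤ 1) ↔ _
    rw [h2]
    rfl
  have hdet : LinearMap.det (Matrix.toLin' S⁻¹) = S.det⁻¹ := by
    rw [LinearMap.det_toLin', Matrix.det_nonsing_inv, Ring.inverse_eq_inv']
  rw [h1, Measure.addHaar_preimage_linearMap volume (by rw [hdet]; exact (inv_pos.2 hd).ne'),
    hdet, inv_inv, abs_of_pos hd]
  congr 2
  rw [← hSS, Matrix.det_mul, Real.sqrt_mul_self hd.le]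

theorem std_ne_top (n : ℕ) : volume (std n) ≠ ⊤ := by
  have h1 : std n ⊆ Icc (fun _ => -1) fun _ => 1 := by
    intro p hp
    have h2 : ∀ i, p i ^ 2 ≤ 1 := fun i =>
      (Finset.single_le_sum (f := fun i => p i ^ 2) (fun j _ => sq_nonneg (p j))
        (Finset.mem_univ i)).trans hp.2
    have h3 : ∀ i, |p i| ≤ 1 := fun i => by
      have := h2 i
      rwa [← sq_abs, sq_le_one_iff₀ (abs_nonneg _)] at this
    exact ⟨fun i => (abs_le.1 (h3 i)).1, fun i => (abs_le.1 (h3 i)).2⟩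
  exact ne_top_of_le_ne_top (isCompact_Icc.measure_lt_top.ne) (measure_mono h1)

theorem std_pos (hn : 1 ≤ n) : 0 < volume (std n) := by
  have hc : Continuous fun p : J.E n => ∑ i, p i ^ 2 :=
    continuous_finsetSum _ fun i _ => (continuous_apply i).pow 2
  have h1 : IsOpen {p : J.E n | 1 / 4 < ∑ i, p i ^ 2 ∧ ∑ i, p i ^ 2 < 1} :=
    (isOpen_lt continuous_const hc).inter (isOpen_lt hc continuous_const)
  refine (h1.measure_pos volume ?_).trans_le (measure_mono fun p hp => ⟨hp.1, hp.2.le⟩)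
  refine ⟨Pi.single ⟨0, hn⟩ (3 / 4), ?_⟩
  have h2 : ∑ i, (Pi.single (⟨0, hn⟩ : Fin n) (3 / 4 : ℝ) : J.E n) i ^ 2 = 9 / 16 := by
    rw [Finset.sum_eq_single ⟨0, hn⟩]
    · rw [Pi.single_eq_same]; norm_num
    · intro i _ hi
      rw [Pi.single_eq_of_ne hi]; norm_num
    · intro h; exact absurd (Finset.mem_univ _) h
  simp only [mem_ofPred_eq, h2]
  norm_num

/-- functions of the base point -/
theorem int_shl (hs : ∀ i j, ContDiff ℝ ∞ fun x => G x i j) (hp : ∀ x, (G x).PosDef)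
    {A : Set (J.E n)} (hA : MeasurableSet A) {h : J.E n → ℝ≥0∞} (hh : Measurable h) :
    ∫⁻ z in shl G ∩ Prod.fst ⁻¹' A, h z.1 =
      volume (std n) * ∫⁻ q in A, ENNReal.ofReal √(G q).det * h q := by
  have hS := ChdG.meas_shl hs hp
  have hA' : MeasurableSet (Prod.fst ⁻¹' A : Set (J.E n × J.E n)) := measurable_fst hA
  rw [← lintegral_indicator (hS.inter hA'), Measure.volume_eq_prod, lintegral_prod,
    ← lintegral_indicator hA, ← lintegral_const_mul]
  · refine lintegral_congr fun q => ?_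
    by_cases hq : q ∈ A
    · rw [indicator_of_mem hq]
      have h1 : ∀ p : J.E n, (shl G ∩ Prod.fst ⁻¹' A).indicator (fun z => h z.1) (q, p) =
          {p : J.E n | (q, p) ∈ shl G}.indicator (fun _ => h q) p := by
        intro p
        by_cases hp' : (q, p) ∈ shl G
        · rw [indicator_of_mem (show (q, p) ∈ shl G ∩ Prod.fst ⁻¹' A from ⟨hp', hq⟩),
            indicator_of_mem (show p ∈ {p : J.E n | (q, p) ∈ shl G} from hp')]
        · rw [indicator_of_notMem (fun h => hp' h.1),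
            indicator_of_notMem (show p ∉ {p : J.E n | (q, p) ∈ shl G} from hp')]
      have hm : MeasurableSet {p : J.E n | (q, p) ∈ shl G} := measurable_prodMk_left hS
      simp only [h1]
      rw [lintegral_indicator hm, setLIntegral_const, fib hp]
      ring
    · rw [indicator_of_notMem hq, mul_zero]
      have h1 : ∀ p : J.E n, (shl G ∩ Prod.fst ⁻¹' A).indicator (fun z => h z.1) (q, p) = 0 :=
        fun p => indicator_of_notMem (fun h => hq h.2) _
      simp only [h1, lintegral_zero]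
  · exact (((SobR.cont_sdet hs).measurable.ennreal_ofReal.mul hh).indicator hA)
  · exact ((hh.comp measurable_fst).indicator (hS.inter hA')).aemeasurable

end Vale.Agent.P223.H566.Tru
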