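import Vale.Agent.P223.H566.Tru1
import Mathlib.MeasureTheory.Integral.IntervalIntegral.FundThmCalculus

/-! Functions along geodesics. -/

namespace Vale.Agent.P223.H566.Tru

open MeasureTheory Set Matrix
open Vale.Agent.P223.H765.NC
open scoped ENNReal NNReal ContDiff

variable {n : ℕ} {G : J.Mtx n} {Φ : ℝ → J.E n × J.E n → J.E n × J.E n} {f : J.E n → ℝ}

theorem fderiv_sum (f : J.E n → ℝ) (x v : J.E n) : fderiv ℝ f x v = ∑ i, v i * J.pd i f x := by
  conv_lhs => rw [pi_eq_sum_univ' v]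
  rw [map_sum]
  refine Finset.sum_congr rfl fun i _ => ?_
  rw [map_smul, smul_eq_mul]
  congr 2

/-- Cauchy-Schwarz -/
theorem speed (hp : ∀ x, (G x).PosDef) (f : J.E n → ℝ) (z : J.E n × J.E n) :
    |fderiv ℝ f z.1 (hv G z).1| ≤ √(J.gsq G f z.1) * √(2 * ham G z) := by
  have hI : ((G z.1)⁻¹).PosSemidef := (hp z.1).inv.posSemidef
  set u : J.E n := fun i => J.pd i f z.1 with hu
  have h1 : fderiv ℝ f z.1 (hv G z).1 = u ⬝ᵥ ((G z.1)⁻¹ *ᵥ z.2) := by
    rw [fderiv_sum]
    simp only [hv, dotProduct, Matrix.mulVec, hu]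
    exact Finset.sum_congr rfl fun i _ => mul_comm _ _
  have h2 : J.gsq G f z.1 = u ⬝ᵥ ((G z.1)⁻¹ *ᵥ u) := by
    unfold J.gsq
    simp only [dotProduct, Matrix.mulVec, Finset.mul_sum, hu]
    exact Finset.sum_congr rfl fun i _ => Finset.sum_congr rfl fun j _ => by ring
  have h3 : 2 * ham G z = z.2 ⬝ᵥ ((G z.1)⁻¹ *ᵥ z.2) := two_ham G z.1 z.2
  rw [h1, h2, h3]
  have h4 := H.Grad.posSemidef_cs hI u z.2
  rw [← Real.sqrt_mul' _ (by
    have := hI.dotProduct_mulVec_nonneg z.2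
    rwa [star_trivial] at this)]
  exact Real.abs_le_sqrt h4

theorem hasDeriv (hG : Geo G Φ) (hf : ContDiff ℝ 1 f) (z : J.E n × J.E n) (t : ℝ) :
    HasDerivAt (fun s => f (Φ s z).1) (fderiv ℝ f (Φ t z).1 (hv G (Φ t z)).1) t := by
  have h1 : HasDerivAt (fun s => (Φ s z).1) (hv G (Φ t z)).1 t := (hG.flow t z).fst
  exact ((hf.differentiable (by norm_num) (Φ t z).1).hasFDerivAt).comp_hasDerivAt t h1

/-- the integral of `|df|` along a chord -/
theorem chord_int (hF : SpecFlow) (hL : SpecLiou) (hG : Geo G Φ) (hf : ContDiff ℝ 1 f)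
    (hfc : HasCompactSupport f) {l ε : ℝ} (hl : 0 ≤ l) (hε : 0 < ε) {z : J.E n × J.E n}
    (hz : z ∈ shl G) (hz' : l + ε < |f z.1|) :
    ENNReal.ofReal ε ≤ ∫⁻ s in Chd.chord Φ (Prod.fst ⁻¹' {x | l < |f x|}) z,
      {x | l < |f x| ∧ |f x| ≤ l + ε}.indicator (fun x => ENNReal.ofReal √(J.gsq G f x))
        (Φ s z).1 := by
  obtain ⟨-, hE, -, -⟩ := hL n G Φ hG
  have hc := ChdG.cont_flow hF hG
  set γ : ℝ → J.E n := fun s => (Φ s z).1 with hγ
  have hγc : Continuous γ := continuous_fst.comp (hc.comp (Continuous.prodMk_left z))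
  set F : ℝ → ℝ := fun s => f (γ s) with hFd
  have hFc : Continuous F := hf.continuous.comp hγc
  have hF0 : l + ε < |F 0| := by
    show l + ε < |f (Φ 0 z).1|
    rw [hG.zero]; exact hz'
  -- first exit
  obtain ⟨R, hR⟩ := hG.proper z (ChdG.ne_of_shl hz) (tsupport f) hfc
  set T0 : Set ℝ := {t | 0 ≤ t ∧ |F t| ≤ l} with hT0
  have hT0c : IsClosed T0 :=
    (isClosed_le continuous_const continuous_id).inter (isClosed_le hFc.abs continuous_const)
  have hT0n : T0.Nonempty := by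
    refine ⟨|R|, abs_nonneg _, ?_⟩
    have h1 : (Φ |R| z).1 ∉ tsupport f := hR |R| (by rw [abs_abs]; exact le_abs_self R)
    show |f (Φ |R| z).1| ≤ l
    rw [image_eq_zero_of_notMem_tsupport h1, abs_zero]
    exact hl
  have hT0b : BddBelow T0 := ⟨0, fun t ht => ht.1⟩
  set b : ℝ := sInf T0 with hb
  have hbT : b ∈ T0 := hT0c.csInf_mem hT0n hT0b
  have hbl : ∀ t, 0 ≤ t → t < b → l < |F t| := by
    intro t ht htb
    by_contra h
    push Not at h
    exact absurd (csInf_le hT0b (show t ∈ T0 from ⟨ht, h⟩)) (not_le.2 htb)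
  -- last time in the upper level
  set T1 : Set ℝ := {t | t ∈ Icc 0 b ∧ l + ε ≤ |F t|} with hT1
  have hT1c : IsCompact T1 :=
    isCompact_Icc.inter_right (isClosed_le continuous_const hFc.abs)
  have hT1n : T1.Nonempty := ⟨0, ⟨le_rfl, hbT.1⟩, hF0.le⟩
  set a : ℝ := sSup T1 with ha
  have haT : a ∈ T1 := hT1c.sSup_mem hT1n
  have hab : a < b := by
    refine lt_of_le_of_ne haT.1.2 fun h => ?_
    have h1 := haT.2
    rw [h] at h1
    have h2 := hbT.2
    linarith
  have hau : ∀ t, a < t → t ≤ b → |F t| < l + ε := by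
    intro t ht htb
    by_contra h
    push Not at h
    have h1 : t ∈ T1 := ⟨⟨haT.1.1.trans ht.le, htb⟩, h⟩
    exact absurd (le_csSup hT1c.bddAbove h1) (not_le.2 ht)
  -- fundamental theorem of calculus
  set F' : ℝ → ℝ := fun t => fderiv ℝ f (Φ t z).1 (hv G (Φ t z)).1 with hF'
  have hF'c : Continuous F' := by
    have h1 : Continuous fun t => Φ t z := hc.comp (Continuous.prodMk_left z)
    exact ((hf.continuous_fderiv (by norm_num)).comp (continuous_fst.comp h1)).clm_apply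
      (continuous_fst.comp ((ChdG.cd_hv hG.smooth hG.pos).continuous.comp h1))
  have hftc : ∫ t in a..b, F' t = F b - F a :=
    intervalIntegral.integral_eq_sub_of_hasDerivAt (fun t _ => hasDeriv hG hf z t)
      (hF'c.intervalIntegrable a b)
  have hgc : Continuous fun t => √(J.gsq G f (γ t)) :=
    ((SobR.cont_gsq hG.smooth hG.pos hf).comp hγc).sqrt
  have hbound : ∀ t, ‖F' t‖ ≤ √(J.gsq G f (γ t)) := by
    intro t
    rw [Real.norm_eq_abs]
    refine (speed hG.pos f (Φ t z)).trans ?_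
    have h1 : √(2 * ham G (Φ t z)) ≤ 1 := by
      rw [hE, Real.sqrt_le_one]
      exact hz.2
    exact mul_le_of_le_one_right (Real.sqrt_nonneg _) h1
  have h1 : ε ≤ ∫ t in a..b, √(J.gsq G f (γ t)) := by
    have h2 : ‖∫ t in a..b, F' t‖ ≤ ∫ t in a..b, √(J.gsq G f (γ t)) :=
      intervalIntegral.norm_integral_le_of_norm_le hab.le
        (Filter.Eventually.of_forall fun t _ => hbound t) (hgc.intervalIntegrable a b)
    refine le_trans ?_ h2
    rw [hftc, Real.norm_eq_abs, abs_sub_comm]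
    have h3 := abs_sub_abs_le_abs_sub (F a) (F b)
    have h4 := haT.2
    have h5 := hbT.2
    linarith
  -- conclusion
  have h2 : ENNReal.ofReal (∫ t in a..b, √(J.gsq G f (γ t))) =
      ∫⁻ t in Ioc a b, ENNReal.ofReal √(J.gsq G f (γ t)) := by
    rw [intervalIntegral.integral_of_le hab.le, ofReal_integral_eq_lintegral_ofReal
      (hgc.integrableOn_Ioc) (Filter.Eventually.of_forall fun t => Real.sqrt_nonneg _)]
  refine (ENNReal.ofReal_le_ofReal h1).trans ?_
  rw [h2, ← setLIntegral_congr (Ioo_ae_eq_Ioc (a := a) (b := b))]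
  have h3 : Ioo a b ⊆ Chd.chord Φ (Prod.fst ⁻¹' {x | l < |f x|}) z := by
    intro t ht u hu
    have ht0 : 0 ≤ t := haT.1.1.trans ht.1.le
    rw [uIcc_of_le ht0] at hu
    exact hbl u hu.1 (hu.2.trans_lt ht.2)
  refine le_trans ?_ (lintegral_mono_set h3)
  refine setLIntegral_mono' measurableSet_Ioo fun t ht => ?_
  have h4 : γ t ∈ {x | l < |f x| ∧ |f x| ≤ l + ε} :=
    ⟨hbl t (haT.1.1.trans ht.1.le) ht.2, (hau t ht.1 ht.2.le).le⟩
  rw [indicator_of_mem (show (Φ t z).1 ∈ {x | l < |f x| ∧ |f x| ≤ l + ε} from h4)]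

end Vale.Agent.P223.H566.Tru
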