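import Vale.Agent.P223.H566.Tru2

/-! Block T5c: the truncation inequality. -/

namespace Vale.Agent.P223.H566.Tru

open MeasureTheory Set Matrix
open Vale.Agent.P223.H765.NC
open scoped ENNReal NNReal ContDiff

/-- Hölder's inequality for `1 = (L^n)^(1/(n+1)) (1/L)^(n/(n+1))` -/
theorem holder {P : Type*} [MeasurableSpace P] {μ : Measure P} {D : Set P}
    (hD : MeasurableSet D) {L : P → ℝ≥0∞} (hL : Measurable L) (h0 : ∀ z ∈ D, L z ≠ 0)
    (ht : ∀ z ∈ D, L z ≠ ⊤) (n : ℕ) :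
    μ D ^ (n + 1) ≤ (∫⁻ z in D, L z ^ n ∂μ) * (∫⁻ z in D, (L z)⁻¹ ∂μ) ^ n := by
  have hn : (0 : ℝ) < (n : ℝ) + 1 := by positivity
  set p : ℝ := 1 / ((n : ℝ) + 1) with hp
  set q : ℝ := (n : ℝ) / (n + 1) with hq
  have hp0 : 0 ≤ p := by positivity
  have hq0 : 0 ≤ q := by positivity
  have hpq : p + q = 1 := by rw [hp, hq]; field_simp; ring
  have h1 := ENNReal.lintegral_mul_norm_pow_le (μ := μ.restrict D) (f := fun z => L z ^ n)
    (g := fun z => (L z)⁻¹) (hL.pow_const n).aemeasurable hL.inv.aemeasurable hp0 hq0 hpq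
  have h2 : μ D = ∫⁻ z in D, (L z ^ n) ^ p * ((L z)⁻¹) ^ q ∂μ := by
    rw [← setLIntegral_one]
    refine setLIntegral_congr_fun hD fun z hz => ?_
    rw [← ENNReal.rpow_natCast, ← ENNReal.rpow_mul, ENNReal.inv_rpow]
    have h3 : (n : ℝ) * p = q := by rw [hp, hq]; ring
    rw [h3, ENNReal.mul_inv_cancel]
    · intro h
      rcases ENNReal.rpow_eq_zero_iff.1 h with ⟨h, -⟩ | ⟨h, -⟩
      · exact h0 z hz h
      · exact ht z hz h
    · exact ENNReal.rpow_ne_top_of_nonneg hq0 (ht z hz)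
  rw [← h2] at h1
  have h4 := ENNReal.rpow_le_rpow h1 hn.le
  rw [ENNReal.mul_rpow_of_nonneg _ _ hn.le, ← ENNReal.rpow_mul, ← ENNReal.rpow_mul] at h4
  have h5 : p * ((n : ℝ) + 1) = 1 := by rw [hp]; field_simp
  have h6 : q * ((n : ℝ) + 1) = (n : ℝ) := by rw [hq]; field_simp
  rw [h5, h6, ENNReal.rpow_one, ENNReal.rpow_natCast] at h4
  have h7 : μ D ^ ((n : ℝ) + 1) = μ D ^ (n + 1) := by
    rw [← ENNReal.rpow_natCast]; push_cast; rfl
  rwa [h7] at h4

theorem specTru (hF : SpecFlow) (hL : SpecLiou) (hC : SpecChd) : SpecTru := by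
  intro n hn
  obtain ⟨C, hC⟩ := hC n hn
  set c : ℝ≥0∞ := volume (std n) with hc
  have hc0 : c ≠ 0 := (std_pos hn).ne'
  have hct : c ≠ ⊤ := std_ne_top n
  refine ⟨C * c.toNNReal⁻¹, ?_⟩
  intro G Φ hG f hf hfc l ε hl hε
  have hs := hG.smooth
  have hp := hG.pos
  have hfm : Measurable f := hf.continuous.measurable
  set Ω : Set (J.E n) := {x | l < |f x|} with hΩ
  set Ω' : Set (J.E n) := {x | l + ε < |f x|} with hΩ'
  set A : Set (J.E n) := {x | l < |f x| ∧ |f x| ≤ l + ε} with hA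
  have hΩo : IsOpen Ω := isOpen_lt continuous_const hf.continuous.abs
  have hΩo' : IsOpen Ω' := isOpen_lt continuous_const hf.continuous.abs
  have hAm : MeasurableSet A :=
    (measurableSet_lt measurable_const hfm.abs).inter (measurableSet_le hfm.abs measurable_const)
  have hΩb : Bornology.IsBounded Ω := by
    refine (hfc : IsCompact (tsupport f)).isBounded.subset fun x hx => ?_
    refine subset_tsupport f ?_
    intro h
    have h1 : l < |f x| := hx
    rw [h, abs_zero] at h1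
    linarith
  have hsub : Ω' ⊆ Ω := fun x hx => by
    have h1 : l + ε < |f x| := hx
    show l < |f x|
    linarith
  set U : Set (J.E n × J.E n) := Prod.fst ⁻¹' Ω with hU
  set L : J.E n × J.E n → ℝ≥0∞ := Chd.len Φ U with hLd
  have hflow := ChdG.cont_flow hF hG
  have hLm : Measurable L := Chd.meas_len hflow (ChdG.isOpen_fst hΩo)
  set D : Set (J.E n × J.E n) := shl G ∩ U with hD
  set D' : Set (J.E n × J.E n) := shl G ∩ Prod.fst ⁻¹' Ω' with hD'
  have hDm : MeasurableSet D := (ChdG.meas_shl hs hp).inter (ChdG.isOpen_fst hΩo).measurableSet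
  have hDm' : MeasurableSet D' := (ChdG.meas_shl hs hp).inter (ChdG.isOpen_fst hΩo').measurableSet
  have hDD : D' ⊆ D := fun z hz => ⟨hz.1, hsub hz.2⟩
  have hL0 : ∀ z ∈ D, L z ≠ 0 := fun z hz =>
    (Chd.len_pos hflow hG.zero (ChdG.isOpen_fst hΩo) hz.2).ne'
  have hLt : ∀ z ∈ D, L z ≠ ⊤ := fun z hz => ChdG.len_fin hG hΩb (ChdG.ne_of_shl hz.1)
  -- (1)
  have e1 : volume D' = c * vol G Ω' := by
    rw [← setLIntegral_one]
    have h1 := int_shl hs hp (A := Ω') hΩo'.measurableSet (h := fun _ => 1) measurable_const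
    simp only [mul_one] at h1
    exact h1
  -- (2)
  have e2 : ∫⁻ z in D, L z ^ n ≤ C * vol G Ω ^ 2 := by
    have h1 := hC G Φ hG Ω hΩo hΩb
    have h2 : ∀ z, len Φ Ω z = L z := fun z => ChdG.len_eq hG.zero Ω z
    simp only [h2] at h1
    exact h1
  -- (3)
  set J₀ : ℝ≥0∞ := ∫⁻ x in A, ENNReal.ofReal (√(J.gsq G f x) * √(G x).det / ε) with hJ
  set H : J.E n → ℝ≥0∞ := A.indicator fun x => ENNReal.ofReal √(J.gsq G f x) with hH
  have hHm : Measurable H :=
    ((SobR.cont_gsq hs hp hf).sqrt.measurable.ennreal_ofReal).indicator hAm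
  have e3 : ENNReal.ofReal ε * ∫⁻ z in D', (L z)⁻¹ ≤ ENNReal.ofReal ε * (c * J₀) := by
    calc ENNReal.ofReal ε * ∫⁻ z in D', (L z)⁻¹
        = ∫⁻ z in D', (L z)⁻¹ * ENNReal.ofReal ε := by
          have h1 : Measurable fun z => (L z)⁻¹ := hLm.inv
          rw [lintegral_mul_const _ h1, mul_comm]
      _ ≤ ∫⁻ z in D', (L z)⁻¹ * ∫⁻ s in Chd.chord Φ U z, H (Φ s z).1 := by
          refine setLIntegral_mono' hDm' fun z hz => ?_
          refine mul_le_mul_right ?_ _
          exact chord_int hF hL hG hf hfc hl hε hz.1 hz.2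
      _ ≤ ∫⁻ z in D, (L z)⁻¹ * ∫⁻ s in Chd.chord Φ U z, H (Φ s z).1 := lintegral_mono_set hDD
      _ = ∫⁻ z in D, H z.1 := ChdG.avg hF hL hG hΩo hΩb (H := fun z => H z.1)
          (hHm.comp measurable_fst)
      _ = c * ∫⁻ q in Ω, ENNReal.ofReal √(G q).det * H q :=
          int_shl hs hp (A := Ω) hΩo.measurableSet hHm
      _ = ENNReal.ofReal ε * (c * J₀) := by
          have h1 : ∫⁻ q in Ω, ENNReal.ofReal √(G q).det * H q = ENNReal.ofReal ε * J₀ := by
            rw [hJ, ← lintegral_const_mul]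
            · rw [← lintegral_indicator hΩo.measurableSet, ← lintegral_indicator hAm]
              refine lintegral_congr fun x => ?_
              by_cases hx : x ∈ A
              · have hx' : x ∈ Ω := hx.1
                rw [indicator_of_mem hx', indicator_of_mem hx, hH, indicator_of_mem hx,
                  ← ENNReal.ofReal_mul (Real.sqrt_nonneg _), ← ENNReal.ofReal_mul hε.le]
                congr 1
                field_simp
              · rw [indicator_of_notMem hx]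
                by_cases hx' : x ∈ Ω
                · rw [indicator_of_mem hx', hH, indicator_of_notMem hx, mul_zero]
                · rw [indicator_of_notMem hx']
            · exact (((SobR.cont_gsq hs hp hf).sqrt.mul (SobR.cont_sdet hs)).div_const
                ε).measurable.ennreal_ofReal
          rw [h1]; ring
  have hε0 : ENNReal.ofReal ε ≠ 0 := by
    rw [Ne, ENNReal.ofReal_eq_zero, not_le]; exact hε
  have e3' : ∫⁻ z in D', (L z)⁻¹ ≤ c * J₀ :=
    (ENNReal.mul_le_mul_iff_right hε0 ENNReal.ofReal_ne_top).1 e3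
  -- (4), (5)
  have e4 := holder (μ := volume) hDm' hLm (fun z hz => hL0 z (hDD hz))
    (fun z hz => hLt z (hDD hz)) n
  rw [e1] at e4
  have e5 : (c * vol G Ω') ^ (n + 1) ≤ (C * vol G Ω ^ 2) * (c * J₀) ^ n :=
    e4.trans (mul_le_mul' ((lintegral_mono_set hDD).trans e2) (pow_le_pow_left' e3' n))
  have e6 : c ^ n * (c * vol G Ω' ^ (n + 1)) ≤ c ^ n * (C * vol G Ω ^ 2 * J₀ ^ n) := by
    calc c ^ n * (c * vol G Ω' ^ (n + 1)) = (c * vol G Ω') ^ (n + 1) := by ring
      _ ≤ (C * vol G Ω ^ 2) * (c * J₀) ^ n := e5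
      _ = _ := by ring
  have e7 : c * vol G Ω' ^ (n + 1) ≤ C * vol G Ω ^ 2 * J₀ ^ n :=
    (ENNReal.mul_le_mul_iff_right (pow_ne_zero n hc0) (ENNReal.pow_ne_top hct)).1 e6
  have e8 : ((C * c.toNNReal⁻¹ : ℝ≥0) : ℝ≥0∞) = c⁻¹ * C := by
    rw [ENNReal.coe_mul, ENNReal.coe_inv, ENNReal.coe_toNNReal hct, mul_comm]
    exact fun h => hc0 ((ENNReal.toNNReal_eq_zero_iff c).1 h |>.resolve_right hct)
  rw [e8]
  calc vol G Ω' ^ (n + 1) = c⁻¹ * (c * vol G Ω' ^ (n + 1)) := by
        rw [← mul_assoc, ENNReal.inv_mul_cancel hc0 hct, one_mul]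
    _ ≤ c⁻¹ * (C * vol G Ω ^ 2 * J₀ ^ n) := mul_le_mul_right e7 _
    _ = _ := by ring

end Vale.Agent.P223.H566.Tru
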